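import Vale.Agent.P266.Defs

/-! P266, task Noether: finiteness of the integral closure, depth two, and dimension.

`exists_A0`. `B0 = adjoin Y` is of finite type, so it is finite over a polynomial ring `P` in `s`
variables, and `s = 2` by the transcendence degree. `A0` is the integral closure of `P` in `K`.
Depth: every element of `adjoin Y` is a constant plus an element of the ideal generated by `Y`, so
`(t i - c i) * h ∈ A0` for `i = 0, 1`; compare the minimal polynomials over the fraction field of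
`P`.

`dim_le_two`. Noether normalization of `A` with `s ≤ 2` variables; `PrimeSpectrum.comap` of an
integral map is strictly monotone. -/

namespace Vale.Agent.P266

open Polynomial in
theorem nt_depth {P K : Type} [CommRing P] [IsDomain P] [UniqueFactorizationMonoid P] [Field K]
    [Algebra P K] [FaithfulSMul P K] [Algebra.IsAlgebraic P K] {a b : P} (ha : a ≠ 0) (hb : b ≠ 0)
    (hab : IsRelPrime a b) {h : K} (h1 : IsIntegral P (a • h)) (h2 : IsIntegral P (b • h)) :
    IsIntegral P h := by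
  let F := FractionRing P
  let : Algebra F K := FractionRing.liftAlgebra P K
  have : IsScalarTower P F K := FractionRing.isScalarTower_liftAlgebra P K
  have hinj := IsFractionRing.injective P F
  have hh : IsIntegral F h :=
    ((Algebra.IsAlgebraic.isAlgebraic (R := P) h).extendScalars hinj).isIntegral
  have key : ∀ {a : P}, a ≠ 0 → IsIntegral P (a • h) → ∀ i, ∃ x : P, algebraMap P F x =
      (minpoly F h).coeff i * algebraMap P F a ^ ((minpoly F h).natDegree - i) := by
    intro a ha h1 i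
    have e1 := IsIntegrallyClosed.minpoly_smul (R := F) (r := algebraMap P F a)
      ((map_ne_zero_iff _ hinj).2 ha) hh
    rw [algebraMap_smul, minpoly.isIntegrallyClosed_eq_field_fractions' F h1] at e1
    exact ⟨(minpoly P (a • h)).coeff i, by rw [← coeff_map, e1, coeff_scaleRoots]⟩
  have hl : minpoly F h ∈ lifts (algebraMap P F) := by
    refine (lifts_iff_coeff_lifts _).2 fun i => ?_
    obtain ⟨x, hx⟩ := key ha h1 i
    obtain ⟨y, hy⟩ := key hb h2 i
    generalize (minpoly F h).natDegree - i = k at hx hy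
    have e : x * b ^ k = a ^ k * y := hinj (by
      rw [map_mul, map_mul, map_pow, map_pow, hx, hy]; ring)
    obtain ⟨z, rfl⟩ : a ^ k ∣ x := (hab.pow (m := k) (n := k)).dvd_of_dvd_mul_right ⟨y, e⟩
    refine ⟨z, ?_⟩
    rw [map_mul, map_pow, mul_comm] at hx
    exact mul_right_cancel₀ (pow_ne_zero _ ((map_ne_zero_iff _ hinj).2 ha)) hx
  obtain ⟨q, hq, -, hm⟩ := lifts_and_natDegree_eq_and_monic hl (minpoly.monic hh)
  refine ⟨q, hm, ?_⟩
  rw [← aeval_def, ← aeval_map_algebraMap F, hq, minpoly.aeval]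

open MvPolynomial in
theorem nt_relPrime (c0 c1 : ℂ) :
    IsRelPrime (X 0 - C c0 : MvPolynomial (Fin 2) ℂ) (X 1 - C c1) := by
  have h1 : Prime (X 0 - C c0 : MvPolynomial (Fin 2) ℂ) := by
    rw [← MulEquiv.prime_iff (finSuccEquiv ℂ 1), map_sub, finSuccEquiv_X_zero]
    have : finSuccEquiv ℂ 1 (C c0) = Polynomial.C (C c0) := (finSuccEquiv ℂ 1).commutes c0
    rw [this]
    exact Polynomial.prime_X_sub_C _
  refine h1.irreducible.isRelPrime_iff_not_dvd.2 fun h => ?_
  have := map_dvd (eval ![c0, c1 + 1]) h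
  simp at this

variable {K : Type} [Field K] [Algebra ℂ K]

theorem nt_fg {P : Type} [CommRing P] [IsDomain P] [IsIntegrallyClosed P] [Algebra ℂ P]
    [Algebra.FiniteType ℂ P] [Algebra P K] [IsScalarTower ℂ P K] [FaithfulSMul P K]
    [Algebra.IsAlgebraic P K] (S0 : Set K) (hS0 : S0.Finite)
    (hgen : IntermediateField.adjoin ℂ S0 = ⊤) :
    ((integralClosure P K).restrictScalars ℂ).FG := by
  let F := FractionRing P
  let : Algebra F K := FractionRing.liftAlgebra P K
  have : IsScalarTower P F K := FractionRing.isScalarTower_liftAlgebra P K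
  have : IsScalarTower ℂ F K := IsScalarTower.of_algebraMap_eq fun c => by
    rw [IsScalarTower.algebraMap_apply ℂ P F, ← IsScalarTower.algebraMap_apply P F K,
      IsScalarTower.algebraMap_apply ℂ P K]
  have hinj := IsFractionRing.injective P F
  have : IsNoetherianRing P := Algebra.FiniteType.isNoetherianRing ℂ P
  have : CharZero F := charZero_of_injective_algebraMap (algebraMap ℂ F).injective
  have : Finite S0 := hS0
  have h1 : FiniteDimensional F (IntermediateField.adjoin F S0) :=
    IntermediateField.finiteDimensional_adjoin fun x _ =>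
      ((Algebra.IsAlgebraic.isAlgebraic (R := P) x).extendScalars hinj).isIntegral
  rw [IntermediateField.adjoin_eq_top_of_adjoin_eq_top ℂ hgen] at h1
  have : FiniteDimensional F K := IntermediateField.topEquiv.toLinearEquiv.finiteDimensional
  have : Module.Finite P (integralClosure P K) := IsIntegralClosure.finite P F K _
  have : Algebra.FiniteType ℂ (integralClosure P K) :=
    Algebra.FiniteType.trans (S := P) inferInstance inferInstance
  exact (Subalgebra.fg_iff_finiteType _).2 this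

theorem nt_const (Y : Set K) (A : Subalgebra ℂ K) (hY : Y ⊆ A) {h : K} (hh : ∀ y ∈ Y, y * h ∈ A)
    {x : K} (hx : x ∈ Algebra.adjoin ℂ Y) : ∃ c : ℂ, (x - algebraMap ℂ K c) * h ∈ A := by
  induction hx using Algebra.adjoin_induction with
  | mem x hx => exact ⟨0, by simpa using hh x hx⟩
  | algebraMap r => exact ⟨r, by simp⟩
  | add x y _ _ hx hy =>
    obtain ⟨c, hc⟩ := hx
    obtain ⟨d, hd⟩ := hy
    refine ⟨c + d, ?_⟩
    convert add_mem hc hd using 1
    rw [map_add]; ring
  | mul x y hx _ hx' hy' =>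
    obtain ⟨c, hc⟩ := hx'
    obtain ⟨d, hd⟩ := hy'
    refine ⟨c * d, ?_⟩
    convert add_mem (mul_mem (Algebra.adjoin_le hY hx) hd) (mul_mem (A.algebraMap_mem d) hc)
      using 1
    rw [map_mul]; ring

theorem exists_A0 (Y : Set K) (hY : Y.Finite) (htr : Algebra.trdeg ℂ K = 2)
    (S0 : Set K) (hS0 : S0.Finite) (hgen : IntermediateField.adjoin ℂ S0 = ⊤)
    (halg : Algebra.IsAlgebraic (Algebra.adjoin ℂ Y) K) :
    ∃ A0 : Subalgebra ℂ K, A0.FG ∧ Y ⊆ A0 ∧ (∀ x : K, IsIntegral A0 x → x ∈ A0) ∧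
      (∀ x ∈ A0, IsIntegral (Algebra.adjoin ℂ Y) x) ∧
      (∀ x : K, ∃ b ∈ A0, b ≠ 0 ∧ b * x ∈ A0) ∧
      ∀ h : K, (∀ y ∈ Y, y * h ∈ A0) → h ∈ A0 := by
  have : Algebra.FiniteType ℂ (Algebra.adjoin ℂ Y) :=
    (Subalgebra.fg_iff_finiteType _).1 (Subalgebra.fg_def.2 ⟨Y, hY, rfl⟩)
  obtain ⟨s, g, hg, hfin⟩ := exists_finite_inj_algHom_of_fg ℂ (Algebra.adjoin ℂ Y)
  let : Algebra (MvPolynomial (Fin s) ℂ) (Algebra.adjoin ℂ Y) := g.toRingHom.toAlgebra
  let : Algebra (MvPolynomial (Fin s) ℂ) K :=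
    ((Algebra.adjoin ℂ Y).val.comp g).toRingHom.toAlgebra
  have : IsScalarTower (MvPolynomial (Fin s) ℂ) (Algebra.adjoin ℂ Y) K :=
    IsScalarTower.of_algebraMap_eq fun _ => rfl
  have : IsScalarTower ℂ (MvPolynomial (Fin s) ℂ) K :=
    IsScalarTower.of_algebraMap_eq fun c => (((Algebra.adjoin ℂ Y).val.comp g).commutes c).symm
  have : Module.Finite (MvPolynomial (Fin s) ℂ) (Algebra.adjoin ℂ Y) := hfin
  have hinj : Function.Injective (algebraMap (MvPolynomial (Fin s) ℂ) K) :=
    Subtype.val_injective.comp hg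
  have : FaithfulSMul (MvPolynomial (Fin s) ℂ) K :=
    (faithfulSMul_iff_algebraMap_injective _ _).2 hinj
  have : Algebra.IsAlgebraic (MvPolynomial (Fin s) ℂ) K :=
    Algebra.IsAlgebraic.trans _ (Algebra.adjoin ℂ Y) _
  obtain rfl : s = 2 := by
    have := trdeg_add_eq ℂ (MvPolynomial (Fin s) ℂ) (A := K)
    rw [htr, MvPolynomial.trdeg_of_isDomain, trdeg_eq_zero] at this
    have h2 : (s : Cardinal.{0}) = 2 := by simpa using this
    exact_mod_cast h2
  have hYA : Y ⊆ (integralClosure (MvPolynomial (Fin 2) ℂ) K).restrictScalars ℂ := fun y hy =>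
    (Algebra.IsIntegral.isIntegral (R := MvPolynomial (Fin 2) ℂ)
      (⟨y, Algebra.subset_adjoin hy⟩ : Algebra.adjoin ℂ Y)).algebraMap (B := K)
  refine ⟨(integralClosure (MvPolynomial (Fin 2) ℂ) K).restrictScalars ℂ, nt_fg S0 hS0 hgen, hYA,
    fun x hx => ?_, fun x hx => ?_, fun x => ?_, fun h hh => ?_⟩
  · exact isIntegral_trans (A := integralClosure (MvPolynomial (Fin 2) ℂ) K) x hx
  · exact IsIntegral.tower_top (R := MvPolynomial (Fin 2) ℂ) hx
  · obtain ⟨b, hb, hbx⟩ :=
      (Algebra.IsAlgebraic.isAlgebraic (R := MvPolynomial (Fin 2) ℂ) x).exists_integral_multiple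
    exact ⟨algebraMap _ K b, isIntegral_algebraMap, (map_ne_zero_iff _ hinj).2 hb,
      by rwa [Algebra.smul_def] at hbx⟩
  · have key : ∀ i : Fin 2, ∃ c : ℂ, IsIntegral (MvPolynomial (Fin 2) ℂ)
        ((MvPolynomial.X i - MvPolynomial.C c : MvPolynomial (Fin 2) ℂ) • h) := fun i => by
      obtain ⟨c, hc⟩ := nt_const Y _ hYA hh (g (MvPolynomial.X i)).2
      refine ⟨c, ?_⟩
      rw [Algebra.smul_def, map_sub, ← MvPolynomial.algebraMap_eq,
        ← IsScalarTower.algebraMap_apply]
      exact hc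
    obtain ⟨c0, h0⟩ := key 0
    obtain ⟨c1, h1⟩ := key 1
    have hne : ∀ (i : Fin 2) (c : ℂ),
        (MvPolynomial.X i - MvPolynomial.C c : MvPolynomial (Fin 2) ℂ) ≠ 0 := fun i c e => by
      simpa using congrArg (MvPolynomial.eval fun _ => c + 1) e
    exact nt_depth (hne 0 c0) (hne 1 c1) (nt_relPrime c0 c1) h0 h1

theorem dim_le_two (A : Subalgebra ℂ K) (hA : A.FG) (htr : Algebra.trdeg ℂ K = 2) :
    ringKrullDim A ≤ 2 := by
  have : Algebra.FiniteType ℂ A := (Subalgebra.fg_iff_finiteType _).1 hA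
  obtain ⟨s, g, hg, hfin⟩ := exists_finite_inj_algHom_of_fg ℂ A
  let : Algebra (MvPolynomial (Fin s) ℂ) A := g.toRingHom.toAlgebra
  have : Module.Finite (MvPolynomial (Fin s) ℂ) A := hfin
  have hs : s ≤ 2 := by
    have := trdeg_le_of_injective (A.val.comp g) (Subtype.val_injective.comp hg)
    rw [htr, MvPolynomial.trdeg_of_isDomain] at this
    simpa using this
  have h1 : ringKrullDim A ≤ ringKrullDim (MvPolynomial (Fin s) ℂ) := by
    refine Order.krullDim_le_of_strictMono
      (PrimeSpectrum.comap (algebraMap (MvPolynomial (Fin s) ℂ) A)) fun p q hpq => ?_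
    obtain ⟨x, hxq, hxp⟩ := SetLike.exists_of_lt (show p.asIdeal < q.asIdeal from hpq)
    exact Ideal.comap_lt_comap_of_integral_mem_sdiff hpq.le ⟨hxq, hxp⟩
      (Algebra.IsIntegral.isIntegral x)
  refine h1.trans ?_
  rw [MvPolynomial.ringKrullDim_of_isNoetherianRing, ringKrullDim_eq_zero_of_field, zero_add]
  simpa using hs

end Vale.Agent.P266
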