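import Vale.Agent.P266.Defs

/-! P266, task NonReg: freeness of the derivation module and non-regularity.

Plan for `extend_der`. `K` is the fraction field of `A` (`IsFractionRing A K` from `hfr`). Either use
the ring hom `A → TrivSqZeroExt K K`, `a ↦ (a, D a)`, and `IsLocalization.lift`, or Kaehler
differentials (`KaehlerDifferential.isBaseChange_of_formallyEtale`-type lemmas).

Plan for `free_of`. Restrict `v1`, `v2` to derivations `w1`, `w2` of `A`. Linear independence: if
`a • w1 + b • w2 = 0` then `a • v1 + b • v2` vanishes on `A`, hence on `K`, and Cramer's rule with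
`hD` gives `a = b = 0`. Spanning: `extend_der`, `hspan`, `hfree`. Use `Module.Basis.mk`.

Plan for `not_regular`. If `A` is regular then `O = A_m` is a regular local ring of dimension at most
two (`IsRegularRing`, `IsLocalization.AtPrime.ringKrullDim_eq_height`, height at most the dimension),
so its maximal ideal is generated by two elements, WLOG images of `x1 x2 ∈ m`. The residue field
`A / m` is `ℂ` (Nullstellensatz: `finite_of_finite_type_of_isJacobsonRing`, algebraically closed).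
So for every `f ∈ A` there are `c : ℂ`, `s ∉ m`, `a b ∈ A` with `s * (f - c) = a * x1 + b * x2`.
Let `dd f = (v1 f, v2 f) ∈ A × A`, `N` the `A`-span of all `dd f` (finitely generated as `A` is
Noetherian), `N'` the span of `dd x1, dd x2`. Then `s • dd f ∈ N' + m • N`. By Nakayama (localize, or
apply it to the ideal `N'.colon N`: if it lies in `m`, get a contradiction) there is `s ∉ m` with
`s • N ≤ N'`: `s • dd f = f1 • dd x1 + f2 • dd x2`. `Δ = Dl v1 v2 x1 x2 ≠ 0`, since otherwise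
`Dl v1 v2 f g = 0` for all `f g ∈ A`, hence on `K`. The derivation
`δ = (s * v2 x2 / Δ) • v1 + (- s * v1 x2 / Δ) • v2` has `δ f = f1 ∈ A`, so by `hfree` its
coefficients are in `A`, and `s = δ x1 ∈ m`: contradiction. -/

namespace Vale.Agent.P266

variable {K : Type} [Field K] [Algebra ℂ K]

theorem nr_isFractionRing (A : Subalgebra ℂ K) (hfr : ∀ x : K, ∃ b ∈ A, b ≠ 0 ∧ b * x ∈ A) :
    IsFractionRing A K := by
  refine IsFractionRing.of_field A K fun x => ?_
  obtain ⟨b, hb, hb0, hx⟩ := hfr x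
  refine ⟨⟨_, hx⟩, ⟨b, hb⟩, ?_⟩
  change x = b * x / b
  field_simp

theorem extend_der (A : Subalgebra ℂ K) (hfr : ∀ x : K, ∃ b ∈ A, b ≠ 0 ∧ b * x ∈ A)
    (D : Derivation ℂ A A) : ∃ D' : Derivation ℂ K K, ∀ a : A, D' (a : K) = (D a : K) := by
  have := nr_isFractionRing A hfr
  have : Algebra.FormallyEtale A K := Algebra.FormallyEtale.of_isLocalization (nonZeroDivisors A)
  have hb := KaehlerDifferential.isBaseChange_of_formallyEtale ℂ A K
  let l : Ω[A⁄ℂ] →ₗ[A] K := ((Algebra.linearMap A K).compDer D).liftKaehlerDifferential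
  refine ⟨(hb.lift l).compDer (KaehlerDifferential.D ℂ K), fun a => ?_⟩
  have e : KaehlerDifferential.D ℂ K (a : K) =
      KaehlerDifferential.map ℂ ℂ A K (KaehlerDifferential.D ℂ A a) := by
    rw [KaehlerDifferential.map_D]
    rfl
  change hb.lift l (KaehlerDifferential.D ℂ K (a : K)) = _
  rw [e, hb.lift_eq]
  simp [l]

theorem nr_der_zero (A : Subalgebra ℂ K) (hfr : ∀ x : K, ∃ b ∈ A, b ≠ 0 ∧ b * x ∈ A)
    (δ : Derivation ℂ K K) (h : ∀ a ∈ A, δ a = 0) (x : K) : δ x = 0 := by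
  obtain ⟨b, hb, hb0, hx⟩ := hfr x
  have h1 := h _ hx
  rw [Derivation.leibniz, h b hb, smul_zero, add_zero, smul_eq_mul] at h1
  exact (mul_eq_zero.1 h1).resolve_left hb0

/-- restriction of a derivation to a stable subalgebra -/
noncomputable def nrRes (A : Subalgebra ℂ K) (v : Derivation ℂ K K) (h : Pres v A) :
    Derivation ℂ A A :=
  Derivation.mk'
    { toFun := fun a => ⟨v a, h a a.2⟩
      map_add' := fun a b => Subtype.ext (by simp)
      map_smul' := fun c a => Subtype.ext (by simp) }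
    fun a b => Subtype.ext (by simp)

theorem nrRes_apply (A : Subalgebra ℂ K) (v : Derivation ℂ K K) (h : Pres v A) (a : A) :
    (nrRes A v h a : K) = v a := rfl

theorem free_of (A : Subalgebra ℂ K) (hfr : ∀ x : K, ∃ b ∈ A, b ≠ 0 ∧ b * x ∈ A)
    (v1 v2 : Derivation ℂ K K) (hD : ∃ f g : K, Dl v1 v2 f g ≠ 0)
    (hspan : ∀ D : Derivation ℂ K K, ∃ a b : K, D = a • v1 + b • v2)
    (h1 : Pres v1 A) (h2 : Pres v2 A)
    (hfree : ∀ a b : K, Pres (a • v1 + b • v2) A → a ∈ A ∧ b ∈ A) :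
    Module.Free A (Derivation ℂ A A) := by
  obtain ⟨f, g, hD⟩ := hD
  have hli : LinearIndependent A ![nrRes A v1 h1, nrRes A v2 h2] := by
    rw [LinearIndependent.pair_iff]
    intro a b hab
    have h0 := nr_der_zero A hfr ((a : K) • v1 + (b : K) • v2) fun x hx => by
      have := congrArg (fun D : Derivation ℂ A A => (D ⟨x, hx⟩ : K)) hab
      simpa [nrRes_apply] using this
    have e1 := h0 f
    have e2 := h0 g
    simp only [Derivation.add_apply, Derivation.smul_apply, smul_eq_mul] at e1 e2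
    unfold Dl at hD
    constructor
    · refine Subtype.ext (mul_right_cancel₀ hD ?_)
      change (a : K) * _ = 0 * _
      linear_combination v2 g * e1 - v2 f * e2
    · refine Subtype.ext (mul_right_cancel₀ hD ?_)
      change (b : K) * _ = 0 * _
      linear_combination v1 f * e2 - v1 g * e1
  have hsp : ⊤ ≤ Submodule.span A (Set.range ![nrRes A v1 h1, nrRes A v2 h2]) := by
    intro D _
    obtain ⟨D', hD'⟩ := extend_der A hfr D
    obtain ⟨a, b, rfl⟩ := hspan D'
    obtain ⟨ha, hb⟩ := hfree a b fun x hx => by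
      rw [hD' ⟨x, hx⟩]
      exact (D ⟨x, hx⟩).2
    have e : D = (⟨a, ha⟩ : A) • nrRes A v1 h1 + (⟨b, hb⟩ : A) • nrRes A v2 h2 := by
      ext x
      rw [← hD' x]
      simp [nrRes_apply]
    rw [e]
    exact Submodule.add_mem _ (Submodule.smul_mem _ _ (Submodule.subset_span ⟨0, rfl⟩))
      (Submodule.smul_mem _ _ (Submodule.subset_span ⟨1, rfl⟩))
  exact Module.Free.of_basis (Module.Basis.mk hli hsp)

theorem nr_two_gens {R : Type} [CommRing R] [IsRegularRing R] (hdim : ringKrullDim R ≤ 2)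
    (m : Ideal R) (hm : m.IsMaximal) : ∃ x1 ∈ m, ∃ x2 ∈ m, ∀ f ∈ m, ∃ s ∉ m, ∃ a b : R,
      s * f = a * x1 + b * x2 := by
  classical
  let O := Localization.AtPrime m
  have hr : IsRegularLocalRing O := inferInstance
  have h1 : (IsLocalRing.maximalIdeal O).spanFinrank ≤ 2 := by
    have h2 := hr.spanFinrank_maximalIdeal
    rw [IsLocalization.AtPrime.ringKrullDim_eq_height m O] at h2
    have h3 : ((IsLocalRing.maximalIdeal O).spanFinrank : WithBot ℕ∞) ≤ 2 :=
      h2 ▸ (Ideal.height_le_ringKrullDim_of_isPrime).trans hdim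
    exact_mod_cast h3
  obtain ⟨t, ht, hsp⟩ := Submodule.FG.exists_span_finset_card_eq_spanFinrank
    (IsNoetherian.noetherian (IsLocalRing.maximalIdeal O))
  obtain ⟨y1, hy1, y2, hy2, hy⟩ : ∃ y1 ∈ IsLocalRing.maximalIdeal O,
      ∃ y2 ∈ IsLocalRing.maximalIdeal O, (t : Set O) ⊆ {y1, y2} := by
    have hmem : ∀ y ∈ t, y ∈ IsLocalRing.maximalIdeal O := fun y hy =>
      hsp ▸ Submodule.subset_span hy
    have h4 : t.card = 0 ∨ t.card = 1 ∨ t.card = 2 := by omega
    rcases h4 with h4 | h4 | h4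
    · rw [Finset.card_eq_zero] at h4
      exact ⟨0, zero_mem _, 0, zero_mem _, by simp [h4]⟩
    · obtain ⟨y, rfl⟩ := Finset.card_eq_one.1 h4
      exact ⟨y, hmem y (by simp), y, hmem y (by simp), by simp⟩
    · obtain ⟨y, z, -, rfl⟩ := Finset.card_eq_two.1 h4
      exact ⟨y, hmem y (by simp), z, hmem z (by simp), by simp⟩
  obtain ⟨⟨x1, s1⟩, e1⟩ := IsLocalization.surj m.primeCompl y1
  obtain ⟨⟨x2, s2⟩, e2⟩ := IsLocalization.surj m.primeCompl y2
  dsimp only at e1 e2
  have hm' : ∀ x : R, algebraMap R O x ∈ IsLocalRing.maximalIdeal O ↔ x ∈ m := fun x =>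
    IsLocalization.AtPrime.to_map_mem_maximal_iff O m x
  refine ⟨x1, (hm' _).1 (e1 ▸ Ideal.mul_mem_right _ _ hy1), x2,
    (hm' _).1 (e2 ▸ Ideal.mul_mem_right _ _ hy2), fun f hf => ?_⟩
  have h5 : algebraMap R O f ∈ Submodule.span O {y1, y2} :=
    Submodule.span_mono hy (hsp.symm ▸ (hm' f).2 hf)
  obtain ⟨a, b, hab⟩ := Submodule.mem_span_pair.1 h5
  obtain ⟨⟨a1, t1⟩, e3⟩ := IsLocalization.surj m.primeCompl a
  obtain ⟨⟨b1, t2⟩, e4⟩ := IsLocalization.surj m.primeCompl b
  dsimp only at e3 e4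
  have h6 : algebraMap R O (s1 * s2 * t1 * t2 * f) =
      algebraMap R O (a1 * s2 * t2 * x1 + b1 * s1 * t1 * x2) := by
    simp only [map_mul, map_add, ← hab, ← e1, ← e2, ← e3, ← e4, smul_eq_mul]
    ring
  obtain ⟨c, hc⟩ := (IsLocalization.eq_iff_exists m.primeCompl O).1 h6
  refine ⟨(c * s1 * s2 * t1 * t2 : m.primeCompl), (c * s1 * s2 * t1 * t2).2,
    c * a1 * s2 * t2, c * b1 * s1 * t1, ?_⟩
  simp only [Submonoid.coe_mul]
  linear_combination hc

theorem not_regular (A : Subalgebra ℂ K) (hA : A.FG) (hdim : ringKrullDim A ≤ 2)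
    (hfr : ∀ x : K, ∃ b ∈ A, b ≠ 0 ∧ b * x ∈ A)
    (v1 v2 : Derivation ℂ K K) (hD : ∃ f g : K, Dl v1 v2 f g ≠ 0)
    (m : Ideal A) (hm : m.IsMaximal)
    (h1 : ∀ a : A, ∃ b ∈ m, v1 (a : K) = (b : K)) (h2 : ∀ a : A, ∃ b ∈ m, v2 (a : K) = (b : K))
    (hfree : ∀ a b : K, Pres (a • v1 + b • v2) A → a ∈ A ∧ b ∈ A) :
    ¬ IsRegularRing A := by
  intro hreg
  obtain ⟨x1, hx1, x2, hx2, hx⟩ := nr_two_gens hdim m hm
  have hft : Algebra.FiniteType ℂ A := (Subalgebra.fg_iff_finiteType A).1 hA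
  have hres : ∀ f : A, ∃ c : ℂ, f - algebraMap ℂ A c ∈ m := by
    intro f
    let := Ideal.Quotient.field m
    have : Module.Finite ℂ (A ⧸ m) := finite_of_finite_type_of_isJacobsonRing ℂ (A ⧸ m)
    obtain ⟨c, hc⟩ := (IsAlgClosed.algebraMap_bijective_of_isIntegral (k := ℂ) (K := A ⧸ m)).2
      (Ideal.Quotient.mk m f)
    exact ⟨c, Ideal.Quotient.eq.1 hc.symm⟩
  let dd : A → K × K := fun f => (v1 f, v2 f)
  have dmul : ∀ f g : A, dd (f * g) = f • dd g + g • dd f := fun f g => by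
    refine Prod.ext ?_ ?_ <;> simp [dd, Subalgebra.smul_def]
  have dadd : ∀ f g : A, dd (f + g) = dd f + dd g := fun f g => by
    refine Prod.ext ?_ ?_ <;> simp [dd]
  have dsub : ∀ (f : A) (c : ℂ), dd (f - algebraMap ℂ A c) = dd f := fun f c => by
    refine Prod.ext ?_ ?_ <;> simp [dd]
  let N : Submodule A (K × K) := Submodule.span A (Set.range dd)
  let N' : Submodule A (K × K) := Submodule.span A {dd x1, dd x2}
  have hN : ∀ f, dd f ∈ N := fun f => Submodule.subset_span ⟨f, rfl⟩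
  have hfg : N.FG := by
    refine Submodule.FG.of_le (T := Submodule.span A {((1 : K), (0 : K)), ((0 : K), (1 : K))})
      (Submodule.fg_span (by simp)) (Submodule.span_le.2 ?_)
    rintro _ ⟨f, rfl⟩
    obtain ⟨a, -, ha⟩ := h1 f
    obtain ⟨b, -, hb⟩ := h2 f
    refine Submodule.mem_span_pair.2 ⟨a, b, ?_⟩
    refine Prod.ext ?_ ?_ <;> simp [dd, ha, hb, Subalgebra.smul_def]
  have hle : N ≤ N' ⊔ m • N := by
    refine Submodule.span_le.2 ?_
    rintro _ ⟨f, rfl⟩
    obtain ⟨c, hc⟩ := hres f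
    rw [← dsub f c]
    generalize f - algebraMap ℂ A c = g at hc
    obtain ⟨s, hs, a, b, hab⟩ := hx g hc
    obtain ⟨t, μ, hμ, e⟩ := hm.exists_inv hs
    have e1 : s • dd g + g • dd s = a • dd x1 + x1 • dd a + (b • dd x2 + x2 • dd b) := by
      rw [← dmul, hab, dadd, dmul, dmul]
    have e2 : dd g = t • (a • dd x1 + b • dd x2) +
        (t • (x1 • dd a + x2 • dd b - g • dd s) + μ • dd g) := by
      have e3 : dd g = (t * s + μ) • dd g := by rw [e, one_smul]
      have e4 : s • dd g = a • dd x1 + x1 • dd a + (b • dd x2 + x2 • dd b) - g • dd s :=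
        eq_sub_of_add_eq e1
      rw [add_smul, mul_smul, e4] at e3
      refine e3.trans ?_
      module
    change dd g ∈ N' ⊔ m • N
    rw [e2]
    refine Submodule.add_mem_sup (Submodule.smul_mem _ _ (Submodule.mem_span_pair.2 ⟨a, b, rfl⟩))
      (Submodule.add_mem _ (Submodule.smul_mem _ _ (Submodule.sub_mem _ (Submodule.add_mem _ ?_ ?_)
        ?_)) ?_)
    · exact Submodule.smul_mem_smul hx1 (hN _)
    · exact Submodule.smul_mem_smul hx2 (hN _)
    · exact Submodule.smul_mem_smul hc (hN _)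
    · exact Submodule.smul_mem_smul hμ (hN _)
  obtain ⟨r, hr, hrN⟩ := Submodule.exists_sub_one_mem_and_smul_le_of_fg_of_le_sup hfg le_rfl hle
  have hrm : r ∉ m := fun h => hm.ne_top (m.eq_top_iff_one.2 (by simpa using m.sub_mem h hr))
  have hr0 : (r : K) ≠ 0 := fun h => hrm (by
    rw [show r = 0 from Subtype.ext h]
    exact m.zero_mem)
  have hco : ∀ f ∈ A, ∃ f1 ∈ A, ∃ f2 ∈ A, f1 * v1 x1 + f2 * v1 x2 = r * v1 f ∧
      f1 * v2 x1 + f2 * v2 x2 = r * v2 f := by
    intro f hf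
    have : r • dd ⟨f, hf⟩ ∈ N' := hrN (Submodule.smul_mem_pointwise_smul _ _ _ (hN _))
    obtain ⟨a, b, hab⟩ := Submodule.mem_span_pair.1 this
    exact ⟨a, a.2, b, b.2, congrArg Prod.fst hab, congrArg Prod.snd hab⟩
  have hΔ : Dl v1 v2 x1 x2 ≠ 0 := by
    intro h0
    obtain ⟨f, g, hD⟩ := hD
    refine hD ?_
    have k1 : ∀ f ∈ A, ∀ g ∈ A, Dl v1 v2 f g = 0 := by
      intro f hf g hg
      obtain ⟨f1, -, f2, -, e1, e2⟩ := hco f hf
      obtain ⟨g1, -, g2, -, e3, e4⟩ := hco g hg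
      refine mul_left_cancel₀ (mul_ne_zero hr0 hr0) ?_
      unfold Dl at h0 ⊢
      linear_combination (f1 * g2 - f2 * g1) * h0 - (r * v2 g) * e1 + (r * v1 g) * e2
        - (f1 * v1 x1 + f2 * v1 x2) * e4 + (f1 * v2 x1 + f2 * v2 x2) * e3
    have k2 : ∀ f ∈ A, ∀ g : K, Dl v1 v2 f g = 0 := by
      intro f hf g
      have := nr_der_zero A hfr (v1 f • v2 - v2 f • v1) (fun a ha => by
        simpa [Dl] using k1 f hf a ha) g
      simpa [Dl] using this
    have := nr_der_zero A hfr (v2 g • v1 - v1 g • v2) (fun a ha => by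
      have := k2 a ha g
      simp only [Dl] at this
      simp only [Derivation.sub_apply, Derivation.smul_apply, smul_eq_mul]
      linear_combination this) f
    simp only [Derivation.sub_apply, Derivation.smul_apply, smul_eq_mul] at this
    unfold Dl
    linear_combination this
  obtain ⟨ha, hb⟩ := hfree (r * v2 x2 / Dl v1 v2 x1 x2) (-(r * v1 x2) / Dl v1 v2 x1 x2)
    fun f hf => by
      obtain ⟨f1, hf1, f2, -, e1, e2⟩ := hco f hf
      have : ((r * v2 x2 / Dl v1 v2 x1 x2) • v1 + (-(r * v1 x2) / Dl v1 v2 x1 x2) • v2) f = f1 := by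
        simp only [Derivation.add_apply, Derivation.smul_apply, smul_eq_mul]
        field_simp
        unfold Dl
        linear_combination v1 x2 * e2 - v2 x2 * e1
      rw [this]
      exact hf1
  obtain ⟨a, ham, ha'⟩ := h1 x1
  obtain ⟨b, hbm, hb'⟩ := h2 x1
  refine hrm ?_
  have e : r = ⟨_, ha⟩ * a + ⟨_, hb⟩ * b := by
    refine Subtype.ext ?_
    change (r : K) = r * v2 x2 / Dl v1 v2 x1 x2 * a + -(r * v1 x2) / Dl v1 v2 x1 x2 * b
    rw [← ha', ← hb']
    field_simp
    unfold Dl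
    ring
  rw [e]
  exact m.add_mem (m.mul_mem_left _ ham) (m.mul_mem_left _ hbm)

end Vale.Agent.P266
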