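import Vale.Agent.P266.Defs

/-! P266, task S2: a Noetherian normal domain localized at `G` is the intersection of the
valuation rings that are localizations at primes not containing `G`.

Plan. For `x ∈ A` with `∀ n, G ^ n * (x * h) ∉ A` let `I x = {y ∈ A | y * (x * h) ∈ A}` (an ideal).
Choose `x` with `I x` maximal among these (Noetherian), `h' = x * h`, `p = I x`.
`p` is prime: if `y * w ∈ p` and no `G ^ n * y * h'` is in `A`, then `I (y * x) = p ∋ w`; otherwise
`G ^ n * y * h' ∈ A` and `y ∈ I (G ^ n * x) = p`. `G ∉ p`, `1 ∉ p`, `p ≠ ⊥`.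
If `h' * p ⊆ p` then `h'` is integral (`isIntegral_of_smul_mem_submodule`), impossible. So there is
`y ∈ p` with `s = y * h' ∈ A \ p`, and every `w ∈ p` is `(w * h') * y / s`.
Let `O = {a / b | a b ∈ A, b ∉ p}`; it is a Noetherian local domain with principal maximal ideal,
so a valuation ring (`Localization.subalgebra.ofField`, `IsDiscreteValuationRing.TFAE`, or directly:
for nonzero `a ∈ A` the largest `n` with `a ∈ y ^ n O` exists by Krull intersection).
Elements of `A \ p` have valuation `1`, elements of `p` have valuation `< 1`; `h ∉ O` because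
`b * h ∈ A` with `b ∉ p` would give `b ∈ p`. -/

namespace Vale.Agent.P266

variable {K : Type} [Field K] [Algebra ℂ K]

theorem s2_mem_of_pow (A : Subalgebra ℂ K) (hN : IsNoetherianRing A)
    (hic : ∀ x : K, IsIntegral A x → x ∈ A) {a x : K} (ha : a ∈ A) (ha0 : a ≠ 0)
    (h : ∀ k : ℕ, a * x ^ k ∈ A) : x ∈ A := by
  refine hic x (IsAlmostIntegral.isIntegral ⟨⟨a, ha⟩, ?_, fun n => ⟨⟨_, h n⟩, rfl⟩⟩)
  exact mem_nonZeroDivisors_of_ne_zero fun e => ha0 (congrArg Subtype.val e)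

/-- the ideal of denominators -/
def s2Den (A : Subalgebra ℂ K) (x : K) : Ideal A where
  carrier := {y | (y : K) * x ∈ A}
  add_mem' := fun {a b} ha hb => by
    have := A.add_mem ha hb
    simpa [add_mul] using this
  zero_mem' := by simp
  smul_mem' := fun c a ha => by
    have := A.mul_mem c.2 ha
    simpa [mul_assoc] using this

theorem s2_prime (A : Subalgebra ℂ K) (hN : IsNoetherianRing A) (G : K) (hG : G ∈ A) (h : K)
    (hh : ∀ n : ℕ, G ^ n * h ∉ A) : ∃ x ∈ A, (∀ n : ℕ, G ^ n * (x * h) ∉ A) ∧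
      ∀ y ∈ A, ∀ w ∈ A, y * w * (x * h) ∈ A → y * (x * h) ∈ A ∨ w * (x * h) ∈ A := by
  obtain ⟨p, ⟨x, hx, hx', rfl⟩, hmax⟩ := (wellFounded_gt (α := Ideal A)).has_min
    {p | ∃ x ∈ A, (∀ n : ℕ, G ^ n * (x * h) ∉ A) ∧ p = s2Den A (x * h)}
    ⟨_, 1, A.one_mem, by simpa using hh, rfl⟩
  have key : ∀ y ∈ A, (∀ n : ℕ, G ^ n * (y * x * h) ∉ A) → ∀ w ∈ A, w * (y * x * h) ∈ A →
      w * (x * h) ∈ A := by
    intro y hy hy' w hw hw'
    have h1 : s2Den A (x * h) ≤ s2Den A (y * x * h) := fun z hz => by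
      have h2 : y * ((z : K) * (x * h)) ∈ A := A.mul_mem hy hz
      change (z : K) * (y * x * h) ∈ A
      rwa [show (z : K) * (y * x * h) = y * ((z : K) * (x * h)) by ring]
    have h3 := hmax _ ⟨y * x, A.mul_mem hy hx, hy', rfl⟩
    have h4 : s2Den A (x * h) = s2Den A (y * x * h) := by
      by_contra hne
      exact h3 (lt_of_le_of_ne h1 hne)
    have h5 : (⟨w, hw⟩ : A) ∈ s2Den A (y * x * h) := hw'
    rw [← h4] at h5
    exact h5
  refine ⟨x, hx, hx', fun y hy w hw hyw => ?_⟩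
  by_cases hc : ∀ n : ℕ, G ^ n * (y * x * h) ∉ A
  · right
    refine key y hy hc w hw ?_
    rwa [show w * (y * x * h) = y * w * (x * h) by ring]
  · left
    push Not at hc
    obtain ⟨n, hn⟩ := hc
    refine key (G ^ n) (A.pow_mem hG n) (fun m hm => hx' (m + n) ?_) y hy ?_
    · rwa [show G ^ (m + n) * (x * h) = G ^ m * (G ^ n * x * h) by ring]
    · rwa [show y * (G ^ n * x * h) = G ^ n * (y * x * h) by ring]

theorem s2_lemma (A : Subalgebra ℂ K) (hN : IsNoetherianRing A)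
    (hic : ∀ x : K, IsIntegral A x → x ∈ A) (hfr : ∀ x : K, ∃ b ∈ A, b ≠ 0 ∧ b * x ∈ A)
    (G : K) (hG : G ∈ A) (h : K) (hh : ∀ n : ℕ, G ^ n * h ∉ A) :
    ∃ O : ValuationSubring K, (∀ x ∈ A, x ∈ O) ∧ O.valuation G = 1 ∧ h ∉ O ∧
      (∀ x ∈ O, ∃ b ∈ A, O.valuation b = 1 ∧ b * x ∈ A) ∧
      ∃ h' : K, h' ∉ A ∧ ∀ a ∈ A, O.valuation a < 1 → a * h' ∈ A := by
  classical
  obtain ⟨x0, hx0, hx1, hp⟩ := s2_prime A hN G hG h hh
  generalize hh' : x0 * h = h' at hx1 hp
  have h0 : h' ∉ A := by simpa using hx1 0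
  have h1 : G * h' ∉ A := by simpa using hx1 1
  have hmul : ∀ y ∈ A, ∀ w ∈ A, y * h' ∉ A → w * h' ∉ A → y * w * h' ∉ A :=
    fun y hy w hw e1 e2 e => (hp y hy w hw e).elim e1 e2
  have hord : ∀ a ∈ A, a ≠ 0 → ∃ k : ℕ, (∀ j ≤ k, a * h' ^ j ∈ A) ∧ a * h' ^ k * h' ∉ A := by
    intro a ha ha0
    have hex : ∃ k : ℕ, a * h' ^ (k + 1) ∉ A := by
      by_contra hc
      push Not at hc
      refine h0 (s2_mem_of_pow A hN hic ha ha0 fun k => ?_)
      cases k with
      | zero => simpa using ha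
      | succ k => exact hc k
    refine ⟨Nat.find hex, fun j hj => ?_, ?_⟩
    · cases j with
      | zero => simpa using ha
      | succ j => exact not_not.1 (Nat.find_min hex (by omega))
    · have := Nat.find_spec hex
      rwa [pow_succ, ← mul_assoc] at this
  let O : ValuationSubring K :=
    { carrier := {x | ∃ b ∈ A, b * h' ∉ A ∧ b * x ∈ A}
      mul_mem' := by
        rintro x y ⟨b, hb, hb1, hb2⟩ ⟨c, hc, hc1, hc2⟩
        refine ⟨b * c, A.mul_mem hb hc, hmul b hb c hc hb1 hc1, ?_⟩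
        rw [show b * c * (x * y) = b * x * (c * y) by ring]
        exact A.mul_mem hb2 hc2
      one_mem' := ⟨1, A.one_mem, by simpa using h0, by simp⟩
      add_mem' := by
        rintro x y ⟨b, hb, hb1, hb2⟩ ⟨c, hc, hc1, hc2⟩
        refine ⟨b * c, A.mul_mem hb hc, hmul b hb c hc hb1 hc1, ?_⟩
        rw [show b * c * (x + y) = b * x * c + b * (c * y) by ring]
        exact A.add_mem (A.mul_mem hb2 hc) (A.mul_mem hb hc2)
      zero_mem' := ⟨1, A.one_mem, by simpa using h0, by simp⟩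
      neg_mem' := by
        rintro x ⟨b, hb, hb1, hb2⟩
        refine ⟨b, hb, hb1, ?_⟩
        rw [mul_neg]
        exact A.neg_mem hb2
      mem_or_inv_mem' := by
        intro x
        rcases eq_or_ne x 0 with rfl | hx
        · exact Or.inl ⟨1, A.one_mem, by simpa using h0, by simp⟩
        obtain ⟨b, hb, hb0, ha⟩ := hfr x
        obtain ⟨k, hk, hk'⟩ := hord _ ha (mul_ne_zero hb0 hx)
        obtain ⟨l, hl, hl'⟩ := hord _ hb hb0
        rcases le_total l k with hlk | hlk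
        · refine Or.inl ⟨b * h' ^ l, hl l le_rfl, hl', ?_⟩
          rw [show b * h' ^ l * x = b * x * h' ^ l by ring]
          exact hk l hlk
        · refine Or.inr ⟨b * x * h' ^ k, hk k le_rfl, hk', ?_⟩
          rw [show b * x * h' ^ k * x⁻¹ = b * h' ^ k * (x * x⁻¹) by ring, mul_inv_cancel₀ hx,
            mul_one]
          exact hl k hlk }
  have hO : ∀ x, x ∈ O ↔ ∃ b ∈ A, b * h' ∉ A ∧ b * x ∈ A := fun x => Iff.rfl
  have hAO : ∀ x ∈ A, x ∈ O := fun x hx =>
    (hO x).2 ⟨1, A.one_mem, by simpa using h0, by simpa using hx⟩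
  have hv : ∀ b ∈ A, b * h' ∉ A → O.valuation b = 1 := by
    intro b hb hb1
    have hb0 : b ≠ 0 := by
      rintro rfl
      exact hb1 (by simp)
    have e1 : O.valuation b ≤ 1 := (O.valuation_le_one_iff b).2 (hAO b hb)
    have e2 : O.valuation b⁻¹ ≤ 1 := (O.valuation_le_one_iff b⁻¹).2
      ((hO _).2 ⟨b, hb, hb1, by rw [mul_inv_cancel₀ hb0]; exact A.one_mem⟩)
    have e3 : O.valuation b * O.valuation b⁻¹ = 1 := by
      rw [← map_mul, mul_inv_cancel₀ hb0, map_one]
    refine le_antisymm e1 ?_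
    calc 1 = O.valuation b * O.valuation b⁻¹ := e3.symm
      _ ≤ O.valuation b * 1 := mul_le_mul' le_rfl e2
      _ = O.valuation b := mul_one _
  refine ⟨O, hAO, hv G hG h1, ?_, fun x hx => ?_, h', h0, fun a ha hlt => ?_⟩
  · rintro ⟨b, -, hb1, hb2⟩
    refine hb1 ?_
    rw [← hh', show b * (x0 * h) = x0 * (b * h) by ring]
    exact A.mul_mem hx0 hb2
  · obtain ⟨b, hb, hb1, hb2⟩ := (hO x).1 hx
    exact ⟨b, hb, hv b hb hb1, hb2⟩
  · by_contra hc
    exact hlt.ne (hv a ha hc)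

end Vale.Agent.P266
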