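import Vale.Agent.P266.Seidenberg
import Vale.Agent.P266.S2
import Vale.Agent.P266.Noether
import Vale.Agent.P266.NonReg

/-! P266, task AbsMain: the abstract theorem.

Plan. Take `A0` from `exists_A0` (Noetherian since `FG`). Key lemma KL(G'): for `G' ∈ A0` and `h : K`,
if `h ∈ O` for every `O` containing `A0` with `O.valuation G' = 1`, some `y ∈ Y` of valuation `1`, and
the localization property of `s2_lemma`, then `G' ^ n * h ∈ A0` for some `n` (otherwise `s2_lemma`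
gives `O`; if all `y ∈ Y` had valuation `< 1` then `y * h' ∈ A0` for all `y`, so `h' ∈ A0`).
KL(1) and `hG` give `G ∈ A0`. Put `A = adjoin (insert G⁻¹ A0)`; `x ∈ A ↔ ∃ n, G ^ n * x ∈ A0`.
For a chart `V` containing `insert G⁻¹ Y` every element of `A` is integral over `V`, so by
`seidenberg` `v x` is integral over `V`, hence lies in `O`. KL(G) gives `Pres v1 A`, `Pres v2 A`.
If `D = a • v1 + b • v2` preserves `A`, it maps `O` into `O` (localization property: `b' * x = a'`,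
`b' * D x = D a' - x * D b'`), and Cramer's rule with `f g ∈ V` gives `a b ∈ O`; KL(G) gives
`a b ∈ A`. From `hC`: `a⁻¹ * v x ∈ O` for `x ∈ A`, so `v x` has valuation `< 1`; let `m` be a maximal
ideal containing the proper ideal of elements of `A` of valuation `< 1`. -/

namespace Vale.Agent.P266

variable {K : Type} [Field K] [Algebra ℂ K]

theorem am_integral_mono {B V : Subalgebra ℂ K} (h : B ≤ V) {x : K} (hx : IsIntegral B x) :
    IsIntegral V x := by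
  obtain ⟨p, hp, hx⟩ := hx
  refine ⟨p.map (Subalgebra.inclusion h).toRingHom, hp.map _, ?_⟩
  rw [Polynomial.eval₂_map]
  exact hx

theorem am_mem_of_integral (V : Subalgebra ℂ K) (O : ValuationSubring K)
    (hVO : ∀ x ∈ V, x ∈ O) {x : K} (hx : IsIntegral V x) : x ∈ O := by
  let φ : V →+* O :=
    { toFun := fun a => ⟨a, hVO a a.2⟩
      map_one' := rfl
      map_mul' := fun _ _ => rfl
      map_zero' := rfl
      map_add' := fun _ _ => rfl }
  have h1 : IsIntegral O x := by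
    obtain ⟨p, hp, hx⟩ := hx
    refine ⟨p.map φ, hp.map _, ?_⟩
    rw [Polynomial.eval₂_map]
    exact hx
  obtain ⟨y, hy⟩ := IsIntegrallyClosed.isIntegral_iff.1 h1
  rw [← hy]
  exact y.2

theorem am_cancel (O : ValuationSubring K) {b x : K} (hb : O.valuation b = 1)
    (h : b * x ∈ O) : x ∈ O := by
  rw [← O.valuation_le_one_iff] at h ⊢
  rwa [map_mul, hb, one_mul] at h

theorem am_kl (A0 : Subalgebra ℂ K) (hN : IsNoetherianRing A0)
    (hic : ∀ x : K, IsIntegral A0 x → x ∈ A0) (hfr : ∀ x : K, ∃ b ∈ A0, b ≠ 0 ∧ b * x ∈ A0)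
    (Y : Set K) (hYA : Y ⊆ A0) (hdep : ∀ h : K, (∀ y ∈ Y, y * h ∈ A0) → h ∈ A0)
    (G : K) (hG : G ∈ A0) (h : K)
    (H : ∀ O : ValuationSubring K, (∀ x ∈ A0, x ∈ O) → O.valuation G = 1 →
      (∃ y ∈ Y, O.valuation y = 1) →
      (∀ x ∈ O, ∃ b ∈ A0, O.valuation b = 1 ∧ b * x ∈ A0) → h ∈ O) :
    ∃ n : ℕ, G ^ n * h ∈ A0 := by
  by_contra hc
  push Not at hc
  obtain ⟨O, hAO, hG1, hh, hloc, h', hh', hmul⟩ := s2_lemma A0 hN hic hfr G hG h hc
  refine hh (H O hAO hG1 ?_ hloc)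
  by_contra hy
  push Not at hy
  refine hh' (hdep h' fun y hyY => hmul y (hYA hyY) ?_)
  exact lt_of_le_of_ne ((O.valuation_le_one_iff y).2 (hAO y (hYA hyY))) (hy y hyY)

/-- The localization of `A0` at the powers of `G`, inside `K`. -/
def amLoc (A0 : Subalgebra ℂ K) (G : K) (hG : G ∈ A0) : Subalgebra ℂ K where
  carrier := {x | ∃ n : ℕ, G ^ n * x ∈ A0}
  mul_mem' := by
    rintro x y ⟨n, hn⟩ ⟨m, hm⟩
    refine ⟨n + m, ?_⟩
    rw [show G ^ (n + m) * (x * y) = G ^ n * x * (G ^ m * y) by ring]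
    exact A0.mul_mem hn hm
  add_mem' := by
    rintro x y ⟨n, hn⟩ ⟨m, hm⟩
    refine ⟨n + m, ?_⟩
    rw [show G ^ (n + m) * (x + y) = G ^ m * (G ^ n * x) + G ^ n * (G ^ m * y) by ring]
    exact A0.add_mem (A0.mul_mem (A0.pow_mem hG m) hn) (A0.mul_mem (A0.pow_mem hG n) hm)
  algebraMap_mem' := fun r => ⟨0, by simpa using A0.algebraMap_mem r⟩

theorem amLoc_mem {A0 : Subalgebra ℂ K} {G : K} {hG : G ∈ A0} {x : K} :
    x ∈ amLoc A0 G hG ↔ ∃ n : ℕ, G ^ n * x ∈ A0 := Iff.rfl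

theorem amLoc_le {A0 : Subalgebra ℂ K} {G : K} {hG : G ∈ A0} {x : K} (hx : x ∈ A0) :
    x ∈ amLoc A0 G hG := ⟨0, by simpa using hx⟩

theorem am_unpow {G : K} (hG0 : G ≠ 0) (n : ℕ) (x : K) : x = G⁻¹ ^ n * (G ^ n * x) := by
  rw [← mul_assoc, ← mul_pow, inv_mul_cancel₀ hG0, one_pow, one_mul]

theorem amLoc_fg {A0 : Subalgebra ℂ K} (hA : A0.FG) {G : K} (hG : G ∈ A0) (hG0 : G ≠ 0) :
    (amLoc A0 G hG).FG := by
  classical
  obtain ⟨S, hS⟩ := hA
  refine ⟨insert G⁻¹ S, le_antisymm ?_ ?_⟩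
  · rw [Algebra.adjoin_le_iff]
    intro x hx
    rw [Finset.coe_insert] at hx
    rcases hx with rfl | hx
    · exact ⟨1, by rw [pow_one, mul_inv_cancel₀ hG0]; exact A0.one_mem⟩
    · exact amLoc_le (hS ▸ Algebra.subset_adjoin hx)
  · rintro x ⟨n, hn⟩
    rw [am_unpow hG0 n x]
    refine mul_mem (pow_mem (Algebra.subset_adjoin (by simp)) n) ?_
    rw [← hS] at hn
    exact Algebra.adjoin_mono (by simp) hn

theorem amLoc_integral {A0 : Subalgebra ℂ K} {G : K} {hG : G ∈ A0} (hG0 : G ≠ 0) {Y : Set K}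
    (hint : ∀ x ∈ A0, IsIntegral (Algebra.adjoin ℂ Y) x) {V : Subalgebra ℂ K}
    (hV : insert G⁻¹ Y ⊆ V) {x : K} (hx : x ∈ amLoc A0 G hG) : IsIntegral V x := by
  obtain ⟨n, hn⟩ := hx
  rw [am_unpow hG0 n x]
  refine IsIntegral.mul (IsIntegral.pow ?_ n) (am_integral_mono ?_ (hint _ hn))
  · exact isIntegral_algebraMap (x := (⟨G⁻¹, hV (Set.mem_insert _ _)⟩ : V))
  · exact Algebra.adjoin_le fun y hy => hV (Set.mem_insert_of_mem _ hy)

theorem am_chart_der {δ : Derivation ℂ K K} {V : Subalgebra ℂ K} {O : ValuationSubring K}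
    (hfg : V.FG) (hVO : ∀ x ∈ V, x ∈ O) (hV : IntermediateField.adjoin ℂ (V : Set K) = ⊤)
    (hδ : Pres δ V) {x : K} (hx : IsIntegral V x) : δ x ∈ O :=
  am_mem_of_integral V O hVO (seidenberg δ V hfg hV hδ hx)

theorem am_pres_val {A0 : Subalgebra ℂ K} {G : K} {hG : G ∈ A0} {O : ValuationSubring K}
    (hAO : ∀ x ∈ A0, x ∈ O) (hG1 : O.valuation G = 1)
    (hloc : ∀ x ∈ O, ∃ b ∈ A0, O.valuation b = 1 ∧ b * x ∈ A0) {δ : Derivation ℂ K K}
    (hδ : Pres δ (amLoc A0 G hG)) {x : K} (hx : x ∈ O) : δ x ∈ O := by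
  have hA : ∀ y ∈ amLoc A0 G hG, y ∈ O := by
    rintro y ⟨n, hn⟩
    exact am_cancel O (by rw [map_pow, hG1, one_pow]) (hAO _ hn)
  obtain ⟨b, hb, hb1, hbx⟩ := hloc x hx
  refine am_cancel O hb1 ?_
  have e : b * δ x = δ (b * x) - x * δ b := by
    rw [δ.leibniz, smul_eq_mul, smul_eq_mul]
    ring
  rw [e]
  exact sub_mem (hA _ (hδ _ (amLoc_le hbx))) (mul_mem hx (hA _ (hδ _ (amLoc_le hb))))

theorem abstract_main (v1 v2 : Derivation ℂ K K) (Y : Set K) (hY : Y.Finite) (G : K)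
    (htr : Algebra.trdeg ℂ K = 2) (S0 : Set K) (hS0 : S0.Finite)
    (hgen : IntermediateField.adjoin ℂ S0 = ⊤)
    (halg : Algebra.IsAlgebraic (Algebra.adjoin ℂ Y) K)
    (hspan : ∀ D : Derivation ℂ K K, ∃ a b : K, D = a • v1 + b • v2)
    (hD : ∃ f g : K, Dl v1 v2 f g ≠ 0) (hG0 : G ≠ 0)
    (hG : ∀ O : ValuationSubring K, (∀ c : ℂ, algebraMap ℂ K c ∈ O) → (∀ y ∈ Y, y ∈ O) →
      (∃ y ∈ Y, O.valuation y = 1) → G ∈ O)
    (hch : ∀ O : ValuationSubring K, (∀ c : ℂ, algebraMap ℂ K c ∈ O) → (∀ y ∈ Y, y ∈ O) →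
      (∃ y ∈ Y, O.valuation y = 1) → O.valuation G = 1 → GoodChart v1 v2 (insert G⁻¹ Y) O)
    (hC : ∃ (O : ValuationSubring K) (a : K) (V : Subalgebra ℂ K), a ≠ 0 ∧ O.valuation a < 1 ∧
      Chart (a⁻¹ • v1) (a⁻¹ • v2) (insert G⁻¹ Y) O V) :
    ∃ A : Subalgebra ℂ K, A.FG ∧ Module.Free A (Derivation ℂ A A) ∧ ¬ IsRegularRing A := by
  obtain ⟨A0, hfg, hYA, hic, hint, hfr, hdep⟩ := exists_A0 Y hY htr S0 hS0 hgen halg
  have hft : Algebra.FiniteType ℂ A0 := (Subalgebra.fg_iff_finiteType A0).1 hfg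
  have hN : IsNoetherianRing A0 := Algebra.FiniteType.isNoetherianRing ℂ A0
  have hc1 : ∀ O : ValuationSubring K, (∀ x ∈ A0, x ∈ O) → ∀ c : ℂ, algebraMap ℂ K c ∈ O :=
    fun O h c => h _ (A0.algebraMap_mem c)
  have hc2 : ∀ O : ValuationSubring K, (∀ x ∈ A0, x ∈ O) → ∀ y ∈ Y, y ∈ O :=
    fun O h y hy => h _ (hYA hy)
  have hGA : G ∈ A0 := by
    obtain ⟨n, hn⟩ := am_kl A0 hN hic hfr Y hYA hdep 1 A0.one_mem G
      fun O h1 _ h3 _ => hG O (hc1 O h1) (hc2 O h1) h3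
    simpa using hn
  have hfrA : ∀ x : K, ∃ b ∈ amLoc A0 G hGA, b ≠ 0 ∧ b * x ∈ amLoc A0 G hGA := fun x => by
    obtain ⟨b, hb, hb0, hbx⟩ := hfr x
    exact ⟨b, amLoc_le hb, hb0, amLoc_le hbx⟩
  have hp1 : Pres v1 (amLoc A0 G hGA) := fun x hx => by
    refine am_kl A0 hN hic hfr Y hYA hdep G hGA _ fun O h1 h2 h3 _ => ?_
    obtain ⟨V, ⟨⟨e1, e2, e3, -⟩, e5, e6⟩, -⟩ := hch O (hc1 O h1) (hc2 O h1) h3 h2
    exact am_chart_der e1 e2 e5 e3 (amLoc_integral hG0 hint e6 hx)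
  have hp2 : Pres v2 (amLoc A0 G hGA) := fun x hx => by
    refine am_kl A0 hN hic hfr Y hYA hdep G hGA _ fun O h1 h2 h3 _ => ?_
    obtain ⟨V, ⟨⟨e1, e2, -, e4⟩, e5, e6⟩, -⟩ := hch O (hc1 O h1) (hc2 O h1) h3 h2
    exact am_chart_der e1 e2 e5 e4 (amLoc_integral hG0 hint e6 hx)
  have hfree : ∀ a b : K, Pres (a • v1 + b • v2) (amLoc A0 G hGA) →
      a ∈ amLoc A0 G hGA ∧ b ∈ amLoc A0 G hGA := fun a b hab => by
    have key : ∀ O : ValuationSubring K, (∀ x ∈ A0, x ∈ O) → O.valuation G = 1 →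
        (∃ y ∈ Y, O.valuation y = 1) →
        (∀ x ∈ O, ∃ b ∈ A0, O.valuation b = 1 ∧ b * x ∈ A0) → a ∈ O ∧ b ∈ O := by
      intro O h1 h2 h3 h4
      obtain ⟨V, ⟨⟨-, e2, e3, e4⟩, -, -⟩, f, hf, g, hg, hfg1⟩ :=
        hch O (hc1 O h1) (hc2 O h1) h3 h2
      have df : (a • v1 + b • v2) f ∈ O := am_pres_val h1 h2 h4 hab (e2 f hf)
      have dg : (a • v1 + b • v2) g ∈ O := am_pres_val h1 h2 h4 hab (e2 g hg)
      have ef : (a • v1 + b • v2) f = a * v1 f + b * v2 f := by simp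
      have eg : (a • v1 + b • v2) g = a * v1 g + b * v2 g := by simp
      rw [ef] at df
      rw [eg] at dg
      constructor
      · refine am_cancel O hfg1 ?_
        rw [show Dl v1 v2 f g * a = (a * v1 f + b * v2 f) * v2 g - (a * v1 g + b * v2 g) * v2 f by
          unfold Dl; ring]
        exact sub_mem (mul_mem df (e2 _ (e4 g hg))) (mul_mem dg (e2 _ (e4 f hf)))
      · refine am_cancel O hfg1 ?_
        rw [show Dl v1 v2 f g * b = (a * v1 g + b * v2 g) * v1 f - (a * v1 f + b * v2 f) * v1 g by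
          unfold Dl; ring]
        exact sub_mem (mul_mem dg (e2 _ (e3 f hf))) (mul_mem df (e2 _ (e3 g hg)))
    exact ⟨am_kl A0 hN hic hfr Y hYA hdep G hGA _ fun O h1 h2 h3 h4 => (key O h1 h2 h3 h4).1,
      am_kl A0 hN hic hfr Y hYA hdep G hGA _ fun O h1 h2 h3 h4 => (key O h1 h2 h3 h4).2⟩
  have hAfg := amLoc_fg hfg hGA hG0
  refine ⟨amLoc A0 G hGA, hAfg, free_of _ hfrA v1 v2 hD hspan hp1 hp2 hfree, ?_⟩
  obtain ⟨O, a, V, ha0, ha1, ⟨e1, e2, e3, e4⟩, e5, e6⟩ := hC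
  have hAO : ∀ x ∈ amLoc A0 G hGA, x ∈ O := fun x hx =>
    am_mem_of_integral V O e2 (amLoc_integral hG0 hint e6 hx)
  have hsm : ∀ v : Derivation ℂ K K, Pres (a⁻¹ • v) V → ∀ x ∈ amLoc A0 G hGA,
      O.valuation (v x) < 1 := fun v hv x hx => by
    have h1 : (a⁻¹ • v) x ∈ O := am_chart_der e1 e2 e5 hv (amLoc_integral hG0 hint e6 hx)
    have h2 : v x = a * (a⁻¹ • v) x := by
      rw [Derivation.smul_apply, smul_eq_mul, ← mul_assoc, mul_inv_cancel₀ ha0, one_mul]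
    rw [h2, map_mul]
    calc O.valuation a * O.valuation ((a⁻¹ • v) x) ≤ O.valuation a * 1 :=
          mul_le_mul' le_rfl ((O.valuation_le_one_iff _).2 h1)
      _ < 1 := by rwa [mul_one]
  let I : Ideal (amLoc A0 G hGA) :=
    { carrier := {x | O.valuation (x : K) < 1}
      add_mem' := fun {x y} hx hy => O.valuation.map_add_lt hx hy
      zero_mem' := by simp
      smul_mem' := fun c x hx => by
        change O.valuation ((c : K) * x) < 1
        rw [map_mul]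
        calc O.valuation (c : K) * O.valuation (x : K) ≤ 1 * O.valuation (x : K) :=
              mul_le_mul' ((O.valuation_le_one_iff _).2 (hAO _ c.2)) le_rfl
          _ < 1 := by rw [one_mul]; exact hx }
  have hI : I ≠ ⊤ := by
    rw [Ideal.ne_top_iff_one]
    intro h
    have h' : O.valuation (1 : K) < 1 := h
    simp at h'
  obtain ⟨m, hm, hIm⟩ := I.exists_le_maximal hI
  refine not_regular _ hAfg (dim_le_two _ hAfg htr) hfrA v1 v2 hD m hm (fun x => ?_) (fun x => ?_)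
    hfree
  · exact ⟨⟨v1 x, hp1 _ x.2⟩, hIm (hsm v1 e3 _ x.2), rfl⟩
  · exact ⟨⟨v2 x, hp2 _ x.2⟩, hIm (hsm v2 e4 _ x.2), rfl⟩

end Vale.Agent.P266
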