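import Vale.Agent.P266.Frame

/-! P266, task ChartAB: the affine chart away from the lines, the chart at `z = ∞`, and the chart
along the central curve.

`chartA`: frame `e = 1`, `x = z`, `y = u`, all exponents `0`. `ev R`, `ev T` are in `O` and are units
because `Pi / R`, `Pi / T ∈ O` with `Pi` a unit; each `ln (q i)` is a unit since their product is.

`chartB`: frame `e = z`, `x = z⁻¹`, `y = u / z`, `o = 39`, `m = 98`, `p = 14`, `nR = 6`, `nT = 5`,
`nw = 77`; every `F ∈ L1 ^ k` has `ev F / z ^ k ∈ V0` (`hat_pow`). `xi x = - ev xz / z ^ 2` with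
`xz ∈ L1 ^ 41`; `xi y = ev (zz * Ph + Ps * uu * (C (1/4) * zz * dPi - Pi4)) / z ^ 2`, again degree
`41` by `euler_Pi4`. `(z - q) / z` is a unit; `z * Pi / T` and `z ^ 2 * Pi / R ∈ O` make the hats of
`T`, `R` units. `Dl x y = - Dl z u / z ^ 3`.

`chartC`: `O` from `exists_val_C z0` with `z0 ∉ range q`; frame `e = u`, `x = z`, `y = u⁻¹`, `o = 39`,
`m = 98`, `p = 0`, `nR = 6`, `nT = 5`, `nw = 77`. `ev F / u ^ k ∈ V0` for `F ∈ L1 ^ k`, `ev F ∈ V0` for
polynomials in `z` alone, and for `F ∈ Low k`, `ev F / u ^ (k - 1) ∈ V0` (`hat_mul`), so `Top k c F`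
with `c ≠ 0` makes `ev F / u ^ k` a unit. Use `Frame.G_unit`, `Frame.cchart`, `a = u⁻¹`. -/

set_option maxRecDepth 4000

namespace Vale.Agent.P266

variable {K : Type} [Field K] [Algebra ℂ K] {d : Data} (S : Setup K d)

/-- What is needed at a valuation ring. -/
def Good (O : ValuationSubring K) : Prop :=
  S.G ∈ O ∧ (O.valuation S.G = 1 → GoodChart (S.v 0) (S.v 1) (insert S.G⁻¹ S.Y) O)

omit [Algebra ℂ K] in
theorem ab_unit (O : ValuationSubring K) {a b : K} (ha : a ∈ O) (hb : O.valuation b = 1)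
    (h : b / a ∈ O) (ha0 : a ≠ 0) : O.valuation a = 1 := by
  refine le_antisymm ((O.valuation_le_one_iff a).2 ha) ?_
  have h1 := (O.valuation_le_one_iff _).2 h
  have h2 : O.valuation (b / a) * O.valuation a = 1 := by
    rw [← map_mul, div_mul_cancel₀ _ ha0, hb]
  calc 1 = O.valuation (b / a) * O.valuation a := h2.symm
    _ ≤ 1 * O.valuation a := mul_le_mul' h1 le_rfl
    _ = _ := one_mul _

omit [Algebra ℂ K] in
theorem ab_add (O : ValuationSubring K) {a b c : K} (ha : O.valuation a = 1) (hb : b ∈ O)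
    (hc : O.valuation c < 1) : O.valuation (a + b * c) = 1 := by
  have h : O.valuation (b * c) < O.valuation a := by
    rw [map_mul, ha]
    calc O.valuation b * O.valuation c ≤ 1 * O.valuation c :=
          mul_le_mul' ((O.valuation_le_one_iff b).2 hb) le_rfl
      _ < 1 := by rwa [one_mul]
  rw [O.valuation.map_add_eq_of_lt_left h, ha]

theorem ab_left (x y : K) : x ∈ Algebra.adjoin ℂ ({x, y} : Set K) :=
  Algebra.subset_adjoin (Set.mem_insert _ _)

theorem ab_right (x y : K) : y ∈ Algebra.adjoin ℂ ({x, y} : Set K) :=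
  Algebra.subset_adjoin (Set.mem_insert_of_mem _ rfl)

theorem ab_fleft (x y : K) : x ∈ IntermediateField.adjoin ℂ ({x, y} : Set K) :=
  IntermediateField.subset_adjoin _ _ (Set.mem_insert _ _)

theorem ab_fright (x y : K) : y ∈ IntermediateField.adjoin ℂ ({x, y} : Set K) :=
  IntermediateField.subset_adjoin _ _ (Set.mem_insert_of_mem _ rfl)

theorem ab_sub (O : ValuationSubring K) (hc : ∀ c : ℂ, algebraMap ℂ K c ∈ O) {x y : K}
    (hx : x ∈ O) (hy : y ∈ O) : ∀ a ∈ Algebra.adjoin ℂ ({x, y} : Set K), a ∈ O := by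
  refine adjoin_sub_val O hc ?_
  rintro s (rfl | rfl)
  exacts [hx, hy]

theorem ab_span (φ : PP →ₐ[ℂ] K) (V : Subalgebra ℂ K) (e : K) (T : Set PP)
    (h : ∀ F ∈ T, φ F / e ∈ V) : ∀ F ∈ Submodule.span ℂ T, φ F / e ∈ V := by
  intro F hF
  induction hF using Submodule.span_induction with
  | mem F hF => exact h F hF
  | zero => simp
  | add F G _ _ hF hG =>
    rw [map_add, add_div]
    exact add_mem hF hG
  | smul c F _ hF =>
    rw [map_smul, smul_div_assoc]
    exact V.smul_mem hF c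

theorem ev_ln (q : ℂ) : S.ev (ln q) = S.z - algebraMap ℂ K q := by
  rw [ln, map_sub, S.ev_zz, S.ev_C]

theorem ev_Pi4 : S.ev (Pi4 d.q) = ∏ i, (S.z - algebraMap ℂ K (d.q i)) := by
  rw [Pi4, map_prod]
  exact Finset.prod_congr rfl fun i _ => ev_ln S _

theorem ev_Nn (s : Fin 2) :
    S.ev (d.Nn s) = ∏ i, (S.z - algebraMap ℂ K (d.q i)) ^ pe (ty s i) := by
  rw [Data.Nn, map_prod]
  exact Finset.prod_congr rfl fun i _ => by rw [map_pow, ev_ln]

theorem sum_pe (s : Fin 2) : ∑ i, pe (ty s i) = 14 := by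
  rw [Fin.sum_univ_four]
  revert s
  decide

theorem mul_L1 {a b c : ℕ} (h : a + b = c) {F G : PP} (hF : F ∈ L1 ^ a) (hG : G ∈ L1 ^ b) :
    F * G ∈ L1 ^ c := h ▸ mul_mem_L1 hF hG

omit [Algebra ℂ K] in
theorem ab_pow {a b c : ℕ} (h : a + b = c) (w e : K) : w / e ^ a / e ^ b = w / e ^ c := by
  rw [div_div, ← pow_add, h]

omit [Algebra ℂ K] in
theorem ab_pow2 {a b c : ℕ} (h : a + b = c) (w w' e : K) :
    w / e ^ a * (w' / e ^ b) = w * w' / e ^ c := by
  rw [div_mul_div_comm, ← pow_add, h]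

theorem Pi4_L1 (q : Fin 4 → ℂ) : Pi4 q ∈ L1 ^ 4 := Low_le (by norm_num) (Pi4_mem_Low q)

theorem dPi_L1 (q : Fin 4 → ℂ) : dPi q ∈ L1 ^ 3 :=
  Submodule.sum_mem _ fun i _ => Low_le (by norm_num) (cof_mem_Low q i)

theorem Ps_L1 (d : Data) (s : Fin 2) : d.Ps s ∈ L1 ^ 37 := by
  revert s
  exact Fin.forall_fin_two.2 ⟨d.topPs0.mem (by norm_num), d.topPs1.mem (by norm_num)⟩

theorem zPi_L1 (q : Fin 4 → ℂ) : zz * Pi4 q ∈ L1 ^ 5 :=
  mul_mem_L1 (mem_L1_one zz_mem_L1) (Pi4_L1 q)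

theorem uPi_L1 (q : Fin 4 → ℂ) : uu * Pi4 q ∈ L1 ^ 5 :=
  mul_mem_L1 (mem_L1_one uu_mem_L1) (Pi4_L1 q)

theorem zzPi_L1 (q : Fin 4 → ℂ) : zz ^ 2 * Pi4 q ∈ L1 ^ 6 :=
  mul_mem_L1 (Submodule.pow_mem_pow L1 zz_mem_L1 2) (Pi4_L1 q)

theorem xz_L1 (d : Data) (s : Fin 2) : d.xz s ∈ L1 ^ 41 :=
  mul_L1 (by norm_num) (Ps_L1 d s) (Pi4_L1 _)

theorem xu_L1 (d : Data) (s : Fin 2) : d.xu s ∈ L1 ^ 41 := by
  refine add_mem (L1_mono (by norm_num) ((d.topPh s).mem (by norm_num))) ?_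
  rw [mul_assoc]
  exact mul_L1 (by norm_num) (Ps_L1 d s)
    (C_mul_mem _ (mul_mem_L1 (mem_L1_one uu_mem_L1) (dPi_L1 _)))

theorem xy_L1 (d : Data) (s : Fin 2) : zz * d.xu s - uu * d.xz s ∈ L1 ^ 41 := by
  have e : zz * d.xu s - uu * d.xz s = zz * d.Ph s +
      d.Ps s * (uu * (MvPolynomial.C (1 / 4) * zz * dPi d.q - Pi4 d.q)) := by
    simp only [Data.xu, Data.xz]
    ring
  rw [e]
  exact add_mem (mul_L1 (by norm_num) (mem_L1_one zz_mem_L1) ((d.topPh s).mem (by norm_num)))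
    (mul_L1 (by norm_num) (Ps_L1 d s) (mul_mem_L1 (mem_L1_one uu_mem_L1) (euler_Pi4 _)))

theorem chartA (O : ValuationSubring K) (hc : ∀ c : ℂ, algebraMap ℂ K c ∈ O)
    (hY : ∀ y ∈ S.Y, y ∈ O) (hz : S.z ∈ O) (hu : S.u ∈ O)
    (hP : O.valuation (S.ev (Pi4 d.q)) = 1) : Good S O := by
  have hV : ∀ F : PP, S.ev F / (1 : K) ^ 0 ∈ Algebra.adjoin ℂ ({S.z, S.u} : Set K) := fun F => by
    rw [pow_zero, div_one]
    exact S.ev_mem _ (ab_left _ _) (ab_right _ _) F
  have hO : ∀ F : PP, S.ev F ∈ O := fun F =>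
    ab_sub O hc hz hu _ (S.ev_mem _ (ab_left _ _) (ab_right _ _) F)
  have hl : ∀ i, O.valuation (S.z - algebraMap ℂ K (d.q i)) = 1 := fun i => by
    have h0 : S.ev (ln (d.q i)) ≠ 0 := S.ev_ne_zero (ln_ne_zero _)
    rw [← ev_ln]
    refine ab_unit O (hO _) hP ?_ h0
    rw [← ln_mul_cof d.q i, map_mul, mul_div_cancel_left₀ _ h0]
    exact hO _
  let F : Frame S O :=
    { e := 1, x := S.z, y := S.u, o := fun _ => 0, m := fun _ => 0, p := fun _ => 0
      nR := 0, nT := 0, nw := 0, hc := hc, he := one_ne_zero, hx := hz, hy := hu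
      fz := ab_fleft _ _, fu := ab_fright _ _, fe := one_mem _
      xi_x := fun s => S.xi_z' s ▸ hV _
      xi_y := fun s => S.xi_u' s ▸ hV _
      hR := hV _, hT := hV _, hD := fun _ => hV _, hW := hV _, hN := fun _ => hV _
      vR := by
        rw [pow_zero, div_one]
        exact ab_unit O (hO _) hP (hY _ (by simp [Setup.Y])) S.R_ne
      vT := by
        rw [pow_zero, div_one]
        exact ab_unit O (hO _) hP (hY _ (by simp [Setup.Y])) S.T_ne
      vN := fun s => by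
        rw [pow_zero, div_one, ev_Nn, map_prod]
        exact Finset.prod_eq_one fun i _ => by rw [map_pow, hl, one_pow]
      y1 := hV _, y2 := hV _, y3 := hV _, y4 := hV _, y5 := hV _, hG := rfl }
  refine ⟨F.G_mem, fun hG => F.unram hG ?_ fun _ => rfl⟩
  change O.valuation (Dl (S.xi 0) (S.xi 1) S.z S.u / (1 : K) ^ (0 + 0))
    = O.valuation (S.ev d.Tw / (1 : K) ^ 0)
  rw [S.Dl_xi_zu, one_pow, div_one, div_one, map_mul, hP, one_mul]

theorem chartB (O : ValuationSubring K) (hc : ∀ c : ℂ, algebraMap ℂ K c ∈ O)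
    (hY : ∀ y ∈ S.Y, y ∈ O) (hz : 1 < O.valuation S.z)
    (hu : O.valuation S.u ≤ O.valuation S.z) : Good S O := by
  have hz0 : S.z ≠ 0 := by
    intro h
    rw [h, map_zero] at hz
    exact not_lt_of_ge zero_le hz
  have hv0 : O.valuation S.z ≠ 0 := by rwa [Ne, Valuation.zero_iff]
  have hxv : O.valuation S.z⁻¹ < 1 := by
    rw [map_inv₀]
    exact inv_lt_one_of_one_lt₀ hz
  have hx : S.z⁻¹ ∈ O := (O.valuation_le_one_iff _).1 hxv.le
  have hy : S.u / S.z ∈ O := by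
    rw [← O.valuation_le_one_iff, map_div₀]
    exact div_le_one_of_le₀ hu zero_le
  have hV : ∀ {k : ℕ} {F : PP}, F ∈ L1 ^ k →
      S.ev F / S.z ^ k ∈ Algebra.adjoin ℂ ({S.z⁻¹, S.u / S.z} : Set K) := fun {k F} hF => by
    refine hat_pow S.ev _ S.z L1 (ab_span S.ev _ _ _ ?_) k F hF
    rintro G (rfl | rfl | rfl)
    · rw [map_one, one_div]
      exact ab_left _ _
    · rw [S.ev_zz, div_self hz0]
      exact one_mem _
    · rw [S.ev_uu]
      exact ab_right _ _
  have hl : ∀ i, O.valuation ((S.z - algebraMap ℂ K (d.q i)) / S.z) = 1 := fun i => by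
    rw [show (S.z - algebraMap ℂ K (d.q i)) / S.z = 1 + -algebraMap ℂ K (d.q i) * S.z⁻¹ by
      field_simp
      ring]
    exact ab_add O (map_one _) (neg_mem (hc _)) hxv
  have hP : O.valuation (S.ev (Pi4 d.q) / S.z ^ 4) = 1 := by
    have e : S.ev (Pi4 d.q) / S.z ^ 4 = ∏ i, (S.z - algebraMap ℂ K (d.q i)) / S.z := by
      rw [Finset.prod_div_distrib, ev_Pi4, Finset.prod_const, Finset.card_univ, Fintype.card_fin]
    rw [e, map_prod]
    exact Finset.prod_eq_one fun i _ => hl i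
  have hN : ∀ s, S.ev (d.Nn s) / S.z ^ 14
      = ∏ i, ((S.z - algebraMap ℂ K (d.q i)) / S.z) ^ pe (ty s i) := fun s => by
    simp only [div_pow]
    rw [Finset.prod_div_distrib, ev_Nn, Finset.prod_pow_eq_pow_sum, sum_pe]
  have hfz : S.z ∈ IntermediateField.adjoin ℂ ({S.z⁻¹, S.u / S.z} : Set K) := by
    have := inv_mem (ab_fleft S.z⁻¹ (S.u / S.z))
    rwa [inv_inv] at this
  have ex : ∀ δ : Derivation ℂ K K, δ S.z⁻¹ = -δ S.z / S.z ^ 2 := fun δ => by
    rw [δ.leibniz_inv, smul_eq_mul]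
    field_simp
  have ey : ∀ δ : Derivation ℂ K K, δ (S.u / S.z) = (S.z * δ S.u - S.u * δ S.z) / S.z ^ 2 :=
    fun δ => by
      rw [δ.leibniz_div, smul_eq_mul, smul_eq_mul, smul_eq_mul]
      field_simp
  let F : Frame S O :=
    { e := S.z, x := S.z⁻¹, y := S.u / S.z, o := fun _ => 39, m := fun _ => 98, p := fun _ => 14
      nR := 6, nT := 5, nw := 77, hc := hc, he := hz0, hx := hx, hy := hy
      fz := hfz
      fu := by
        have := mul_mem (ab_fright S.z⁻¹ (S.u / S.z)) hfz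
        rwa [div_mul_cancel₀ _ hz0] at this
      fe := hfz
      xi_x := fun s => by
        rw [ex, ab_pow (c := 41) (by norm_num), neg_div, S.xi_z']
        exact neg_mem (hV (xz_L1 d s))
      xi_y := fun s => by
        have := hV (xy_L1 d s)
        rw [map_sub, map_mul, map_mul, S.ev_zz, S.ev_uu] at this
        rwa [ey, ab_pow (c := 41) (by norm_num), S.xi_z', S.xi_u']
      hR := hV (d.topR.mem (by norm_num))
      hT := hV (d.topT.mem (by norm_num))
      hD := fun s => hV ((d.topD s).mem (by norm_num))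
      hW := hV (d.top_Tw.mem (by norm_num))
      hN := fun s => by
        rw [hN]
        refine prod_mem fun i _ => pow_mem ?_ _
        have := hV (mem_L1_one (L0_le_L1 (ln_mem_L0 (d.q i))))
        rwa [pow_one, ev_ln] at this
      vR := by
        refine ab_unit O (ab_sub O hc hx hy _ (hV (d.topR.mem (by norm_num)))) hP ?_
          (div_ne_zero S.R_ne (pow_ne_zero _ hz0))
        have e : S.ev (Pi4 d.q) / S.z ^ 4 / (S.ev d.R / S.z ^ 6)
            = S.ev (zz ^ 2 * Pi4 d.q) / S.ev d.R := by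
          have := S.R_ne
          rw [map_mul, map_pow, S.ev_zz]
          field_simp
        rw [e]
        exact hY _ (by simp [Setup.Y])
      vT := by
        refine ab_unit O (ab_sub O hc hx hy _ (hV (d.topT.mem (by norm_num)))) hP ?_
          (div_ne_zero S.T_ne (pow_ne_zero _ hz0))
        have e : S.ev (Pi4 d.q) / S.z ^ 4 / (S.ev d.T / S.z ^ 5)
            = S.ev (zz * Pi4 d.q) / S.ev d.T := by
          have := S.T_ne
          rw [map_mul, S.ev_zz]
          field_simp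
        rw [e]
        exact hY _ (by simp [Setup.Y])
      vN := fun s => by
        rw [hN, map_prod]
        exact Finset.prod_eq_one fun i _ => by rw [map_pow, hl, one_pow]
      y1 := hV (L1_mono (by norm_num) (Pi4_L1 _))
      y2 := hV (zPi_L1 _)
      y3 := hV (uPi_L1 _)
      y4 := hV (L1_mono (by norm_num) (Pi4_L1 _))
      y5 := hV (zzPi_L1 _)
      hG := rfl }
  refine ⟨F.G_mem, fun hG => F.unram hG ?_ fun _ => (by norm_num : 14 * 39 + 14 = 98 + 42 * (6 + 5))⟩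
  change O.valuation (Dl (S.xi 0) (S.xi 1) S.z⁻¹ (S.u / S.z) / S.z ^ (39 + 39))
    = O.valuation (S.ev d.Tw / S.z ^ 77)
  have e1 : Dl (S.xi 0) (S.xi 1) S.z⁻¹ (S.u / S.z) = -Dl (S.xi 0) (S.xi 1) S.z S.u / S.z ^ 3 := by
    unfold Dl
    rw [ex, ex, ey, ey]
    field_simp
    ring
  have e2 : -(S.ev (Pi4 d.q) * S.ev d.Tw) / S.z ^ 3 / S.z ^ (39 + 39)
      = -(S.ev (Pi4 d.q) / S.z ^ 4 * (S.ev d.Tw / S.z ^ 77)) := by
    rw [ab_pow (c := 81) (by norm_num), ab_pow2 (c := 81) (by norm_num), neg_div]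
  rw [e1, S.Dl_xi_zu, e2, Valuation.map_neg, map_mul, hP, one_mul]

theorem chartC : ∃ (O : ValuationSubring K) (a : K) (V : Subalgebra ℂ K), a ≠ 0 ∧
    O.valuation a < 1 ∧ Chart (a⁻¹ • S.v 0) (a⁻¹ • S.v 1) (insert S.G⁻¹ S.Y) O V := by
  obtain ⟨z0, hz0⟩ : ∃ z0 : ℂ, z0 ∉ Set.range d.q := (Set.finite_range d.q).exists_notMem
  obtain ⟨O, hc, hzv, huv⟩ := S.exists_val_C z0
  have hu0 : S.u ≠ 0 := S.ev_uu ▸ S.ev_ne_zero (MvPolynomial.X_ne_zero 1)
  have hx : S.z ∈ O := by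
    have := add_mem ((O.valuation_le_one_iff _).1 hzv.le) (hc z0)
    rwa [sub_add_cancel] at this
  have hy : S.u⁻¹ ∈ O := (O.valuation_le_one_iff _).1 huv.le
  have hV1 : ∀ F ∈ L1, S.ev F / S.u ∈ Algebra.adjoin ℂ ({S.z, S.u⁻¹} : Set K) := by
    refine ab_span S.ev _ _ _ ?_
    rintro G (rfl | rfl | rfl)
    · rw [map_one, one_div]
      exact ab_right _ _
    · rw [S.ev_zz, div_eq_mul_inv]
      exact mul_mem (ab_left _ _) (ab_right _ _)
    · rw [S.ev_uu, div_self hu0]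
      exact one_mem _
  have hV0 : ∀ F ∈ L0, S.ev F / 1 ∈ Algebra.adjoin ℂ ({S.z, S.u⁻¹} : Set K) := by
    refine ab_span S.ev _ _ _ ?_
    rintro G (rfl | rfl)
    · rw [map_one, div_one]
      exact one_mem _
    · rw [S.ev_zz, div_one]
      exact ab_left _ _
  have hV : ∀ {k : ℕ} {F : PP}, F ∈ L1 ^ k →
      S.ev F / S.u ^ k ∈ Algebra.adjoin ℂ ({S.z, S.u⁻¹} : Set K) := fun {k F} hF =>
    hat_pow S.ev _ S.u L1 hV1 k F hF
  have htop : ∀ {k : ℕ} {c : ℂ} {F : PP}, k ≠ 0 → c ≠ 0 → Top k c F →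
      O.valuation (S.ev F / S.u ^ k) = 1 := fun {k c F} hk hc0 hF => by
    obtain ⟨k, rfl⟩ := Nat.exists_eq_succ_of_ne_zero hk
    have h1 := hat_mul S.ev _ 1 (S.u ^ k) L0 (L1 ^ k) hV0 (fun _ h => hV h) _ hF
    have e : S.ev F / S.u ^ (k + 1) = algebraMap ℂ K c +
        S.ev (F - MvPolynomial.C c * uu ^ (k + 1)) / (1 * S.u ^ k) * S.u⁻¹ := by
      rw [map_sub, map_mul, map_pow, S.ev_C, S.ev_uu]
      field_simp
      ring
    rw [Nat.succ_eq_add_one, e]
    exact ab_add O (val_const O hc hc0) (ab_sub O hc hx hy _ h1) huv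
  have hlV : ∀ i, S.z - algebraMap ℂ K (d.q i) ∈ Algebra.adjoin ℂ ({S.z, S.u⁻¹} : Set K) :=
    fun i => sub_mem (ab_left _ _) (Subalgebra.algebraMap_mem _ _)
  have hl : ∀ i, O.valuation (S.z - algebraMap ℂ K (d.q i)) = 1 := fun i => by
    have h0 : z0 - d.q i ≠ 0 := sub_ne_zero.2 fun h => hz0 ⟨i, h.symm⟩
    rw [show S.z - algebraMap ℂ K (d.q i)
        = algebraMap ℂ K (z0 - d.q i) + 1 * (S.z - algebraMap ℂ K z0) by
      rw [map_sub]
      ring]
    exact ab_add O (val_const O hc h0) (one_mem _) hzv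
  have hfu : S.u ∈ IntermediateField.adjoin ℂ ({S.z, S.u⁻¹} : Set K) := by
    have := inv_mem (ab_fright S.z S.u⁻¹)
    rwa [inv_inv] at this
  let F : Frame S O :=
    { e := S.u, x := S.z, y := S.u⁻¹, o := fun _ => 39, m := fun _ => 98, p := fun _ => 0
      nR := 6, nT := 5, nw := 77, hc := hc, he := hu0, hx := hx, hy := hy
      fz := ab_fleft _ _, fu := hfu, fe := hfu
      xi_x := fun s => by
        have e : S.xi s S.z / S.u ^ 39
            = S.ev (d.Ps s) / S.u ^ 37 * (S.ev (Pi4 d.q) * S.u⁻¹ ^ 2) := by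
          rw [S.xi_z', Data.xz, map_mul, inv_pow, ← div_eq_mul_inv,
            ab_pow2 (c := 39) (by norm_num)]
        rw [e, ev_Pi4]
        exact mul_mem (hV (Ps_L1 d s))
          (mul_mem (prod_mem fun i _ => hlV i) (pow_mem (ab_right _ _) _))
      xi_y := fun s => by
        have e : S.xi s S.u⁻¹ = -S.xi s S.u / S.u ^ 2 := by
          rw [Derivation.leibniz_inv, smul_eq_mul]
          field_simp
        rw [e, ab_pow (c := 41) (by norm_num), neg_div, S.xi_u']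
        exact neg_mem (hV (xu_L1 d s))
      hR := hV (d.topR.mem (by norm_num))
      hT := hV (d.topT.mem (by norm_num))
      hD := fun s => hV ((d.topD s).mem (by norm_num))
      hW := hV (d.top_Tw.mem (by norm_num))
      hN := fun s => by
        rw [pow_zero, div_one, ev_Nn]
        exact prod_mem fun i _ => pow_mem (hlV i) _
      vR := htop (by norm_num) one_ne_zero d.topR
      vT := htop (by norm_num) one_ne_zero d.topT
      vN := fun s => by
        rw [pow_zero, div_one, ev_Nn, map_prod]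
        exact Finset.prod_eq_one fun i _ => by rw [map_pow, hl, one_pow]
      y1 := hV (L1_mono (by norm_num) (Pi4_L1 _))
      y2 := hV (zPi_L1 _)
      y3 := hV (uPi_L1 _)
      y4 := hV (L1_mono (by norm_num) (Pi4_L1 _))
      y5 := hV (zzPi_L1 _)
      hG := rfl }
  have hG : O.valuation S.G = 1 := F.G_unit (htop (by norm_num) one_ne_zero (d.topD 0))
    (htop (by norm_num) one_ne_zero (d.topD 1))
    (htop (by norm_num) (mul_ne_zero two_ne_zero d.hc) d.top_Tw)
  obtain ⟨V, hV⟩ := F.cchart hG fun _ => (by norm_num : 14 * 39 + 0 + 14 = 98 + 42 * (6 + 5))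
  refine ⟨O, S.u⁻¹, V, inv_ne_zero hu0, huv, ?_⟩
  rw [inv_inv]
  exact hV

end Vale.Agent.P266
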