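import Vale.Agent.P266.ChartAB

/-! P266, task ChartP: the chart on the exceptional curve over the point `(q i, g i j)`, and the
case distinction.

`chartP`: `l = z - q i`, frame `e = x = l`, `y = w = (u - g i j) / l`,
`o s = oo (ty s i) j`, `m s = mD (ty s i) j`, `p s = pe (ty s i)`, `nR = mR j`, `nT = mT j`,
`nw = o 0 + o 1`. All `ev F` lie in `V0` (`z = l + q`, `u = l * w + g`), and `F ∈ mx ^ k` gives
`ev F / l ^ k ∈ V0` (`hat_ideal`). `xi l = ev Ps * l * ev cof`, `xi w = ev (Ph + Ps * Th) / l`;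
`oo ≤ al + 1`, `oo + 1 ≤ be`; `Tw = Ps 0 * (Ph 1 + Ps 1 * Th) - Ps 1 * (Ph 0 + Ps 0 * Th)`;
`Dl l w = Dl z u / l`; `ev (cof q i)` and the other lines are units. If `mT j = 0` then `ev T` is a unit
(`lineT`, the other `u - g i k` are units); if `mT j = 1` then `T ∈ mx` and `Pi / T ∈ O` makes
`ev T / l` a unit; the same for `R`. For `j ≠ 0` use `Frame.unram`; for `j = 0` use `ram0` when
`ty 0 i = 0` and `ram1` otherwise (`al 1 0 = oo 1 0`). All numerical facts by `decide`.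

`good_of_unit`: if `1 < ν u` and `ν z < ν u` then all five generators have valuation `< 1`
(numerators in `Low 5`, `Low 6`; use `hat_mul` with `V = O`, `e0 = 1` or `z`, whichever is larger),
which is excluded. So either `chartB` applies, or `z, u ∈ O`. If `ev Pi4` is not a unit then some
`l = z - q i` has valuation `< 1` and `ν Pi = ν l`. A generator is a unit, so `ν T ≤ ν l` or
`ν R ≤ ν l`; by `lineT`, `lineR` the product `ev (pu (rootP ..))` has valuation `≤ ν l < 1`, so some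
`u - g i j` with exponent one is a nonunit, the others are units, and `(u - g i j) / l ∈ O`. -/

namespace Vale.Agent.P266

variable {K : Type} [Field K] [Algebra ℂ K] {d : Data} (S : Setup K d)

def oo : Fin 2 → Fin 7 → ℕ := ![![4, 3, 4, 7, 7, 7, 7], ![3, 4, 3, 7, 7, 7, 7]]

open MvPolynomial

theorem cp_unit_sub (O : ValuationSubring K) (hc : ∀ c : ℂ, algebraMap ℂ K c ∈ O) {a : K} {c c' : ℂ}
    (h : O.valuation (a - algebraMap ℂ K c) < 1) (hne : c' ≠ c) :
    O.valuation (a - algebraMap ℂ K c') = 1 := by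
  have h1 := val_const O hc (sub_ne_zero.2 hne.symm)
  have e : a - algebraMap ℂ K c' = a - algebraMap ℂ K c + algebraMap ℂ K (c - c') := by
    rw [map_sub]; ring
  rw [e, Valuation.map_add_eq_of_lt_right _ (h1.symm ▸ h), h1]

theorem cp_ev_ln (q : ℂ) : S.ev (ln q) = S.z - algebraMap ℂ K q := by
  rw [ln, map_sub, S.ev_zz, S.ev_C]

theorem cp_pu_root (g : Fin 7 → ℂ) (m : Fin 7 → ℕ) :
    pu (rootP g m) = ∏ k, (uu - C (g k)) ^ m k := by
  simp [pu, rootP, map_prod]

theorem cp_ev_up (g : ℂ) : S.ev (uu - C g) = S.u - algebraMap ℂ K g := by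
  rw [map_sub, S.ev_uu, S.ev_C]

theorem cp_ev_mem (V : Subalgebra ℂ K) (hz : S.z ∈ V) (hu : S.u ∈ V) (F : PP) : S.ev F ∈ V := by
  induction F using MvPolynomial.induction_on with
  | C c => rw [S.ev_C]; exact V.algebraMap_mem c
  | add a b ha hb => rw [map_add]; exact add_mem ha hb
  | mul_X a k ha =>
    rw [map_mul]
    refine mul_mem ha ?_
    fin_cases k
    · exact S.ev_zz ▸ hz
    · exact S.ev_uu ▸ hu

theorem cp_erase_unit (O : ValuationSubring K) (hc : ∀ c : ℂ, algebraMap ℂ K c ∈ O) {i : Fin 4}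
    (hl : O.valuation (S.z - algebraMap ℂ K (d.q i)) < 1) (n : Fin 4 → ℕ) :
    O.valuation (S.ev (∏ k ∈ Finset.univ.erase i, ln (d.q k) ^ n k)) = 1 := by
  rw [map_prod, map_prod]
  refine Finset.prod_eq_one fun k hk => ?_
  rw [map_pow, map_pow, cp_ev_ln, cp_unit_sub O hc hl fun e => (Finset.mem_erase.1 hk).1 (d.hq e),
    one_pow]

theorem cp_cof_unit (O : ValuationSubring K) (hc : ∀ c : ℂ, algebraMap ℂ K c ∈ O) {i : Fin 4}
    (hl : O.valuation (S.z - algebraMap ℂ K (d.q i)) < 1) : O.valuation (S.ev (cof d.q i)) = 1 := by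
  have := cp_erase_unit S O hc hl fun _ => 1
  simpa only [pow_one, cof] using this

theorem cp_Pi_val (O : ValuationSubring K) (hc : ∀ c : ℂ, algebraMap ℂ K c ∈ O) {i : Fin 4}
    (hl : O.valuation (S.z - algebraMap ℂ K (d.q i)) < 1) :
    O.valuation (S.ev (Pi4 d.q)) = O.valuation (S.z - algebraMap ℂ K (d.q i)) := by
  rw [← ln_mul_cof d.q i, map_mul, map_mul, cp_cof_unit S O hc hl, mul_one, cp_ev_ln]

theorem cp_root_val (O : ValuationSubring K) (hc : ∀ c : ℂ, algebraMap ℂ K c ∈ O) {i : Fin 4}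
    {j : Fin 7} (hu : O.valuation (S.u - algebraMap ℂ K (d.g i j)) < 1) (m : Fin 7 → ℕ) :
    O.valuation (S.ev (pu (rootP (d.g i) m))) =
      O.valuation (S.u - algebraMap ℂ K (d.g i j)) ^ m j := by
  rw [cp_pu_root, map_prod, map_prod, Finset.prod_eq_single j (fun k _ hk => ?_) (by simp), map_pow,
    map_pow, cp_ev_up]
  rw [map_pow, map_pow, cp_ev_up, cp_unit_sub O hc hu fun e => hk (d.hg i e), one_pow]

theorem cp_mem_mx {q : ℂ} {g : Fin 7 → ℂ} {m : Fin 7 → ℕ} {j : Fin 7} (hm : m j ≤ 1) {F : PP}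
    (h : ln q ∣ F - pu (rootP g m)) : F ∈ mx q (g j) ^ m j := by
  have h1 : ln q ∈ mx q (g j) ^ m j :=
    Ideal.pow_le_pow_right hm (by rw [pow_one]; exact ln_mem_mx q (g j))
  have h2 : pu (rootP g m) ∈ mx q (g j) ^ m j := by
    rw [cp_pu_root]
    exact Ideal.mem_of_dvd _ (Finset.dvd_prod_of_mem _ (Finset.mem_univ j))
      (Ideal.pow_mem_pow (up_mem_mx q (g j)) _)
  simpa using add_mem (Ideal.mem_of_dvd _ h h1) h2

theorem cp_num : (∀ j, mR j ≤ 1) ∧ (∀ j, mT j ≤ 1) ∧ (∀ t j, oo t j ≤ al t j + 1) ∧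
    (∀ t j, oo t j + 1 ≤ be t j) ∧
    (∀ i j, oo (ty 0 i) j + oo (ty 1 i) j ≤ al (ty 0 i) j + be (ty 1 i) j) ∧
    (∀ i j, oo (ty 0 i) j + oo (ty 1 i) j ≤ al (ty 1 i) j + be (ty 0 i) j) ∧
    (∀ i j, mD (ty 0 i) j + mD (ty 1 i) j + (oo (ty 0 i) j + oo (ty 1 i) j) =
      28 * mR j + 21 * mT j) ∧
    (∀ t j, j ≠ 0 → 14 * oo t j + pe t = mD t j + 42 * (mR j + mT j)) ∧
    (14 * oo 0 0 + pe 0 = mD 0 0 + 42 * (mR 0 + mT 0) + 7) ∧
    (14 * oo 1 0 + pe 1 = mD 1 0 + 42 * (mR 0 + mT 0)) ∧ oo 1 0 = al 1 0 ∧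
    ∀ i, (ty 0 i = 0 ∧ ty 1 i = 1) ∨ (ty 0 i = 1 ∧ ty 1 i = 0) := by
  decide

theorem chartP (O : ValuationSubring K) (hc : ∀ c : ℂ, algebraMap ℂ K c ∈ O)
    (hY : ∀ y ∈ S.Y, y ∈ O) (i : Fin 4) (j : Fin 7)
    (hl : O.valuation (S.z - algebraMap ℂ K (d.q i)) < 1)
    (hw : (S.u - algebraMap ℂ K (d.g i j)) / (S.z - algebraMap ℂ K (d.q i)) ∈ O) : Good S O := by
  obtain ⟨n1, n2, n3, n4, n5, n6, n7, n8, n9, n10, n11, n12⟩ := cp_num
  have hcof := cp_cof_unit S O hc hl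
  have hPi := cp_Pi_val S O hc hl
  have hers := cp_erase_unit S O hc hl
  have hl0 : S.z - algebraMap ℂ K (d.q i) ≠ 0 := cp_ev_ln S (d.q i) ▸ S.ev_ne_zero (ln_ne_zero _)
  have el := cp_ev_ln S (d.q i)
  have eu := cp_ev_up S (d.g i j)
  have xl : ∀ s, S.xi s (S.z - algebraMap ℂ K (d.q i)) = S.ev (d.Ps s * Pi4 d.q) := fun s => by
    rw [map_sub, Derivation.map_algebraMap, sub_zero, S.xi_z]
    rfl
  have xu : ∀ s, S.xi s (S.u - algebraMap ℂ K (d.g i j)) = S.ev (d.xu s) := fun s => by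
    rw [map_sub, Derivation.map_algebraMap, sub_zero, S.xi_u]
    rfl
  have hroot := fun hu => cp_root_val S O hc (i := i) (j := j) hu
  generalize hle : S.z - algebraMap ℂ K (d.q i) = l at *
  generalize hwe : (S.u - algebraMap ℂ K (d.g i j)) / l = w at hw
  have hlw : S.u - algebraMap ℂ K (d.g i j) = l * w := by rw [← hwe, mul_div_cancel₀ _ hl0]
  have hlO : l ∈ O := (O.valuation_le_one_iff l).1 hl.le
  have huv : O.valuation (S.u - algebraMap ℂ K (d.g i j)) < 1 := by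
    rw [hlw, map_mul]
    exact (mul_le_of_le_one_right' ((O.valuation_le_one_iff w).2 hw)).trans_lt hl
  have hlV : l ∈ Algebra.adjoin ℂ ({l, w} : Set K) := Algebra.subset_adjoin (by simp)
  have hwV : w ∈ Algebra.adjoin ℂ ({l, w} : Set K) := Algebra.subset_adjoin (by simp)
  have hzV : S.z ∈ Algebra.adjoin ℂ ({l, w} : Set K) := by
    rw [eq_add_of_sub_eq hle]
    exact add_mem hlV (Subalgebra.algebraMap_mem _ _)
  have huV : S.u ∈ Algebra.adjoin ℂ ({l, w} : Set K) := by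
    rw [eq_add_of_sub_eq hlw]
    exact add_mem (mul_mem hlV hwV) (Subalgebra.algebraMap_mem _ _)
  have hV := cp_ev_mem S _ hzV huV
  have hVO : ∀ a ∈ Algebra.adjoin ℂ ({l, w} : Set K), O.valuation a ≤ 1 := fun a ha =>
    (O.valuation_le_one_iff a).2 (adjoin_sub_val O hc (by rintro s (rfl | rfl); exacts [hlO, hw]) a ha)
  have hmx : ∀ F ∈ mx (d.q i) (d.g i j), S.ev F / l ∈ Algebra.adjoin ℂ ({l, w} : Set K) := by
    intro F hF
    obtain ⟨a, b, rfl⟩ := Ideal.mem_span_pair.1 hF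
    have e : S.ev (a * (zz - C (d.q i)) + b * (uu - C (d.g i j))) / l = S.ev a + S.ev b * w := by
      rw [map_add, map_mul, map_mul, eu, hlw, show zz - C (d.q i) = ln (d.q i) from rfl, el]
      field_simp
    rw [e]
    exact add_mem (hV a) (mul_mem (hV b) hwV)
  have hpow : ∀ {k k' : ℕ} {F : PP}, k' ≤ k → F ∈ mx (d.q i) (d.g i j) ^ k →
      S.ev F / l ^ k' ∈ Algebra.adjoin ℂ ({l, w} : Set K) := fun hk hF =>
    hat_ideal S.ev _ l _ hV hmx _ _ (Ideal.pow_le_pow_right hk hF)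
  have hPm : ∀ a : PP, a * Pi4 d.q ∈ mx (d.q i) (d.g i j) ^ 1 := fun a => by
    rw [pow_one, ← ln_mul_cof d.q i]
    exact Ideal.mul_mem_left _ _ (Ideal.mul_mem_right _ _ (ln_mem_mx _ _))
  have hP1 : Pi4 d.q ∈ mx (d.q i) (d.g i j) ^ 1 := by simpa using hPm 1
  have hxz : ∀ s, d.Ps s * Pi4 d.q ∈ mx (d.q i) (d.g i j) ^ (al (ty s i) j + 1) := fun s => by
    rw [pow_add]
    exact Ideal.mul_mem_mul (d.multPs s i j) hP1
  have ePi : S.ev (Pi4 d.q) = l * S.ev (cof d.q i) := by rw [← ln_mul_cof d.q i, map_mul, el]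
  have xw : ∀ s, S.xi s w = S.ev (d.Ph s + d.Ps s * Th d.q i (d.g i j)) / l := fun s => by
    have h1 := xu s
    rw [hlw, Derivation.leibniz, xl, smul_eq_mul, smul_eq_mul] at h1
    rw [eq_div_iff hl0]
    simp only [Data.xu, Th, map_add, map_mul, map_sub (S.ev) (C (1 / 4) * uu * dPi d.q), eu, hlw,
      ePi] at h1 ⊢
    linear_combination h1
  have eTw : d.Tw = d.Ps 0 * (d.Ph 1 + d.Ps 1 * Th d.q i (d.g i j)) -
      d.Ps 1 * (d.Ph 0 + d.Ps 0 * Th d.q i (d.g i j)) := by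
    unfold Data.Tw
    ring
  have eN : ∀ s, S.ev (d.Nn s) / l ^ pe (ty s i) =
      S.ev (∏ k ∈ Finset.univ.erase i, ln (d.q k) ^ pe (ty s k)) := fun s => by
    rw [Data.Nn, ← Finset.mul_prod_erase _ _ (Finset.mem_univ i), map_mul, map_pow, el,
      mul_div_cancel_left₀ _ (pow_ne_zero _ hl0)]
  have hunit : ∀ (F : PP) (m : Fin 7 → ℕ), m j ≤ 1 → ln (d.q i) ∣ F - pu (rootP (d.g i) m) →
      S.ev F ≠ 0 → S.ev (Pi4 d.q) / S.ev F ∈ O → O.valuation (S.ev F / l ^ m j) = 1 := by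
    intro F m hm hF hF0 hFO
    have h1 := hVO _ (hpow le_rfl (cp_mem_mx hm hF))
    rcases Nat.le_one_iff_eq_zero_or_eq_one.1 hm with h0 | h0
    · obtain ⟨A, hA⟩ := hF
      have h2 := hroot huv m
      rw [h0, pow_zero] at h2
      have h3 : O.valuation (S.ev (ln (d.q i) * A)) < 1 := by
        rw [map_mul, map_mul, el]
        exact (mul_le_of_le_one_right' (hVO _ (hV A))).trans_lt hl
      rw [h0, pow_zero, div_one, eq_add_of_sub_eq hA, map_add,
        Valuation.map_add_eq_of_lt_right _ (h2.symm ▸ h3), h2]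
    · rw [h0, pow_one] at h1 ⊢
      refine le_antisymm h1 ?_
      have h2 := (O.valuation_le_one_iff _).2 hFO
      have h4 : 0 < O.valuation (S.ev F) := (Valuation.pos_iff _).2 hF0
      have h5 : 0 < O.valuation l := (Valuation.pos_iff _).2 hl0
      rw [map_div₀, hPi, div_le_one₀ h4] at h2
      rwa [map_div₀, one_le_div₀ h5]
  let F : Frame S O :=
    { e := l, x := l, y := w
      o := fun s => oo (ty s i) j
      m := fun s => mD (ty s i) j
      p := fun s => pe (ty s i)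
      nR := mR j
      nT := mT j
      nw := oo (ty 0 i) j + oo (ty 1 i) j
      hc := hc
      he := hl0
      hx := hlO
      hy := hw
      fz := IntermediateField.algebra_adjoin_le_adjoin ℂ _ hzV
      fu := IntermediateField.algebra_adjoin_le_adjoin ℂ _ huV
      fe := IntermediateField.algebra_adjoin_le_adjoin ℂ _ hlV
      xi_x := fun s => by
        rw [xl]
        exact hpow (n3 _ _) (hxz s)
      xi_y := fun s => by
        rw [xw, div_div, ← pow_succ']
        exact hpow (n4 _ _) (d.multPh s i j)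
      hR := hpow le_rfl (cp_mem_mx (n1 j) (d.lineR i))
      hT := hpow le_rfl (cp_mem_mx (n2 j) (d.lineT i))
      hD := fun s => hpow le_rfl (d.multD s i j)
      hW := by
        rw [eTw, map_sub, sub_div]
        refine sub_mem (hpow (n5 i j) ?_) (hpow (n6 i j) ?_) <;> rw [pow_add]
        · exact Ideal.mul_mem_mul (d.multPs 0 i j) (d.multPh 1 i j)
        · exact Ideal.mul_mem_mul (d.multPs 1 i j) (d.multPh 0 i j)
      hN := fun s => by
        rw [eN]
        exact hV _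
      vR := hunit _ _ (n1 j) (d.lineR i) S.R_ne (hY _ (by simp [Setup.Y]))
      vT := hunit _ _ (n2 j) (d.lineT i) S.T_ne (hY _ (by simp [Setup.Y]))
      vN := fun s => by
        rw [eN]
        exact hers _
      y1 := hpow (n2 j) hP1
      y2 := hpow (n2 j) (hPm _)
      y3 := hpow (n2 j) (hPm _)
      y4 := hpow (n1 j) hP1
      y5 := hpow (n1 j) (hPm _)
      hG := n7 i j }
  have hdet : F.Det := by
    have e : Dl (S.xi 0) (S.xi 1) l w = S.ev (cof d.q i) * S.ev d.Tw := by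
      unfold Dl
      rw [xl, xl, xw, xw, eTw]
      simp only [map_mul, map_sub, ePi]
      field_simp
    change O.valuation (Dl (S.xi 0) (S.xi 1) l w / l ^ (oo (ty 0 i) j + oo (ty 1 i) j)) =
      O.valuation (S.ev d.Tw / l ^ (oo (ty 0 i) j + oo (ty 1 i) j))
    rw [e, mul_div_assoc, map_mul, hcof, one_mul]
  refine ⟨F.G_mem, fun hG => ?_⟩
  by_cases hj : j = 0
  · subst hj
    rcases n12 i with ⟨t0, t1⟩ | ⟨t0, t1⟩
    · refine F.ram0 hG hdet rfl hl ?_ ?_ ?_
      · change 14 * oo (ty 0 i) 0 + pe (ty 0 i) = mD (ty 0 i) 0 + 42 * (mR 0 + mT 0) + 7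
        rw [t0, n9]
      · change 14 * oo (ty 1 i) 0 + pe (ty 1 i) = mD (ty 1 i) 0 + 42 * (mR 0 + mT 0)
        rw [t1, n10]
      · change S.xi 1 l / l ^ (oo (ty 1 i) 0 + 1) ∈ Algebra.adjoin ℂ ({l, w} : Set K)
        rw [xl]
        exact hpow (by rw [t1, n11]) (hxz 1)
    · refine F.ram1 hG hdet rfl hl ?_ ?_ ?_
      · change 14 * oo (ty 0 i) 0 + pe (ty 0 i) = mD (ty 0 i) 0 + 42 * (mR 0 + mT 0)
        rw [t0, n10]
      · change 14 * oo (ty 1 i) 0 + pe (ty 1 i) = mD (ty 1 i) 0 + 42 * (mR 0 + mT 0) + 7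
        rw [t1, n9]
      · change S.xi 0 l / l ^ (oo (ty 0 i) 0 + 1) ∈ Algebra.adjoin ℂ ({l, w} : Set K)
        rw [xl]
        exact hpow (by rw [t0, n11]) (hxz 0)
  · exact F.unram hG hdet fun s => n8 _ j hj

theorem cp_span (φ : PP →ₐ[ℂ] K) (V : Subalgebra ℂ K) (e : K) (s : Set PP)
    (h : ∀ x ∈ s, φ x / e ∈ V) : ∀ x ∈ Submodule.span ℂ s, φ x / e ∈ V := by
  intro x hx
  induction hx using Submodule.span_induction with
  | mem x hx => exact h x hx
  | zero => simp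
  | add a b _ _ ha hb => rw [map_add, add_div]; exact add_mem ha hb
  | smul c a _ ha => rw [map_smul, smul_div_assoc]; exact V.smul_mem ha c

theorem cp_low (O : ValuationSubring K) (hc : ∀ c : ℂ, algebraMap ℂ K c ∈ O)
    (h1 : 1 < O.valuation S.u) (hz : O.valuation S.z < O.valuation S.u) {k : ℕ} {F : PP}
    (hF : F ∈ Low (k + 1)) : O.valuation (S.ev F) < O.valuation S.u ^ (k + 1) := by
  let V : Subalgebra ℂ K := { O.toSubring with algebraMap_mem' := hc }
  have hV : ∀ a b : K, 0 < O.valuation b → (a / b ∈ V ↔ O.valuation a ≤ O.valuation b) := by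
    intro a b hb
    change a / b ∈ O ↔ _
    rw [← O.valuation_le_one_iff, map_div₀, div_le_one₀ hb]
  have hu0 : 0 < O.valuation S.u := zero_lt_one.trans h1
  obtain ⟨e, he1, hez, heu⟩ : ∃ e : K, 1 ≤ O.valuation e ∧ O.valuation S.z ≤ O.valuation e ∧
      O.valuation e < O.valuation S.u := by
    rcases le_total (O.valuation S.z) 1 with h | h
    · exact ⟨1, by simp, by simpa using h, by simpa using h1⟩
    · exact ⟨S.z, h, le_rfl, hz⟩
  have he0 : 0 < O.valuation e := zero_lt_one.trans_le he1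
  have h0 : ∀ x ∈ L0, S.ev x / e ∈ V := by
    refine cp_span _ _ _ _ ?_
    rintro x (rfl | rfl) <;> rw [hV _ _ he0]
    · simpa using he1
    · rwa [S.ev_zz]
  have h2 : ∀ x ∈ L1, S.ev x / S.u ∈ V := by
    refine cp_span _ _ _ _ ?_
    rintro x (rfl | rfl | rfl) <;> rw [hV _ _ hu0]
    · simpa using h1.le
    · rw [S.ev_zz]
      exact hz.le
    · rw [S.ev_uu]
  have h3 := hat_mul S.ev V _ _ _ _ h0 (hat_pow S.ev V _ _ h2 k) F hF
  rw [hV _ _ (by rw [map_mul, map_pow]; exact mul_pos he0 (pow_pos hu0 k)), map_mul, map_pow] at h3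
  refine h3.trans_lt ?_
  rw [pow_succ']
  exact mul_lt_mul_of_pos_right heu (pow_pos hu0 k)

theorem cp_top (O : ValuationSubring K) (hc : ∀ c : ℂ, algebraMap ℂ K c ∈ O)
    (h1 : 1 < O.valuation S.u) (hz : O.valuation S.z < O.valuation S.u) {k : ℕ} {F A : PP}
    (hF : Top (k + 1) 1 F) (hA : A ∈ Low (k + 1)) : O.valuation (S.ev A / S.ev F) < 1 := by
  have hu0 : 0 < O.valuation S.u ^ (k + 1) := pow_pos (zero_lt_one.trans h1) _
  have h2 := cp_low S O hc h1 hz hF
  have h3 : O.valuation (S.ev (C 1 * uu ^ (k + 1))) = O.valuation S.u ^ (k + 1) := by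
    rw [map_one, one_mul, map_pow, map_pow, S.ev_uu]
  have h4 : O.valuation (S.ev F) = O.valuation S.u ^ (k + 1) := by
    rw [← sub_add_cancel F (C 1 * uu ^ (k + 1)), map_add,
      Valuation.map_add_eq_of_lt_right _ (h3.symm ▸ h2), h3]
  rw [map_div₀, h4, div_lt_one₀ hu0]
  exact cp_low S O hc h1 hz hA

theorem good_of_unit (O : ValuationSubring K) (hc : ∀ c : ℂ, algebraMap ℂ K c ∈ O)
    (hY : ∀ y ∈ S.Y, y ∈ O) (h1 : ∃ y ∈ S.Y, O.valuation y = 1) : Good S O := by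
  obtain ⟨y, hy, hy1⟩ := h1
  by_cases hA : 1 < O.valuation S.u ∧ O.valuation S.z < O.valuation S.u
  · exfalso
    refine (ne_of_lt ?_) hy1
    have p4 := Pi4_mem_Low d.q
    rcases hy with rfl | rfl | rfl | rfl | rfl
    · exact cp_top S O hc hA.1 hA.2 (k := 4) d.topT (Low_mono (by norm_num) p4)
    · refine cp_top S O hc hA.1 hA.2 (k := 4) d.topT ?_
      rw [mul_comm]
      exact mul_mem_Low (by norm_num) p4 (mem_L1_one zz_mem_L1)
    · refine cp_top S O hc hA.1 hA.2 (k := 4) d.topT ?_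
      rw [mul_comm]
      exact mul_mem_Low (by norm_num) p4 (mem_L1_one uu_mem_L1)
    · exact cp_top S O hc hA.1 hA.2 (k := 5) d.topR (Low_mono (by norm_num) p4)
    · refine cp_top S O hc hA.1 hA.2 (k := 5) d.topR ?_
      rw [mul_comm]
      exact mul_mem_Low (a := 4) (b := 2) (by norm_num) p4 (Submodule.pow_mem_pow L1 zz_mem_L1 2)
  by_cases hB : 1 < O.valuation S.z
  · refine chartB S O hc hY hB (not_lt.1 fun h => hA ⟨hB.trans h, h⟩)
  have hz : O.valuation S.z ≤ 1 := not_lt.1 hB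
  have hu : O.valuation S.u ≤ 1 := not_lt.1 fun h => hA ⟨h, hz.trans_lt h⟩
  have hzO := (O.valuation_le_one_iff _).1 hz
  have huO := (O.valuation_le_one_iff _).1 hu
  by_cases hP : O.valuation (S.ev (Pi4 d.q)) = 1
  · exact chartA S O hc hY hzO huO hP
  have hV : ∀ F, O.valuation (S.ev F) ≤ 1 := fun F => (O.valuation_le_one_iff _).2
    (cp_ev_mem S { O.toSubring with algebraMap_mem' := hc } hzO huO F)
  obtain ⟨i, hi⟩ : ∃ i, O.valuation (S.ev (ln (d.q i))) ≠ 1 := by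
    by_contra hcon
    push Not at hcon
    refine hP ?_
    rw [Pi4, map_prod, map_prod]
    exact Finset.prod_eq_one fun k _ => hcon k
  have hl : O.valuation (S.z - algebraMap ℂ K (d.q i)) < 1 :=
    cp_ev_ln S (d.q i) ▸ lt_of_le_of_ne (hV _) hi
  have hl0 : S.z - algebraMap ℂ K (d.q i) ≠ 0 := cp_ev_ln S (d.q i) ▸ S.ev_ne_zero (ln_ne_zero _)
  have key : ∀ (F a : PP) (m : Fin 7 → ℕ), (∀ j, m j ≤ 1) → ln (d.q i) ∣ F - pu (rootP (d.g i) m) →
      S.ev F ≠ 0 → O.valuation (S.ev (a * Pi4 d.q) / S.ev F) = 1 → Good S O := by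
    intro F a m hm hF hF0 hv
    have h2 : O.valuation (S.ev F) ≤ O.valuation (S.z - algebraMap ℂ K (d.q i)) := by
      rw [map_div₀, div_eq_one_iff_eq ((Valuation.ne_zero_iff _).2 hF0)] at hv
      rw [← hv, map_mul, map_mul, cp_Pi_val S O hc hl]
      exact mul_le_of_le_one_left' (hV a)
    obtain ⟨A, hA⟩ := hF
    have h3 : O.valuation (S.ev (pu (rootP (d.g i) m))) ≤
        O.valuation (S.z - algebraMap ℂ K (d.q i)) := by
      rw [show pu (rootP (d.g i) m) = F - ln (d.q i) * A by rw [← hA]; ring, map_sub]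
      refine Valuation.map_sub_le _ h2 ?_
      rw [map_mul, map_mul, cp_ev_ln]
      exact mul_le_of_le_one_right' (hV A)
    obtain ⟨j, hj⟩ : ∃ j, O.valuation (S.ev ((uu - C (d.g i j)) ^ m j)) ≠ 1 := by
      by_contra hcon
      push Not at hcon
      refine (h3.trans_lt hl).ne ?_
      rw [cp_pu_root, map_prod, map_prod]
      exact Finset.prod_eq_one fun k _ => hcon k
    have hmj : m j = 1 := by
      rcases Nat.le_one_iff_eq_zero_or_eq_one.1 (hm j) with h0 | h0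
      · simp [h0] at hj
      · exact h0
    rw [hmj, pow_one] at hj
    have huv : O.valuation (S.u - algebraMap ℂ K (d.g i j)) < 1 :=
      cp_ev_up S (d.g i j) ▸ lt_of_le_of_ne (hV _) hj
    rw [cp_root_val S O hc huv, hmj, pow_one] at h3
    refine chartP S O hc hY i j hl ?_
    rwa [← O.valuation_le_one_iff, map_div₀, div_le_one₀ ((Valuation.pos_iff _).2 hl0)]
  rcases hy with rfl | rfl | rfl | rfl | rfl
  · exact key _ 1 _ cp_num.2.1 (d.lineT i) S.T_ne (by rwa [one_mul])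
  · exact key _ _ _ cp_num.2.1 (d.lineT i) S.T_ne hy1
  · exact key _ _ _ cp_num.2.1 (d.lineT i) S.T_ne hy1
  · exact key _ 1 _ cp_num.1 (d.lineR i) S.R_ne (by rwa [one_mul])
  · exact key _ _ _ cp_num.1 (d.lineR i) S.R_ne hy1

end Vale.Agent.P266
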