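import Vale.Agent.P266.Params

/-! P266, task DataEx: the plane data exist.

Plan: `R`, `T`, and `F13 s`, `F10 s` from `Glue.exists`; `D s` from `exists_D`; apply `exists_xi` to
`P0 = R ^ 2 * T ^ 3 * F13 s`, `S0 = R ^ 2 * T ^ 3 * F10 s` with line polynomials
`rootP mR ^ 2 * rootP mT ^ 3 * ph s i` and the same with `ps s i`;
`al t j = 2 * mR j + 3 * mT j + al0 t j`, and the same for `be`, by `decide`. -/

namespace Vale.Agent.P266

namespace DataExAux

theorem dvd_mul_sub {l F G : PP} {f g : Polynomial ℂ} (h1 : l ∣ F - pu f) (h2 : l ∣ G - pu g) :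
    l ∣ F * G - pu (f * g) := by
  have e : F * G - pu (f * g) = (F - pu f) * G + pu f * (G - pu g) := by
    simp only [pu, map_mul]; ring
  rw [e]
  exact dvd_add (h1.mul_right _) (h2.mul_left _)

theorem pow_dvd_rootP (g : Fin 7 → ℂ) (m : Fin 7 → ℕ) (j : Fin 7) :
    (Polynomial.X - Polynomial.C (g j)) ^ m j ∣ rootP g m :=
  Finset.dvd_prod_of_mem (fun j => (Polynomial.X - Polynomial.C (g j)) ^ m j) (Finset.mem_univ j)

theorem al_eq : ∀ t j, al t j = mR j + mR j + mT j + mT j + mT j + al0 t j := by decide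

theorem be_eq : ∀ t j, be t j = mR j + mR j + mT j + mT j + mT j + be0 t j := by decide

theorem dvd_W (g : Fin 7 → ℂ) (j : Fin 7) {n : ℕ} {f : Polynomial ℂ}
    (h : (Polynomial.X - Polynomial.C (g j)) ^ n ∣ f) :
    (Polynomial.X - Polynomial.C (g j)) ^ (mR j + mR j + mT j + mT j + mT j + n) ∣
      rootP g mR * rootP g mR * rootP g mT * rootP g mT * rootP g mT * f := by
  simp only [pow_add]
  have hR := pow_dvd_rootP g mR j
  have hT := pow_dvd_rootP g mT j
  exact mul_dvd_mul (mul_dvd_mul (mul_dvd_mul (mul_dvd_mul (mul_dvd_mul hR hR) hT) hT) hT) h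

end DataExAux

open DataExAux in
theorem exists_data : Nonempty Data := by
  obtain ⟨q, g, c, ph, ps, hq, hg, hc, gR, gT, gD, gP, gS0, gS1, hps, hph⟩ := exists_params
  obtain ⟨R, tR, lR⟩ := gR.exists hq (by norm_num)
  obtain ⟨T, tT, lT⟩ := gT.exists hq (by norm_num)
  choose D tD mD' using fun s => exists_D hq g (ty s) (gD s)
  have tW : Top 27 1 (R * R * T * T * T) := by
    have := (((tR.mul (by norm_num) (by norm_num) tR).mul (by norm_num) (by norm_num) tT).mul
      (by norm_num) (by norm_num) tT).mul (by norm_num) (by norm_num) tT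
    simpa using this
  have lW : ∀ i, ln (q i) ∣ R * R * T * T * T - pu (rootP (g i) mR * rootP (g i) mR *
      rootP (g i) mT * rootP (g i) mT * rootP (g i) mT) := fun i =>
    dvd_mul_sub (dvd_mul_sub (dvd_mul_sub (dvd_mul_sub (lR i) (lR i)) (lT i)) (lT i)) (lT i)
  have key : ∀ (s : Fin 2) (c' : ℂ), Glue q 10 c' (ps s) → ∃ Ph Ps : PP, Top 40 1 Ph ∧
      Top 37 c' Ps ∧ (∀ i j, Ps ∈ mx (q i) (g i j) ^ al (ty s i) j) ∧
      ∀ i j, Ph + Ps * Th q i (g i j) ∈ mx (q i) (g i j) ^ be (ty s i) j := by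
    intro s c' gS
    obtain ⟨F, tF, lF⟩ := (gP s).exists hq (by norm_num)
    obtain ⟨F', tF', lF'⟩ := gS.exists hq (by norm_num)
    refine exists_xi hq hg (ty s) c' (R * R * T * T * T * F) (R * R * T * T * T * F')
      (by simpa using tW.mul (by norm_num) (by norm_num) tF)
      (by simpa using tW.mul (by norm_num) (by norm_num) tF') _ _
      (fun i => dvd_mul_sub (lW i) (lF i)) (fun i => dvd_mul_sub (lW i) (lF' i))
      (fun i j => ?_) fun i j => ?_
    · rw [al_eq]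
      exact dvd_W (g i) j (hps s i j)
    · rw [be_eq, mul_assoc _ (ps s i), ← mul_add]
      exact dvd_W (g i) j (hph s i j)
  obtain ⟨Ph0, Ps0, a0, b0, c0, d0⟩ := key 0 c gS0
  obtain ⟨Ph1, Ps1, a1, b1, c1, d1⟩ := key 1 (-c) gS1
  refine ⟨⟨q, g, R, T, D, ![Ph0, Ph1], ![Ps0, Ps1], c, hq, hg, hc, tR, tT, lR, lT, tD, mD',
    ?_, b0, b1, ?_, ?_⟩⟩
  · exact Fin.forall_fin_two.2 ⟨a0, a1⟩
  · exact Fin.forall_fin_two.2 ⟨c0, c1⟩
  · exact Fin.forall_fin_two.2 ⟨d0, d1⟩

end Vale.Agent.P266
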