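import Vale.Agent.P266.Defs

/-! P266, task Seidenberg: a derivation of `K` preserving a finitely generated subalgebra `V`
with fraction field `K` preserves the integral closure of `V`.

As `x` is integral over `V` and `K = Frac V` there is `c ≠ 0` in `V` with `c * x ^ n ∈ V` for all
`n`. The `n`-fold commutator of `δ^[n]` with multiplication by `x` is multiplication by
`n! * (δ x) ^ n`, so `c ^ 2 * (δ x) ^ n ∈ V` for all `n`; `V` is Noetherian. -/

namespace Vale.Agent.P266

variable {K : Type} [Field K] [Algebra ℂ K]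

theorem pres_adjoin (δ : Derivation ℂ K K) (S : Set K)
    (h : ∀ s ∈ S, δ s ∈ Algebra.adjoin ℂ S) : Pres δ (Algebra.adjoin ℂ S) := by
  intro x hx
  induction hx using Algebra.adjoin_induction with
  | mem x hx => exact h x hx
  | algebraMap r => rw [δ.map_algebraMap]; exact zero_mem _
  | add x y _ _ hx hy => rw [map_add]; exact add_mem hx hy
  | mul x y hx hy hx' hy' =>
    rw [δ.leibniz, smul_eq_mul, smul_eq_mul]
    exact add_mem (mul_mem hx hy') (mul_mem hy hx')

theorem exists_frac (V : Subalgebra ℂ K) (hV : IntermediateField.adjoin ℂ (V : Set K) = ⊤)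
    (x : K) : ∃ b ∈ V, b ≠ 0 ∧ b * x ∈ V := by
  have hx : x ∈ IntermediateField.adjoin ℂ (V : Set K) := hV ▸ IntermediateField.mem_top
  obtain ⟨r, hr, s, hs, rfl⟩ := IntermediateField.mem_adjoin_iff_div.1 hx
  rw [Algebra.adjoin_eq] at hr hs
  by_cases h0 : s = 0
  · exact ⟨1, one_mem _, one_ne_zero, by simp [h0]⟩
  · exact ⟨s, hs, h0, by rwa [mul_div_cancel₀ _ h0]⟩

/-- The commutator with multiplication by `x`. -/
def sdAd (x : K) (T : K → K) : K → K := fun a => T (x * a) - x * T a

theorem sdAd_comp (δ : Derivation ℂ K K) (x : K) (T : K → K) (k : ℕ) (a : K) :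
    (sdAd x)^[k + 1] (fun a => δ (T a)) a =
      δ ((sdAd x)^[k + 1] T a) + (k + 1) * δ x * (sdAd x)^[k] T a := by
  induction k generalizing a with
  | zero =>
    simp only [zero_add, Function.iterate_one, Function.iterate_zero, id, sdAd, map_sub,
      δ.leibniz, smul_eq_mul]
    ring
  | succ k ih =>
    rw [Function.iterate_succ_apply' _ (k + 1), Function.iterate_succ_apply' _ (k + 1) T, sdAd,
      sdAd, ih, ih, map_sub, δ.leibniz, smul_eq_mul, smul_eq_mul,
      Function.iterate_succ_apply' _ k T]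
    simp only [sdAd]
    push_cast
    ring

theorem sdAd_iter (δ : Derivation ℂ K K) (x : K) (n : ℕ) (a : K) :
    (sdAd x)^[n] (δ^[n]) a = n.factorial * δ x ^ n * a := by
  induction n generalizing a with
  | zero => simp
  | succ n ih =>
    have e : (δ : K → K)^[n + 1] = fun a => δ (δ^[n] a) :=
      funext fun a => Function.iterate_succ_apply' _ _ _
    rw [e, sdAd_comp, Function.iterate_succ_apply' _ n, sdAd, ih, ih, Nat.factorial_succ]
    rw [show (n.factorial : K) * δ x ^ n * (x * a) - x * (n.factorial * δ x ^ n * a) = 0 by ring,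
      map_zero]
    push_cast
    ring

theorem seidenberg (δ : Derivation ℂ K K) (V : Subalgebra ℂ K) (hfg : V.FG)
    (hV : IntermediateField.adjoin ℂ (V : Set K) = ⊤) (hδ : Pres δ V) {x : K}
    (hx : IsIntegral V x) : IsIntegral V (δ x) := by
  have : Algebra.FiniteType ℂ V := (Subalgebra.fg_iff_finiteType V).1 hfg
  have : IsNoetherianRing V := Algebra.FiniteType.isNoetherianRing ℂ V
  obtain ⟨b, hb, hb0, hbx⟩ := exists_frac V hV x
  obtain ⟨c, hc0, hc⟩ := hx.isAlmostIntegral_of_exists_smul_mem_range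
    ⟨⟨b, hb⟩, mem_nonZeroDivisors_of_ne_zero fun e => hb0 (congrArg Subtype.val e),
      ⟨⟨_, hbx⟩, rfl⟩⟩
  have hc' : ∀ n, (c : K) * x ^ n ∈ V := fun n => by
    obtain ⟨y, hy⟩ := hc n
    exact (show (y : K) = c * x ^ n from hy) ▸ y.2
  have h1 : ∀ n, ∀ a ∈ V, δ^[n] a ∈ V := fun n => by
    induction n with
    | zero => exact fun a ha => ha
    | succ n ih => exact fun a ha => ih _ (hδ a ha)
  have h2 : ∀ n k i j, c * x ^ i * (sdAd x)^[k] (δ^[n]) (c * x ^ j) ∈ V := fun n k => by
    induction k with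
    | zero => exact fun i j => mul_mem (hc' i) (h1 n _ (hc' j))
    | succ k ih =>
      intro i j
      have := sub_mem (ih i (j + 1)) (ih (i + 1) j)
      rw [Function.iterate_succ_apply', sdAd, show x * (c * x ^ j) = c * x ^ (j + 1) by ring]
      convert this using 1
      ring
  refine IsAlmostIntegral.isIntegral ⟨c * c, mul_mem hc0 hc0, fun n => ?_⟩
  have h3 := V.smul_mem (h2 n n 0 0) ((n.factorial : ℂ)⁻¹)
  refine ⟨⟨_, h3⟩, ?_⟩
  have h4 : (n.factorial : ℂ) ≠ 0 := Nat.cast_ne_zero.2 n.factorial_ne_zero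
  show (n.factorial : ℂ)⁻¹ • _ = (c : K) * c * δ x ^ n
  rw [sdAd_iter, inv_smul_eq_iff₀ h4, Nat.cast_smul_eq_nsmul, nsmul_eq_mul]
  ring

end Vale.Agent.P266
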