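import Vale.Agent.P266.Poly
import Vale.Agent.P266.Seidenberg

/-! P266, task Field: the function field and its derivations.

Plan for `exists_setup`. `F = FractionRing PP`, `r s` a 14-th root in `AlgebraicClosure F` of
`Nn s / (D s * (R * T) ^ 42)` (denominators nonzero by `Top.ne_zero`),
`K = IntermediateField.adjoin F {r 0, r 1}`. `K` is formally etale over `PP` (localization, then
separable), so every `ℂ`-derivation `PP → K` extends to `K` (base change of Kaehler differentials:
`KaehlerDifferential.tensorKaehlerEquivOfFormallyEtale`, or lift to `TrivSqZeroExt`). Take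
`xi s` extending `xz s • pderiv 0 + xu s • pderiv 1` (or `MvPolynomial.mkDerivation`).

Plan for `span`: solve the linear system on `z, u` (determinant `Dl_v_zu ≠ 0`); a derivation that
kills `z` and `u` kills `ev F`, kills `rho s` (differentiate `hrho`; `rho s ≠ 0`, characteristic
zero), hence kills everything (`gen`, induction on the adjoin, or `exists_frac`). -/

namespace Vale.Agent.P266

open MvPolynomial

theorem Data.R_ne (d : Data) : d.R ≠ 0 := d.topR.ne_zero (by norm_num) one_ne_zero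
theorem Data.T_ne (d : Data) : d.T ≠ 0 := d.topT.ne_zero (by norm_num) one_ne_zero
theorem Data.D_ne (d : Data) (s : Fin 2) : d.D s ≠ 0 :=
  (d.topD s).ne_zero (by norm_num) one_ne_zero
theorem Data.Nn_ne (d : Data) (s : Fin 2) : d.Nn s ≠ 0 :=
  Finset.prod_ne_zero_iff.2 fun _ _ => pow_ne_zero _ (ln_ne_zero _)
theorem Pi4_ne (q : Fin 4 → ℂ) : Pi4 q ≠ 0 :=
  Finset.prod_ne_zero_iff.2 fun _ _ => ln_ne_zero _

theorem fd_extend {K : Type} [Field K] [Algebra ℂ K] [Algebra PP K] [IsScalarTower ℂ PP K]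
    [Algebra.FormallyEtale PP K] (D : Derivation ℂ PP K) :
    ∃ D' : Derivation ℂ K K, ∀ a : PP, D' (algebraMap PP K a) = D a := by
  have hb := KaehlerDifferential.isBaseChange_of_formallyEtale ℂ PP K
  refine ⟨(hb.lift D.liftKaehlerDifferential).compDer (KaehlerDifferential.D ℂ K), fun a => ?_⟩
  have e : KaehlerDifferential.D ℂ K (algebraMap PP K a) =
      KaehlerDifferential.map ℂ ℂ PP K (KaehlerDifferential.D ℂ PP a) := by
    rw [KaehlerDifferential.map_D]
  change hb.lift D.liftKaehlerDifferential (KaehlerDifferential.D ℂ K (algebraMap PP K a)) = _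
  rw [e, hb.lift_eq]
  simp

theorem fd_setup (d : Data) (K : Type) [Field K] [Algebra ℂ K] [Algebra PP K]
    [Algebra (FractionRing PP) K] [IsScalarTower ℂ PP K] [IsScalarTower PP (FractionRing PP) K]
    [Algebra.IsAlgebraic (FractionRing PP) K] (r : Fin 2 → K)
    (hgen : IntermediateField.adjoin (FractionRing PP) {r 0, r 1} = ⊤)
    (hr : ∀ s, r s ^ 14 * algebraMap PP K (d.D s) * algebraMap PP K (d.R * d.T) ^ 42
      = algebraMap PP K (d.Nn s)) : Nonempty (Setup K d) := by
  have e1 : Algebra.FormallyEtale PP (FractionRing PP) :=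
    Algebra.FormallyEtale.of_isLocalization (nonZeroDivisors PP)
  have e2 : Algebra.FormallyEtale (FractionRing PP) K :=
    Algebra.FormallyEtale.of_isSeparable (FractionRing PP) K
  have e3 : Algebra.FormallyEtale PP K := Algebra.FormallyEtale.comp PP (FractionRing PP) K
  have hev : ∀ F : PP, aeval ![algebraMap PP K zz, algebraMap PP K uu] F = algebraMap PP K F := by
    have : (aeval ![algebraMap PP K zz, algebraMap PP K uu] : PP →ₐ[ℂ] K)
        = IsScalarTower.toAlgHom ℂ PP K := by
      refine MvPolynomial.algHom_ext fun i => ?_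
      fin_cases i <;> simp [zz, uu]
    intro F
    rw [this]
    rfl
  have hinj : Function.Injective (algebraMap PP K) := by
    rw [IsScalarTower.algebraMap_eq PP (FractionRing PP) K]
    exact (algebraMap (FractionRing PP) K).injective.comp
      (IsFractionRing.injective PP (FractionRing PP))
  have hxi : ∀ s, ∃ D' : Derivation ℂ K K, D' (algebraMap PP K zz) = algebraMap PP K (d.xz s) ∧
      D' (algebraMap PP K uu) = algebraMap PP K (d.xu s) := fun s => by
    obtain ⟨D', hD'⟩ := fd_extend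
      (mkDerivation ℂ ![algebraMap PP K (d.xz s), algebraMap PP K (d.xu s)])
    refine ⟨D', ?_, ?_⟩
    · rw [hD', zz, mkDerivation_X]
      rfl
    · rw [hD', uu, mkDerivation_X]
      rfl
  choose xi hz hu using hxi
  refine ⟨⟨algebraMap PP K zz, algebraMap PP K uu, r, xi, ?_, ?_, fun s => ?_, fun s => ?_,
    fun s => ?_⟩⟩
  · rw [algebraicIndependent_iff_injective_aeval]
    intro a b hab
    rw [hev, hev] at hab
    exact hinj hab
  · rw [eq_top_iff]
    intro x _
    have hx : x ∈ IntermediateField.adjoin (FractionRing PP) ({r 0, r 1} : Set K) :=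
      hgen ▸ IntermediateField.mem_top
    have hP : ∀ F : PP, algebraMap PP K F ∈ IntermediateField.adjoin ℂ
        ({algebraMap PP K zz, algebraMap PP K uu, r 0, r 1} : Set K) := by
      intro F
      induction F using MvPolynomial.induction_on with
      | C a =>
        rw [← MvPolynomial.algebraMap_eq, ← IsScalarTower.algebraMap_apply]
        exact IntermediateField.algebraMap_mem _ _
      | add p q hp hq =>
        rw [map_add]
        exact add_mem hp hq
      | mul_X p i hp =>
        rw [map_mul]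
        refine mul_mem hp (IntermediateField.subset_adjoin _ _ ?_)
        fin_cases i <;> simp [zz, uu]
    induction hx using IntermediateField.adjoin_induction with
    | mem x hx =>
      refine IntermediateField.subset_adjoin _ _ ?_
      rcases hx with rfl | rfl <;> simp
    | algebraMap x =>
      obtain ⟨a, b, -, rfl⟩ := IsFractionRing.div_surjective (A := PP) x
      rw [map_div₀, ← IsScalarTower.algebraMap_apply, ← IsScalarTower.algebraMap_apply]
      exact div_mem (hP a) (hP b)
    | add x y _ _ hx hy =>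
      exact add_mem (hx IntermediateField.mem_top) (hy IntermediateField.mem_top)
    | inv x _ hx => exact inv_mem (hx IntermediateField.mem_top)
    | mul x y _ _ hx hy =>
      exact mul_mem (hx IntermediateField.mem_top) (hy IntermediateField.mem_top)
  · rw [hev, hz]
  · rw [hev, hu]
  · rw [hev, hev, hev, hr]

theorem exists_setup (d : Data) :
    ∃ (K : Type) (_ : Field K) (_ : Algebra ℂ K), Nonempty (Setup K d) := by
  have hinj : Function.Injective (algebraMap PP (AlgebraicClosure (FractionRing PP))) := by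
    rw [IsScalarTower.algebraMap_eq PP (FractionRing PP) (AlgebraicClosure (FractionRing PP))]
    exact (algebraMap (FractionRing PP) _).injective.comp
      (IsFractionRing.injective PP (FractionRing PP))
  have hex : ∀ s, ∃ r : AlgebraicClosure (FractionRing PP),
      r ^ 14 * algebraMap PP _ (d.D s) * algebraMap PP _ (d.R * d.T) ^ 42
        = algebraMap PP _ (d.Nn s) := fun s => by
    have h1 : algebraMap PP (AlgebraicClosure (FractionRing PP)) (d.D s) ≠ 0 :=
      (map_ne_zero_iff _ hinj).2 (d.D_ne s)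
    have h2 : algebraMap PP (AlgebraicClosure (FractionRing PP)) (d.R * d.T) ^ 42 ≠ 0 :=
      pow_ne_zero _ ((map_ne_zero_iff _ hinj).2 (mul_ne_zero d.R_ne d.T_ne))
    obtain ⟨r, hr⟩ := IsAlgClosed.exists_pow_nat_eq
      (algebraMap PP (AlgebraicClosure (FractionRing PP)) (d.Nn s) /
        (algebraMap PP _ (d.D s) * algebraMap PP _ (d.R * d.T) ^ 42)) (n := 14) (by norm_num)
    exact ⟨r, by rw [hr, mul_assoc, div_mul_cancel₀ _ (mul_ne_zero h1 h2)]⟩
  choose r hr using hex
  let E := IntermediateField.adjoin (FractionRing PP) ({r 0, r 1} : Set _)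
  have hE : ∀ s, r s ∈ E := Fin.forall_fin_two.2
    ⟨IntermediateField.subset_adjoin _ _ (by simp), IntermediateField.subset_adjoin _ _ (by simp)⟩
  have hT0 : IsScalarTower ℂ PP (AlgebraicClosure (FractionRing PP)) := inferInstance
  have hT : IsScalarTower ℂ PP E := IsScalarTower.of_algebraMap_eq fun c =>
    Subtype.ext (IsScalarTower.algebraMap_apply ℂ PP (AlgebraicClosure (FractionRing PP)) c)
  refine ⟨E, inferInstance, inferInstance, fd_setup d E (fun s => ⟨r s, hE s⟩) ?_ fun s => ?_⟩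
  · apply IntermediateField.lift_injective E
    rw [IntermediateField.lift_adjoin, IntermediateField.lift_top, Set.image_pair]
  · exact Subtype.ext (hr s)

theorem Data.top_Tw (d : Data) : Top 77 (2 * d.c) d.Tw := by
  have h := (Top.mul (by norm_num) (by norm_num) d.topPs0 (d.topPh 1)).sub
    (Top.mul (by norm_num) (by norm_num) d.topPs1 (d.topPh 0))
  rwa [show d.c * 1 - -d.c * 1 = 2 * d.c by ring] at h

variable {K : Type} [Field K] [Algebra ℂ K] {d : Data} (S : Setup K d)

namespace Setup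

theorem ev_zz : S.ev zz = S.z := by simp [ev, zz]
theorem ev_uu : S.ev uu = S.u := by simp [ev, uu]
theorem ev_C (c : ℂ) : S.ev (C c) = algebraMap ℂ K c := by simp [ev]

theorem ev_ne_zero {F : PP} (h : F ≠ 0) : S.ev F ≠ 0 :=
  (map_ne_zero_iff S.ev (algebraicIndependent_iff_injective_aeval.1 S.indep)).2 h

theorem R_ne : S.ev d.R ≠ 0 := S.ev_ne_zero d.R_ne
theorem T_ne : S.ev d.T ≠ 0 := S.ev_ne_zero d.T_ne
theorem D_ne (s : Fin 2) : S.ev (d.D s) ≠ 0 := S.ev_ne_zero (d.D_ne s)
theorem Tw_ne : S.ev d.Tw ≠ 0 :=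
  S.ev_ne_zero (d.top_Tw.ne_zero (by norm_num) (mul_ne_zero two_ne_zero d.hc))
theorem Pi_ne : S.ev (Pi4 d.q) ≠ 0 := S.ev_ne_zero (Pi4_ne _)
theorem Nn_ne (s : Fin 2) : S.ev (d.Nn s) ≠ 0 := S.ev_ne_zero (d.Nn_ne s)

theorem rho_eq (s : Fin 2) :
    S.rho s ^ 14 * S.ev (d.D s * (d.R * d.T) ^ 42) = S.ev (d.Nn s) := by
  rw [map_mul, map_pow, ← mul_assoc]
  exact S.hrho s

theorem den_ne (s : Fin 2) : S.ev (d.D s * (d.R * d.T) ^ 42) ≠ 0 :=
  S.ev_ne_zero (mul_ne_zero (d.D_ne s) (pow_ne_zero _ (mul_ne_zero d.R_ne d.T_ne)))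

theorem rho_ne (s : Fin 2) : S.rho s ≠ 0 := fun h => S.Nn_ne s (by rw [← S.rho_eq s, h]; simp)
theorem G_ne : S.G ≠ 0 :=
  div_ne_zero (mul_ne_zero (mul_ne_zero (S.D_ne 0) (S.D_ne 1)) S.Tw_ne)
    (mul_ne_zero (pow_ne_zero _ S.R_ne) (pow_ne_zero _ S.T_ne))

theorem xi_z' (s : Fin 2) : S.xi s S.z = S.ev (d.xz s) := S.xi_z s
theorem xi_u' (s : Fin 2) : S.xi s S.u = S.ev (d.xu s) := S.xi_u s

theorem Dl_xi_zu : Dl (S.xi 0) (S.xi 1) S.z S.u = S.ev (Pi4 d.q) * S.ev d.Tw := by
  rw [Dl, S.xi_z', S.xi_z', S.xi_u', S.xi_u', ← map_mul, ← map_mul, ← map_sub, ← map_mul]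
  congr 1
  simp only [Data.xz, Data.xu, Data.Tw]
  ring

theorem Dl_v_ne : Dl (S.v 0) (S.v 1) S.z S.u ≠ 0 := by
  have : Dl (S.v 0) (S.v 1) S.z S.u = S.rho 0 * S.rho 1 * Dl (S.xi 0) (S.xi 1) S.z S.u := by
    simp only [Dl, v, Derivation.smul_apply, smul_eq_mul]
    ring
  rw [this, S.Dl_xi_zu]
  exact mul_ne_zero (mul_ne_zero (S.rho_ne 0) (S.rho_ne 1)) (mul_ne_zero S.Pi_ne S.Tw_ne)

/-- Values of polynomials lie in every subalgebra containing `z` and `u`. -/
theorem ev_mem (V : Subalgebra ℂ K) (hz : S.z ∈ V) (hu : S.u ∈ V) (F : PP) : S.ev F ∈ V := by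
  induction F using MvPolynomial.induction_on with
  | C a =>
    rw [S.ev_C]
    exact V.algebraMap_mem a
  | add p q hp hq =>
    rw [map_add]
    exact add_mem hp hq
  | mul_X p i hp =>
    rw [map_mul]
    refine mul_mem hp ?_
    fin_cases i
    · exact S.ev_zz ▸ hz
    · exact S.ev_uu ▸ hu

theorem der_zero (δ : Derivation ℂ K K) (hz : δ S.z = 0) (hu : δ S.u = 0) (x : K) : δ x = 0 := by
  have hev : ∀ F : PP, δ (S.ev F) = 0 := by
    intro F
    induction F using MvPolynomial.induction_on with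
    | C a => rw [S.ev_C, δ.map_algebraMap]
    | add p q hp hq => rw [map_add, map_add, hp, hq, add_zero]
    | mul_X p i hp =>
      have : δ (S.ev (X i)) = 0 := by
        fin_cases i
        · exact S.ev_zz ▸ hz
        · exact S.ev_uu ▸ hu
      rw [map_mul, δ.leibniz, hp, this, smul_zero, smul_zero, add_zero]
  have hrho : ∀ s, δ (S.rho s) = 0 := fun s => by
    have h := congrArg δ (S.rho_eq s)
    rw [hev, δ.leibniz, hev, smul_zero, zero_add, δ.leibniz_pow, smul_eq_mul, smul_eq_mul,
      nsmul_eq_mul] at h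
    have h14 : ((14 : ℕ) : K) ≠ 0 := by
      rw [← map_natCast (algebraMap ℂ K)]
      exact (map_ne_zero _).2 (by norm_num)
    exact (mul_eq_zero.1 ((mul_eq_zero.1 ((mul_eq_zero.1 h).resolve_left
      (S.den_ne s))).resolve_left h14)).resolve_left (pow_ne_zero _ (S.rho_ne s))
  have hx : x ∈ IntermediateField.adjoin ℂ ({S.z, S.u, S.rho 0, S.rho 1} : Set K) :=
    S.gen ▸ IntermediateField.mem_top
  induction hx using IntermediateField.adjoin_induction with
  | mem x hx =>
    rcases hx with rfl | rfl | rfl | rfl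
    exacts [hz, hu, hrho 0, hrho 1]
  | algebraMap c => exact δ.map_algebraMap c
  | add x y _ _ hx hy => rw [map_add, hx, hy, add_zero]
  | inv x _ hx => rw [δ.leibniz_inv, hx, smul_zero]
  | mul x y _ _ hx hy => rw [δ.leibniz, hx, hy, smul_zero, smul_zero, add_zero]

theorem span (D : Derivation ℂ K K) : ∃ a b : K, D = a • S.v 0 + b • S.v 1 := by
  have h := S.Dl_v_ne
  refine ⟨(D S.z * S.v 1 S.u - D S.u * S.v 1 S.z) / Dl (S.v 0) (S.v 1) S.z S.u,
    (D S.u * S.v 0 S.z - D S.z * S.v 0 S.u) / Dl (S.v 0) (S.v 1) S.z S.u, ?_⟩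
  rw [← sub_eq_zero]
  ext x
  refine S.der_zero _ ?_ ?_ x
  · simp only [Derivation.sub_apply, Derivation.add_apply, Derivation.smul_apply, smul_eq_mul]
    field_simp
    unfold Dl
    ring
  · simp only [Derivation.sub_apply, Derivation.add_apply, Derivation.smul_apply, smul_eq_mul]
    field_simp
    unfold Dl
    ring

theorem alg_of (E : IntermediateField ℂ K) (hz : S.z ∈ E) (hu : S.u ∈ E) :
    Algebra.IsAlgebraic E K := by
  have hE : ∀ x ∈ E, x ∈ (algebraicClosure E K).restrictScalars ℂ := fun x hx =>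
    (algebraicClosure E K).algebraMap_mem ⟨x, hx⟩
  have hr : ∀ s, S.rho s ∈ (algebraicClosure E K).restrictScalars ℂ := fun s => by
    have h1 : S.rho s ^ 14 ∈ E := by
      rw [eq_div_of_mul_eq (S.den_ne s) (S.rho_eq s)]
      exact div_mem (S.ev_mem E.toSubalgebra hz hu _) (S.ev_mem E.toSubalgebra hz hu _)
    exact mem_algebraicClosure_iff.2 (IsAlgebraic.of_pow (n := 14) (by norm_num)
      (isAlgebraic_algebraMap (⟨_, h1⟩ : E)))
  have htop : (⊤ : IntermediateField ℂ K) ≤ (algebraicClosure E K).restrictScalars ℂ := by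
    rw [← S.gen, IntermediateField.adjoin_le_iff]
    rintro x (rfl | rfl | rfl | rfl)
    exacts [hE _ hz, hE _ hu, hr 0, hr 1]
  exact ⟨fun x => mem_algebraicClosure_iff.1 (htop IntermediateField.mem_top)⟩

theorem alg_zu : Algebra.IsAlgebraic (Algebra.adjoin ℂ ({S.z, S.u} : Set K)) K :=
  IntermediateField.isAlgebraic_adjoin_iff_top.1 (S.alg_of _
    (IntermediateField.subset_adjoin _ _ (by simp)) (IntermediateField.subset_adjoin _ _ (by simp)))

include S in
theorem trdeg : Algebra.trdeg ℂ K = 2 := by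
  have h := S.alg_zu
  rw [← Matrix.range_cons_cons_empty S.z S.u ![]] at h
  have := (S.indep.isTranscendenceBasis_iff_isAlgebraic.2 h).cardinalMk_eq_trdeg
  rw [← this]
  simp

/-- `z` and `u` are quotients of generators, so `K` is algebraic over the span of `Y`. -/
theorem alg_Y : Algebra.IsAlgebraic (Algebra.adjoin ℂ S.Y) K := by
  have key : ∀ F : PP, S.ev (F * Pi4 d.q) / S.ev d.T ∈ S.Y →
      S.ev F ∈ IntermediateField.adjoin ℂ S.Y := fun F hF => by
    have e : S.ev F = S.ev (F * Pi4 d.q) / S.ev d.T / (S.ev (Pi4 d.q) / S.ev d.T) := by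
      rw [div_div_div_cancel_right₀ S.T_ne, map_mul, mul_div_cancel_right₀ _ S.Pi_ne]
    rw [e]
    exact div_mem (IntermediateField.subset_adjoin _ _ hF)
      (IntermediateField.subset_adjoin _ _ (by simp [Y]))
  exact IntermediateField.isAlgebraic_adjoin_iff_top.1 (S.alg_of _
    (S.ev_zz ▸ key zz (by simp [Y])) (S.ev_uu ▸ key uu (by simp [Y])))

/-- `z` and `u⁻¹` are algebraically independent, so there is a valuation ring centred at the point
`z = z0`, `u⁻¹ = 0` (`Ideal.image_subset_nonunits_valuationSubring`, applied to the kernel of the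
evaluation at `(z0, 0)` on `adjoin {z, u⁻¹}`). -/
theorem exists_val_C (z0 : ℂ) : ∃ O : ValuationSubring K, (∀ c : ℂ, algebraMap ℂ K c ∈ O) ∧
    O.valuation (S.z - algebraMap ℂ K z0) < 1 ∧ O.valuation S.u⁻¹ < 1 := by
  have halg : Algebra.IsAlgebraic (Algebra.adjoin ℂ (Set.range ![S.z, S.u⁻¹])) K := by
    refine IntermediateField.isAlgebraic_adjoin_iff_top.1 (S.alg_of _
      (IntermediateField.subset_adjoin _ _ ⟨0, rfl⟩) ?_)
    rw [← inv_inv S.u]
    exact inv_mem (IntermediateField.subset_adjoin _ _ ⟨1, by simp⟩)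
  have hind : AlgebraicIndependent ℂ ![S.z, S.u⁻¹] :=
    (Algebra.IsAlgebraic.isTranscendenceBasis_of_le_trdeg_of_finite ℂ ![S.z, S.u⁻¹]
      (by rw [S.trdeg]; simp)).1
  let φ : Algebra.adjoin ℂ (Set.range ![S.z, S.u⁻¹]) →ₐ[ℂ] ℂ :=
    (aeval ![z0, 0]).comp hind.repr
  have hφ : ∀ F : PP, φ (hind.aevalEquiv F) = aeval ![z0, 0] F := fun F => by
    simp [φ, AlgebraicIndependent.repr]
  obtain ⟨O, hO, hI⟩ := Ideal.image_subset_nonunits_valuationSubring
    (A := (Algebra.adjoin ℂ (Set.range ![S.z, S.u⁻¹])).toSubring) (RingHom.ker φ.toRingHom)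
    (RingHom.ker_ne_top _)
  have key : ∀ F : PP, aeval ![z0, 0] F = 0 → O.valuation (aeval ![S.z, S.u⁻¹] F) < 1 :=
    fun F hF => O.mem_nonunits_iff.1 (hI ⟨hind.aevalEquiv F, (hφ F).trans hF, rfl⟩)
  refine ⟨O, fun c => hO (Subalgebra.algebraMap_mem _ c), ?_, ?_⟩
  · have := key (X 0 - C z0) (by simp)
    rwa [map_sub, aeval_X, aeval_C] at this
  · simpa using key (X 1) (by simp)

end Setup

end Vale.Agent.P266
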