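import Vale.Agent.P266.ChartP
import Vale.Agent.P266.AbsMain
import Vale.Agent.P266.DataEx

/-! P266: the counterexample. -/

namespace Vale.Agent.P266

theorem counterexample : ∃ (A : Type) (_ : CommRing A) (_ : IsDomain A) (_ : Algebra ℂ A),
    Algebra.FiniteType ℂ A ∧ Module.Free A (Derivation ℂ A A) ∧ ¬ IsRegularRing A := by
  obtain ⟨d⟩ := exists_data
  obtain ⟨K, _, _, ⟨S⟩⟩ := exists_setup d
  obtain ⟨A, hA, h1, h2⟩ := abstract_main (S.v 0) (S.v 1) S.Y (by simp [Setup.Y]) S.G S.trdeg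
    {S.z, S.u, S.rho 0, S.rho 1} (by simp) S.gen S.alg_Y S.span ⟨_, _, S.Dl_v_ne⟩ S.G_ne
    (fun O hc hY h1 => (good_of_unit S O hc hY h1).1)
    (fun O hc hY h1 => (good_of_unit S O hc hY h1).2) (chartC S)
  exact ⟨A, inferInstance, inferInstance, inferInstance,
    (Subalgebra.fg_iff_finiteType A).1 hA, h1, h2⟩

end Vale.Agent.P266
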