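import Vale.Agent.P266.Seidenberg

/-! P266, task Nice: toolkit for building charts. All enlargements are `V ⊔ adjoin {t}`, which is
`adjoin (insert t V)`; use `pres_adjoin` and `Subalgebra.FG.sup`.

`ram_core`: first adjoin `s1` (root of a unit), then `p = s0 ^ 2 / x` (`p ^ 7 = e0`, a unit), then
`s0`. `(s0 • n0) s0 = p * n0 x / 2 + s0 ^ 2 * n0 e0 / (14 * e0)` and
`n1 s0 = s0 * (n1 x / x / 2 + n1 e0 / (14 * e0))` (differentiate `s0 ^ 14 = x ^ 7 * e0`).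
Take `f = s0`, `g = y`: `Dl (s0 • n0) (s1 • n1) s0 y
= s1 * (p * Dl n0 n1 x y / 2 + s0 ^ 2 * Dl n0 n1 e0 y / (14 * e0))`, and `s0` has valuation `< 1`. -/

namespace Vale.Agent.P266

variable {K : Type} [Field K] [Algebra ℂ K]

theorem val_const (O : ValuationSubring K) (hc : ∀ c : ℂ, algebraMap ℂ K c ∈ O) {c : ℂ}
    (h : c ≠ 0) : O.valuation (algebraMap ℂ K c) = 1 := by
  have h1 : O.valuation (algebraMap ℂ K c) ≤ 1 := (O.valuation_le_one_iff _).2 (hc c)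
  have h2 : O.valuation (algebraMap ℂ K c⁻¹) ≤ 1 := (O.valuation_le_one_iff _).2 (hc _)
  have h3 : O.valuation (algebraMap ℂ K c) * O.valuation (algebraMap ℂ K c⁻¹) = 1 := by
    rw [← map_mul, ← map_mul, mul_inv_cancel₀ h, map_one, map_one]
  refine le_antisymm h1 ?_
  calc 1 = O.valuation (algebraMap ℂ K c) * O.valuation (algebraMap ℂ K c⁻¹) := h3.symm
    _ ≤ O.valuation (algebraMap ℂ K c) * 1 := mul_le_mul' le_rfl h2
    _ = _ := mul_one _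

theorem Dl_smul (a b : K) (n0 n1 : Derivation ℂ K K) (f g : K) :
    Dl (a • n0) (b • n1) f g = a * b * Dl n0 n1 f g := by
  simp only [Dl, Derivation.smul_apply, smul_eq_mul]; ring

theorem Dl_swap (n0 n1 : Derivation ℂ K K) (f g : K) : Dl n1 n0 f g = - Dl n0 n1 f g := by
  simp only [Dl]; ring

theorem Nice.symm {n0 n1 : Derivation ℂ K K} {O : ValuationSubring K} {V : Subalgebra ℂ K}
    (h : Nice n0 n1 O V) : Nice n1 n0 O V := ⟨h.1, h.2.1, h.2.2.2, h.2.2.1⟩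

theorem GoodChart.symm {n0 n1 : Derivation ℂ K K} {O : ValuationSubring K} {Y : Set K}
    (h : GoodChart n0 n1 Y O) : GoodChart n1 n0 Y O := by
  obtain ⟨V, ⟨h1, h2, h3⟩, f, hf, g, hg, h4⟩ := h
  exact ⟨V, ⟨h1.symm, h2, h3⟩, f, hf, g, hg, by rw [Dl_swap, Valuation.map_neg, h4]⟩

theorem adjoin_sub_val (O : ValuationSubring K) (hc : ∀ c : ℂ, algebraMap ℂ K c ∈ O) {S : Set K}
    (hS : ∀ s ∈ S, s ∈ O) : ∀ x ∈ Algebra.adjoin ℂ S, x ∈ O := by
  intro x hx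
  induction hx using Algebra.adjoin_induction with
  | mem x hx => exact hS x hx
  | algebraMap r => exact hc r
  | add x y _ _ hx hy => exact add_mem hx hy
  | mul x y _ _ hx hy => exact mul_mem hx hy

theorem ext_le (t : K) (V : Subalgebra ℂ K) : V ≤ Algebra.adjoin ℂ (insert t (V : Set K)) :=
  fun _ hx => Algebra.subset_adjoin (Set.mem_insert_of_mem _ hx)

theorem ext_self (t : K) (V : Subalgebra ℂ K) : t ∈ Algebra.adjoin ℂ (insert t (V : Set K)) :=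
  Algebra.subset_adjoin (Set.mem_insert _ _)

theorem nice_ext {n0 n1 : Derivation ℂ K K} {O : ValuationSubring K} {V : Subalgebra ℂ K}
    (hfg : V.FG) (hVO : ∀ x ∈ V, x ∈ O) {t : K} (ht : t ∈ O)
    (h0 : ∀ x ∈ V, n0 x ∈ Algebra.adjoin ℂ (insert t (V : Set K)))
    (h0t : n0 t ∈ Algebra.adjoin ℂ (insert t (V : Set K)))
    (h1 : ∀ x ∈ V, n1 x ∈ Algebra.adjoin ℂ (insert t (V : Set K)))
    (h1t : n1 t ∈ Algebra.adjoin ℂ (insert t (V : Set K))) :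
    Nice n0 n1 O (Algebra.adjoin ℂ (insert t (V : Set K))) := by
  classical
  refine ⟨?_, adjoin_sub_val O (fun c => hVO _ (V.algebraMap_mem c)) ?_, pres_adjoin _ _ ?_,
    pres_adjoin _ _ ?_⟩
  · obtain ⟨S, rfl⟩ := hfg
    exact ⟨insert t S, by rw [Finset.coe_insert, Algebra.adjoin_insert_adjoin]⟩
  · rintro s (rfl | hs)
    exacts [ht, hVO s hs]
  · rintro s (rfl | hs)
    exacts [h0t, h0 s hs]
  · rintro s (rfl | hs)
    exacts [h1t, h1 s hs]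

theorem der_root (δ : Derivation ℂ K K) {t e : K} {n : ℕ} (ht : t ^ n = e) :
    (n : K) * e * δ t = t * δ e := by
  subst ht
  rw [δ.leibniz_pow, smul_eq_mul, nsmul_eq_mul]
  cases n with
  | zero => simp
  | succ n =>
    rw [Nat.add_sub_cancel]
    ring

omit [Algebra ℂ K] in
theorem mem_of_pow (O : ValuationSubring K) {t : K} {n : ℕ} (hn : 0 < n) (h : t ^ n ∈ O) :
    t ∈ O := by
  rw [← O.valuation_le_one_iff] at h ⊢
  rw [map_pow] at h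
  exact (pow_le_one_iff_of_nonneg zero_le' hn.ne').1 h

omit [Algebra ℂ K] in
theorem val_of_pow (O : ValuationSubring K) {t : K} {n : ℕ} (hn : 0 < n)
    (h : O.valuation (t ^ n) = 1) : O.valuation t = 1 := by
  rw [map_pow] at h
  exact (pow_eq_one_iff_of_nonneg zero_le' hn.ne').1 h

omit [Algebra ℂ K] in
theorem ne_of_val (O : ValuationSubring K) {t : K} (h : O.valuation t = 1) : t ≠ 0 := by
  rintro rfl
  simp at h

theorem hat_mul' (φ : PP →ₐ[ℂ] K) (V : Subalgebra ℂ K) (e e' : K) (N N' : Submodule ℂ PP)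
    (h : ∀ x ∈ N, φ x / e ∈ V) (h' : ∀ x ∈ N', φ x / e' ∈ V) :
    ∀ x ∈ N * N', φ x / (e * e') ∈ V := by
  intro x hx
  refine Submodule.mul_induction_on hx (fun a ha b hb => ?_) (fun a b ha hb => ?_)
  · rw [map_mul, ← div_mul_div_comm]
    exact mul_mem (h a ha) (h' b hb)
  · rw [map_add, add_div]
    exact add_mem ha hb

theorem nice_base {n0 n1 : Derivation ℂ K K} {O : ValuationSubring K}
    (hc : ∀ c : ℂ, algebraMap ℂ K c ∈ O) {x y : K} (hx : x ∈ O) (hy : y ∈ O)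
    (h0x : n0 x ∈ Algebra.adjoin ℂ ({x, y} : Set K)) (h0y : n0 y ∈ Algebra.adjoin ℂ ({x, y} : Set K))
    (h1x : n1 x ∈ Algebra.adjoin ℂ ({x, y} : Set K)) (h1y : n1 y ∈ Algebra.adjoin ℂ ({x, y} : Set K)) :
    Nice n0 n1 O (Algebra.adjoin ℂ ({x, y} : Set K)) := by
  classical
  refine ⟨⟨{x, y}, by simp⟩, adjoin_sub_val O hc ?_, pres_adjoin _ _ ?_, pres_adjoin _ _ ?_⟩
  · rintro s (rfl | rfl)
    exacts [hx, hy]
  · rintro s (rfl | rfl)
    exacts [h0x, h0y]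
  · rintro s (rfl | rfl)
    exacts [h1x, h1y]

theorem Nice.inv {n0 n1 : Derivation ℂ K K} {O : ValuationSubring K} {V : Subalgebra ℂ K}
    (h : Nice n0 n1 O V) {c : K} (hc : c ∈ V) (hv : O.valuation c = 1) :
    ∃ W, V ≤ W ∧ c⁻¹ ∈ W ∧ Nice n0 n1 O W := by
  have key : ∀ n : Derivation ℂ K K, Pres n V →
      n c⁻¹ ∈ Algebra.adjoin ℂ (insert c⁻¹ (V : Set K)) := fun n hn => by
    rw [n.leibniz_inv, smul_eq_mul]
    exact mul_mem (neg_mem (pow_mem (ext_self _ _) 2)) (ext_le _ _ (hn c hc))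
  refine ⟨_, ext_le c⁻¹ V, ext_self _ _, nice_ext h.1 h.2.1 ?_
    (fun x hx => ext_le _ _ (h.2.2.1 x hx)) (key n0 h.2.2.1)
    (fun x hx => ext_le _ _ (h.2.2.2 x hx)) (key n1 h.2.2.2)⟩
  rw [← O.valuation_le_one_iff, map_inv₀, hv, inv_one]

theorem Nice.root {n0 n1 : Derivation ℂ K K} {O : ValuationSubring K} {V : Subalgebra ℂ K}
    (h : Nice n0 n1 O V) {t e : K} {n : ℕ} (hn : 0 < n) (ht : t ^ n = e) (he0 : e ≠ 0)
    (he : e ∈ V) (he' : e⁻¹ ∈ V) : ∃ W, V ≤ W ∧ t ∈ W ∧ Nice n0 n1 O W := by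
  have key : ∀ δ : Derivation ℂ K K, Pres δ V →
      δ t ∈ Algebra.adjoin ℂ (insert t (V : Set K)) := fun δ hδ => by
    have h1 := der_root δ ht
    have hn0 : (n : K) ≠ 0 := by
      rw [← map_natCast (algebraMap ℂ K)]
      exact (map_ne_zero _).2 (Nat.cast_ne_zero.2 hn.ne')
    have h2 : δ t = algebraMap ℂ K (n : ℂ)⁻¹ * (t * (δ e * e⁻¹)) := by
      rw [map_inv₀, map_natCast]
      field_simp
      rw [← h1]
      ring
    rw [h2]
    exact mul_mem (Subalgebra.algebraMap_mem _ _)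
      (mul_mem (ext_self _ _) (ext_le _ _ (mul_mem (hδ e he) he')))
  exact ⟨_, ext_le t V, ext_self _ _, nice_ext h.1 h.2.1 (mem_of_pow O hn (ht ▸ h.2.1 e he))
    (fun x hx => ext_le _ _ (h.2.2.1 x hx)) (key n0 h.2.2.1)
    (fun x hx => ext_le _ _ (h.2.2.2 x hx)) (key n1 h.2.2.2)⟩

theorem Nice.smul {n0 n1 : Derivation ℂ K K} {O : ValuationSubring K} {V : Subalgebra ℂ K}
    (h : Nice n0 n1 O V) {a b : K} (ha : a ∈ V) (hb : b ∈ V) : Nice (a • n0) (b • n1) O V := by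
  refine ⟨h.1, h.2.1, fun x hx => ?_, fun x hx => ?_⟩
  · rw [Derivation.smul_apply, smul_eq_mul]
    exact mul_mem ha (h.2.2.1 x hx)
  · rw [Derivation.smul_apply, smul_eq_mul]
    exact mul_mem hb (h.2.2.2 x hx)

theorem unram_core {n0 n1 : Derivation ℂ K K} {O : ValuationSubring K} {V : Subalgebra ℂ K}
    (h : Nice n0 n1 O V) {s0 s1 e0 e1 : K} (h0 : s0 ^ 14 = e0) (h1 : s1 ^ 14 = e1)
    (he0 : e0 ∈ V) (he0' : e0⁻¹ ∈ V) (he1 : e1 ∈ V) (he1' : e1⁻¹ ∈ V)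
    (hv0 : O.valuation e0 = 1) (hv1 : O.valuation e1 = 1) :
    ∃ W, V ≤ W ∧ s0 ∈ W ∧ s1 ∈ W ∧ Nice (s0 • n0) (s1 • n1) O W ∧
      O.valuation s0 = 1 ∧ O.valuation s1 = 1 := by
  obtain ⟨W1, hW1, hs0, hN1⟩ := h.root (by norm_num) h0 (ne_of_val O hv0) he0 he0'
  obtain ⟨W2, hW2, hs1, hN2⟩ := hN1.root (by norm_num) h1 (ne_of_val O hv1) (hW1 he1) (hW1 he1')
  exact ⟨W2, hW1.trans hW2, hW2 hs0, hs1, hN2.smul (hW2 hs0) hs1,
    val_of_pow O (by norm_num) (h0 ▸ hv0), val_of_pow O (by norm_num) (h1 ▸ hv1)⟩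

theorem ram_core {n0 n1 : Derivation ℂ K K} {O : ValuationSubring K} {V : Subalgebra ℂ K}
    (h : Nice n0 n1 O V) {x y s0 s1 e0 e1 : K} (hx : x ∈ V) (hy : y ∈ V) (hx0 : x ≠ 0)
    (hxv : O.valuation x < 1) (h0 : s0 ^ 14 = x ^ 7 * e0) (h1 : s1 ^ 14 = e1)
    (he0 : e0 ∈ V) (he0' : e0⁻¹ ∈ V) (he1 : e1 ∈ V) (he1' : e1⁻¹ ∈ V)
    (hv0 : O.valuation e0 = 1) (hv1 : O.valuation e1 = 1) (hn : n1 x / x ∈ V)
    (hD : O.valuation (Dl n0 n1 x y) = 1) :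
    ∃ W, V ≤ W ∧ s0 ∈ W ∧ s1 ∈ W ∧ Nice (s0 • n0) (s1 • n1) O W ∧
      ∃ f ∈ W, ∃ g ∈ W, O.valuation (Dl (s0 • n0) (s1 • n1) f g) = 1 := by
  obtain ⟨W1, hW1, hs1, hN1⟩ := h.root (by norm_num) h1 (ne_of_val O hv1) he1 he1'
  obtain ⟨p, hp⟩ : ∃ p : K, p = s0 ^ 2 / x := ⟨_, rfl⟩
  have hp7 : p ^ 7 = e0 := by
    rw [hp, div_pow, ← pow_mul, h0, mul_div_cancel_left₀ _ (pow_ne_zero 7 hx0)]
  have hs : s0 ^ 2 = p * x := by rw [hp, div_mul_cancel₀ _ hx0]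
  obtain ⟨W2, hW2, hpW, hN2⟩ := hN1.root (by norm_num) hp7 (ne_of_val O hv0) (hW1 he0) (hW1 he0')
  have hVW : V ≤ W2 := hW1.trans hW2
  have hpv : O.valuation p = 1 := val_of_pow O (by norm_num) (hp7 ▸ hv0)
  have hs1v : O.valuation s1 = 1 := val_of_pow O (by norm_num) (h1 ▸ hv1)
  have hp0 : p ≠ 0 := ne_of_val O hpv
  have hpi : p⁻¹ ∈ W2 := by
    have : p⁻¹ = p ^ 6 * e0⁻¹ := by
      rw [← hp7]
      field_simp
    rw [this]
    exact mul_mem (pow_mem hpW 6) (hVW he0')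
  have h2 : (2 : K) ≠ 0 := by
    rw [← map_ofNat (algebraMap ℂ K) 2]
    exact (map_ne_zero _).2 two_ne_zero
  have hhalf : algebraMap ℂ K (2 : ℂ)⁻¹ = (2 : K)⁻¹ := by rw [map_inv₀, map_ofNat]
  have hd : ∀ δ : Derivation ℂ K K, s0 * δ s0 = (2 : K)⁻¹ * (p * δ x + x * δ p) := fun δ => by
    have e1 := δ.leibniz s0 s0
    have e2 := δ.leibniz p x
    rw [← sq, hs, e2] at e1
    simp only [smul_eq_mul] at e1
    rw [e1]
    field_simp
    ring
  have hd1 : n1 s0 = s0 * ((2 : K)⁻¹ * (n1 x / x + n1 p * p⁻¹)) := by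
    have e1 : p * x * n1 s0 = s0 * (s0 * n1 s0) := by
      rw [← hs]
      ring
    rw [hd n1] at e1
    have e2 : n1 s0 = (p * x)⁻¹ * (p * x * n1 s0) := by field_simp
    rw [e2, e1]
    field_simp
  have hhW : (2 : K)⁻¹ ∈ W2 := hhalf ▸ W2.algebraMap_mem _
  have hs0O : s0 ∈ O := mem_of_pow O (n := 2) (by norm_num)
    (hs ▸ mul_mem (hN2.2.1 p hpW) (h.2.1 x hx))
  refine ⟨Algebra.adjoin ℂ (insert s0 (W2 : Set K)), hVW.trans (ext_le _ _), ext_self _ _,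
    ext_le _ _ (hW2 hs1), nice_ext hN2.1 hN2.2.1 hs0O (fun z hz => ?_) ?_ (fun z hz => ?_) ?_,
    s0, ext_self _ _, y, ext_le _ _ (hVW hy), ?_⟩
  · rw [Derivation.smul_apply, smul_eq_mul]
    exact mul_mem (ext_self _ _) (ext_le _ _ (hN2.2.2.1 z hz))
  · rw [Derivation.smul_apply, smul_eq_mul, hd n0]
    exact ext_le _ _ (mul_mem hhW (add_mem (mul_mem hpW (hN2.2.2.1 x (hVW hx)))
      (mul_mem (hVW hx) (hN2.2.2.1 p hpW))))
  · rw [Derivation.smul_apply, smul_eq_mul]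
    exact ext_le _ _ (mul_mem (hW2 hs1) (hN2.2.2.2 z hz))
  · rw [Derivation.smul_apply, smul_eq_mul, hd1]
    exact mul_mem (ext_le _ _ (hW2 hs1)) (mul_mem (ext_self _ _) (ext_le _ _
      (mul_mem hhW (add_mem (hVW hn) (mul_mem (hN2.2.2.2 p hpW) hpi)))))
  · have e : Dl (s0 • n0) (s1 • n1) s0 y
        = s1 * ((2 : K)⁻¹ * (p * Dl n0 n1 x y + x * Dl n0 n1 p y)) := by
      rw [Dl_smul]
      have e1 : s0 * s1 * Dl n0 n1 s0 y
          = s1 * ((s0 * n0 s0) * n1 y - (s0 * n1 s0) * n0 y) := by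
        unfold Dl
        ring
      rw [e1, hd n0, hd n1]
      unfold Dl
      ring
    have v2 : O.valuation (2 : K)⁻¹ = 1 :=
      hhalf ▸ val_const O (fun c => h.2.1 _ (V.algebraMap_mem c)) (inv_ne_zero two_ne_zero)
    have v3 : O.valuation (p * Dl n0 n1 x y) = 1 := by rw [map_mul, hpv, hD, one_mul]
    have v4 : O.valuation (x * Dl n0 n1 p y) < 1 := by
      have : Dl n0 n1 p y ∈ W2 :=
        sub_mem (mul_mem (hN2.2.2.1 p hpW) (hN2.2.2.2 y (hVW hy)))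
          (mul_mem (hN2.2.2.2 p hpW) (hN2.2.2.1 y (hVW hy)))
      rw [map_mul]
      calc O.valuation x * O.valuation (Dl n0 n1 p y) ≤ O.valuation x * 1 :=
            mul_le_mul' le_rfl ((O.valuation_le_one_iff _).2 (hN2.2.1 _ this))
        _ < 1 := by rwa [mul_one]
    rw [e, map_mul, map_mul, hs1v, v2, one_mul, one_mul,
      O.valuation.map_add_eq_of_lt_left (v3.symm ▸ v4), v3]

/-- Powers of a submodule: if `φ x / e ∈ V` on `N` then `φ x / e ^ n ∈ V` on `N ^ n`. -/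
theorem hat_pow (φ : PP →ₐ[ℂ] K) (V : Subalgebra ℂ K) (e : K) (N : Submodule ℂ PP)
    (h : ∀ x ∈ N, φ x / e ∈ V) (n : ℕ) : ∀ x ∈ N ^ n, φ x / e ^ n ∈ V := by
  induction n with
  | zero =>
    intro x hx
    rw [pow_zero, Submodule.mem_one] at hx
    obtain ⟨c, rfl⟩ := hx
    rw [pow_zero, div_one, AlgHom.commutes]
    exact V.algebraMap_mem c
  | succ n ih =>
    rw [pow_succ, pow_succ]
    exact hat_mul' φ V _ _ _ _ ih h

theorem hat_mul (φ : PP →ₐ[ℂ] K) (V : Subalgebra ℂ K) (e e' : K) (N N' : Submodule ℂ PP)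
    (h : ∀ x ∈ N, φ x / e ∈ V) (h' : ∀ x ∈ N', φ x / e' ∈ V) :
    ∀ x ∈ N * N', φ x / (e * e') ∈ V := by
  exact hat_mul' φ V e e' N N' h h'

/-- Powers of an ideal. -/
theorem hat_ideal (φ : PP →ₐ[ℂ] K) (V : Subalgebra ℂ K) (e : K) (I : Ideal PP)
    (hV : ∀ x, φ x ∈ V) (h : ∀ x ∈ I, φ x / e ∈ V) (n : ℕ) : ∀ x ∈ I ^ n, φ x / e ^ n ∈ V := by
  induction n with
  | zero => exact fun x _ => by simpa using hV x
  | succ n ih =>
    intro x hx
    rw [pow_succ] at hx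
    refine Submodule.mul_induction_on hx (fun a ha b hb => ?_) (fun a b ha hb => ?_)
    · rw [map_mul, pow_succ, ← div_mul_div_comm]
      exact mul_mem (ih a ha) (h b hb)
    · rw [map_add, add_div]
      exact add_mem ha hb

end Vale.Agent.P266
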