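import Vale.Agent.P266.Field
import Vale.Agent.P266.Nice

/-! P266, task Frame: from orders of vanishing along a chart to good charts.

In a frame every polynomial datum is a power of `e` times an element of `V0 = adjoin {x, y}`.
Write `hat F n = ev F / e ^ n`. By `hG`, `G = hat D0 * hat D1 * hat Tw / (hat R ^ 28 * hat T ^ 21)`.
With `eps s = hat (Nn s) / (hat (D s) * (hat R * hat T) ^ 42)` one has
`rho s ^ 14 * e ^ (m s + 42 * (nR + nT)) = e ^ p s * eps s`, and `eta s = (e ^ o s)⁻¹ • xi s`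
preserves `V0`, and `v s = (rho s * e ^ o s) • eta s`. -/

namespace Vale.Agent.P266

variable {K : Type} [Field K] [Algebra ℂ K] {d : Data}

/-- A chart of the blown-up plane seen from a valuation ring. -/
structure Frame (S : Setup K d) (O : ValuationSubring K) where
  e : K
  x : K
  y : K
  o : Fin 2 → ℕ
  m : Fin 2 → ℕ
  p : Fin 2 → ℕ
  nR : ℕ
  nT : ℕ
  nw : ℕ
  hc : ∀ c : ℂ, algebraMap ℂ K c ∈ O
  he : e ≠ 0
  hx : x ∈ O
  hy : y ∈ O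
  fz : S.z ∈ IntermediateField.adjoin ℂ ({x, y} : Set K)
  fu : S.u ∈ IntermediateField.adjoin ℂ ({x, y} : Set K)
  fe : e ∈ IntermediateField.adjoin ℂ ({x, y} : Set K)
  xi_x : ∀ s, S.xi s x / e ^ o s ∈ Algebra.adjoin ℂ ({x, y} : Set K)
  xi_y : ∀ s, S.xi s y / e ^ o s ∈ Algebra.adjoin ℂ ({x, y} : Set K)
  hR : S.ev d.R / e ^ nR ∈ Algebra.adjoin ℂ ({x, y} : Set K)
  hT : S.ev d.T / e ^ nT ∈ Algebra.adjoin ℂ ({x, y} : Set K)
  hD : ∀ s, S.ev (d.D s) / e ^ m s ∈ Algebra.adjoin ℂ ({x, y} : Set K)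
  hW : S.ev d.Tw / e ^ nw ∈ Algebra.adjoin ℂ ({x, y} : Set K)
  hN : ∀ s, S.ev (d.Nn s) / e ^ p s ∈ Algebra.adjoin ℂ ({x, y} : Set K)
  vR : O.valuation (S.ev d.R / e ^ nR) = 1
  vT : O.valuation (S.ev d.T / e ^ nT) = 1
  vN : ∀ s, O.valuation (S.ev (d.Nn s) / e ^ p s) = 1
  y1 : S.ev (Pi4 d.q) / e ^ nT ∈ Algebra.adjoin ℂ ({x, y} : Set K)
  y2 : S.ev (zz * Pi4 d.q) / e ^ nT ∈ Algebra.adjoin ℂ ({x, y} : Set K)
  y3 : S.ev (uu * Pi4 d.q) / e ^ nT ∈ Algebra.adjoin ℂ ({x, y} : Set K)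
  y4 : S.ev (Pi4 d.q) / e ^ nR ∈ Algebra.adjoin ℂ ({x, y} : Set K)
  y5 : S.ev (zz ^ 2 * Pi4 d.q) / e ^ nR ∈ Algebra.adjoin ℂ ({x, y} : Set K)
  hG : m 0 + m 1 + nw = 28 * nR + 21 * nT

namespace Frame

variable {S : Setup K d} {O : ValuationSubring K} (F : Frame S O)

/-- The determinant of the rescaled fields has the size of the rescaled torsion polynomial. -/
def Det : Prop :=
  O.valuation (Dl (S.xi 0) (S.xi 1) F.x F.y / F.e ^ (F.o 0 + F.o 1))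
    = O.valuation (S.ev d.Tw / F.e ^ F.nw)

/-- The rescaled vector fields. -/
noncomputable def eta (s : Fin 2) : Derivation ℂ K K := (F.e ^ F.o s)⁻¹ • S.xi s

/-- The unit part of the radicand. -/
noncomputable def eps (s : Fin 2) : K :=
  S.ev (d.Nn s) / F.e ^ F.p s /
    (S.ev (d.D s) / F.e ^ F.m s * (S.ev d.R / F.e ^ F.nR * (S.ev d.T / F.e ^ F.nT)) ^ 42)

theorem sub_val : ∀ a ∈ Algebra.adjoin ℂ ({F.x, F.y} : Set K), a ∈ O := by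
  refine adjoin_sub_val O F.hc ?_
  rintro s (rfl | rfl)
  exacts [F.hx, F.hy]

theorem G_eq : S.G = S.ev (d.D 0) / F.e ^ F.m 0 * (S.ev (d.D 1) / F.e ^ F.m 1) *
    (S.ev d.Tw / F.e ^ F.nw) / ((S.ev d.R / F.e ^ F.nR) ^ 28 * (S.ev d.T / F.e ^ F.nT) ^ 21) := by
  have h : F.e ^ F.m 0 * F.e ^ F.m 1 * F.e ^ F.nw = (F.e ^ F.nR) ^ 28 * (F.e ^ F.nT) ^ 21 := by
    rw [← pow_add, ← pow_add, F.hG, ← pow_mul, ← pow_mul, ← pow_add, mul_comm 28, mul_comm 21]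
  rw [div_mul_div_comm, div_mul_div_comm, h, div_pow, div_pow, div_mul_div_comm,
    div_div_div_cancel_right₀ (mul_ne_zero (pow_ne_zero _ (pow_ne_zero _ F.he))
      (pow_ne_zero _ (pow_ne_zero _ F.he)))]
  rfl

theorem G_val : O.valuation S.G = O.valuation (S.ev (d.D 0) / F.e ^ F.m 0) *
    O.valuation (S.ev (d.D 1) / F.e ^ F.m 1) * O.valuation (S.ev d.Tw / F.e ^ F.nw) := by
  rw [F.G_eq, map_div₀, map_mul, map_mul, map_mul, map_pow, map_pow, F.vR, F.vT, one_pow, one_pow,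
    mul_one, div_one]

theorem units (hG : O.valuation S.G = 1) : (∀ s, O.valuation (S.ev (d.D s) / F.e ^ F.m s) = 1) ∧
    O.valuation (S.ev d.Tw / F.e ^ F.nw) = 1 := by
  rw [F.G_val] at hG
  have h0 := (O.valuation_le_one_iff _).2 (F.sub_val _ (F.hD 0))
  have h1 := (O.valuation_le_one_iff _).2 (F.sub_val _ (F.hD 1))
  have h2 := (O.valuation_le_one_iff _).2 (F.sub_val _ F.hW)
  have key : ∀ a b : O.ValueGroup, a ≤ 1 → b ≤ 1 → a * b = 1 → a = 1 ∧ b = 1 := by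
    intro a b ha hb hab
    have e : a = 1 := by
      refine le_antisymm ha ?_
      calc 1 = a * b := hab.symm
        _ ≤ a * 1 := mul_le_mul' le_rfl hb
        _ = a := mul_one a
    exact ⟨e, by rwa [e, one_mul] at hab⟩
  obtain ⟨e1, e2⟩ := key _ _ (mul_le_one' h0 h1) h2 hG
  obtain ⟨e3, e4⟩ := key _ _ h0 h1 e1
  exact ⟨Fin.forall_fin_two.2 ⟨e3, e4⟩, e2⟩

theorem eta_apply (s : Fin 2) (a : K) : F.eta s a = S.xi s a / F.e ^ F.o s := by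
  rw [eta, Derivation.smul_apply, smul_eq_mul, div_eq_inv_mul]

theorem v_eq (s : Fin 2) : S.v s = (S.rho s * F.e ^ F.o s) • F.eta s := by
  rw [eta, smul_smul, mul_assoc, mul_inv_cancel₀ (pow_ne_zero _ F.he), mul_one]
  rfl

theorem ev_eq (s : Fin 2) : F.e • S.v s = (S.rho s * F.e ^ (F.o s + 1)) • F.eta s := by
  rw [F.v_eq, smul_smul, pow_succ, mul_comm F.e, mul_assoc]

theorem det_val (hG : O.valuation S.G = 1) (hdet : F.Det) :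
    O.valuation (Dl (F.eta 0) (F.eta 1) F.x F.y) = 1 := by
  rw [eta, eta, Dl_smul, ← mul_inv, ← pow_add, ← div_eq_inv_mul, ← (F.units hG).2]
  exact hdet

theorem sig_pow (s : Fin 2) {k j : ℕ} (h : 14 * k + F.p s = F.m s + 42 * (F.nR + F.nT) + j) :
    (S.rho s * F.e ^ k) ^ 14 = F.e ^ j * F.eps s := by
  have h1 : S.rho s ^ 14 * S.ev (d.D s) * (S.ev d.R * S.ev d.T) ^ 42 = S.ev (d.Nn s) := by
    rw [← map_mul]
    exact S.hrho s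
  have h2 : (F.e ^ k) ^ 14 * F.e ^ F.p s
      = F.e ^ j * (F.e ^ F.m s * (F.e ^ F.nR * F.e ^ F.nT) ^ 42) := by
    rw [← pow_mul, ← pow_add, ← pow_add, ← pow_mul, ← pow_add, ← pow_add]
    congr 1
    omega
  have h3 : S.ev (d.D s) * (S.ev d.R * S.ev d.T) ^ 42 ≠ 0 :=
    mul_ne_zero (S.D_ne s) (pow_ne_zero _ (mul_ne_zero S.R_ne S.T_ne))
  have h4 : F.e ^ F.p s ≠ 0 := pow_ne_zero _ F.he
  rw [eps, div_mul_div_comm, div_pow, div_mul_div_comm, ← h1, mul_assoc, mul_pow]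
  generalize S.ev (d.D s) * (S.ev d.R * S.ev d.T) ^ 42 = A at h3 ⊢
  generalize F.e ^ F.m s * (F.e ^ F.nR * F.e ^ F.nT) ^ 42 = B at h2 ⊢
  generalize (F.e ^ k) ^ 14 = C at h2 ⊢
  generalize F.e ^ F.p s = P at h2 h4 ⊢
  generalize F.e ^ j = J at h2 ⊢
  generalize S.rho s ^ 14 = r
  have h5 : C = J * B / P := by rw [← h2, mul_div_cancel_right₀ _ h4]
  rw [h5, div_div_eq_mul_div]
  field_simp

theorem top {W : Subalgebra ℂ K} (hW : Algebra.adjoin ℂ ({F.x, F.y} : Set K) ≤ W) {k0 k1 : ℕ}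
    (h0 : S.rho 0 * F.e ^ k0 ∈ W) (h1 : S.rho 1 * F.e ^ k1 ∈ W) :
    IntermediateField.adjoin ℂ (W : Set K) = ⊤ := by
  have hle : IntermediateField.adjoin ℂ ({F.x, F.y} : Set K) ≤
      IntermediateField.adjoin ℂ (W : Set K) :=
    IntermediateField.adjoin.mono _ _ _ fun a ha => hW (Algebra.subset_adjoin ha)
  have key : ∀ s k, S.rho s * F.e ^ k ∈ W → S.rho s ∈ IntermediateField.adjoin ℂ (W : Set K) := by
    intro s k h
    rw [← mul_div_cancel_right₀ (S.rho s) (pow_ne_zero k F.he)]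
    exact div_mem (IntermediateField.subset_adjoin _ _ h) (pow_mem (hle F.fe) k)
  rw [eq_top_iff, ← S.gen, IntermediateField.adjoin_le_iff]
  rintro a (rfl | rfl | rfl | rfl)
  exacts [hle F.fz, hle F.fu, key _ _ h0, key _ _ h1]

theorem base (hG : O.valuation S.G = 1) : ∃ V, Nice (F.eta 0) (F.eta 1) O V ∧
    Algebra.adjoin ℂ ({F.x, F.y} : Set K) ≤ V ∧ insert S.G⁻¹ S.Y ⊆ V ∧
    ∀ s, F.eps s ∈ V ∧ (F.eps s)⁻¹ ∈ V ∧ O.valuation (F.eps s) = 1 := by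
  obtain ⟨vD, vW⟩ := F.units hG
  have N0 : Nice (F.eta 0) (F.eta 1) O (Algebra.adjoin ℂ ({F.x, F.y} : Set K)) := by
    refine nice_base F.hc F.hx F.hy ?_ ?_ ?_ ?_ <;> rw [F.eta_apply]
    exacts [F.xi_x 0, F.xi_y 0, F.xi_x 1, F.xi_y 1]
  obtain ⟨V1, l1, i1, N1⟩ := N0.inv F.hR F.vR
  obtain ⟨V2, l2, i2, N2⟩ := N1.inv (l1 F.hT) F.vT
  obtain ⟨V3, l3, i3, N3⟩ := N2.inv (l2 (l1 (F.hD 0))) (vD 0)
  obtain ⟨V4, l4, i4, N4⟩ := N3.inv (l3 (l2 (l1 (F.hD 1)))) (vD 1)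
  obtain ⟨V5, l5, i5, N5⟩ := N4.inv (l4 (l3 (l2 (l1 F.hW)))) vW
  obtain ⟨V6, l6, i6, N6⟩ := N5.inv (l5 (l4 (l3 (l2 (l1 (F.hN 0)))))) (F.vN 0)
  obtain ⟨V7, l7, i7, N7⟩ := N6.inv (l6 (l5 (l4 (l3 (l2 (l1 (F.hN 1))))))) (F.vN 1)
  have l : Algebra.adjoin ℂ ({F.x, F.y} : Set K) ≤ V7 :=
    fun a ha => l7 (l6 (l5 (l4 (l3 (l2 (l1 ha))))))
  have jR := l7 (l6 (l5 (l4 (l3 (l2 i1)))))
  have jT := l7 (l6 (l5 (l4 (l3 i2))))
  have jD : ∀ s, (S.ev (d.D s) / F.e ^ F.m s)⁻¹ ∈ V7 :=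
    Fin.forall_fin_two.2 ⟨l7 (l6 (l5 (l4 i3))), l7 (l6 (l5 i4))⟩
  have jW := l7 (l6 i5)
  have jN : ∀ s, (S.ev (d.Nn s) / F.e ^ F.p s)⁻¹ ∈ V7 := Fin.forall_fin_two.2 ⟨l7 i6, i7⟩
  have hq : ∀ (a b : K) (n : ℕ), a / F.e ^ n ∈ V7 → (b / F.e ^ n)⁻¹ ∈ V7 → a / b ∈ V7 := by
    intro a b n ha hb
    rw [← div_div_div_cancel_right₀ (pow_ne_zero n F.he) a b, div_eq_mul_inv]
    exact mul_mem ha hb
  refine ⟨V7, N7, l, ?_, fun s => ⟨?_, ?_, ?_⟩⟩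
  · rintro a (rfl | rfl | rfl | rfl | rfl | rfl)
    · rw [F.G_eq, inv_div, div_eq_mul_inv, mul_inv, mul_inv]
      exact mul_mem (mul_mem (pow_mem (l F.hR) _) (pow_mem (l F.hT) _))
        (mul_mem (mul_mem (jD 0) (jD 1)) jW)
    · exact hq _ _ _ (l F.y1) jT
    · exact hq _ _ _ (l F.y2) jT
    · exact hq _ _ _ (l F.y3) jT
    · exact hq _ _ _ (l F.y4) jR
    · exact hq _ _ _ (l F.y5) jR
  · rw [eps, div_eq_mul_inv, mul_inv, ← inv_pow, mul_inv]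
    exact mul_mem (l (F.hN s)) (mul_mem (jD s) (pow_mem (mul_mem jR jT) _))
  · rw [eps, inv_div, div_eq_mul_inv]
    exact mul_mem (mul_mem (l (F.hD s)) (pow_mem (mul_mem (l F.hR) (l F.hT)) _)) (jN s)
  · rw [eps, map_div₀, map_mul, map_pow, map_mul, F.vN, vD, F.vR, F.vT]
    simp

theorem x_mem : F.x ∈ Algebra.adjoin ℂ ({F.x, F.y} : Set K) :=
  Algebra.subset_adjoin (Set.mem_insert _ _)

theorem y_mem : F.y ∈ Algebra.adjoin ℂ ({F.x, F.y} : Set K) :=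
  Algebra.subset_adjoin (Set.mem_insert_of_mem _ rfl)

theorem sig_pow0 (s : Fin 2) {k : ℕ} (h : 14 * k + F.p s = F.m s + 42 * (F.nR + F.nT)) :
    (S.rho s * F.e ^ k) ^ 14 = F.eps s := by
  rw [F.sig_pow s (j := 0) h, pow_zero, one_mul]

theorem eta_div (hex : F.e = F.x) (s : Fin 2) :
    F.eta s F.x / F.x = S.xi s F.x / F.e ^ (F.o s + 1) := by
  rw [F.eta_apply, div_div, pow_succ, hex]

include F in
theorem G_mem : S.G ∈ O := by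
  rw [← O.valuation_le_one_iff, F.G_val]
  exact mul_le_one' (mul_le_one' ((O.valuation_le_one_iff _).2 (F.sub_val _ (F.hD 0)))
    ((O.valuation_le_one_iff _).2 (F.sub_val _ (F.hD 1))))
    ((O.valuation_le_one_iff _).2 (F.sub_val _ F.hW))

theorem unram (hG : O.valuation S.G = 1) (hdet : F.Det)
    (hn : ∀ s, 14 * F.o s + F.p s = F.m s + 42 * (F.nR + F.nT)) :
    GoodChart (S.v 0) (S.v 1) (insert S.G⁻¹ S.Y) O := by
  obtain ⟨V, N, l, hY, he⟩ := F.base hG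
  obtain ⟨W, hW, s0, s1, NW, v0, v1⟩ := unram_core N (F.sig_pow0 0 (hn 0)) (F.sig_pow0 1 (hn 1))
    (he 0).1 (he 0).2.1 (he 1).1 (he 1).2.1 (he 0).2.2 (he 1).2.2
  rw [F.v_eq, F.v_eq]
  refine ⟨W, ⟨NW, F.top (l.trans hW) s0 s1, hY.trans hW⟩, F.x, hW (l F.x_mem), F.y,
    hW (l F.y_mem), ?_⟩
  rw [Dl_smul, map_mul, map_mul, v0, v1, F.det_val hG hdet, one_mul, one_mul]

theorem ram0 (hG : O.valuation S.G = 1) (hdet : F.Det) (hex : F.e = F.x)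
    (hxv : O.valuation F.x < 1)
    (hn0 : 14 * F.o 0 + F.p 0 = F.m 0 + 42 * (F.nR + F.nT) + 7)
    (hn1 : 14 * F.o 1 + F.p 1 = F.m 1 + 42 * (F.nR + F.nT))
    (hx1 : S.xi 1 F.x / F.e ^ (F.o 1 + 1) ∈ Algebra.adjoin ℂ ({F.x, F.y} : Set K)) :
    GoodChart (S.v 0) (S.v 1) (insert S.G⁻¹ S.Y) O := by
  obtain ⟨V, N, l, hY, he⟩ := F.base hG
  have h0 := F.sig_pow 0 hn0
  rw [hex] at h0
  rw [← F.eta_div hex] at hx1
  obtain ⟨W, hW, s0, s1, NW, hfg⟩ := ram_core N (l F.x_mem) (l F.y_mem) (hex ▸ F.he) hxv h0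
    (F.sig_pow0 1 hn1) (he 0).1 (he 0).2.1 (he 1).1 (he 1).2.1 (he 0).2.2 (he 1).2.2 (l hx1)
    (F.det_val hG hdet)
  rw [← hex] at s0 NW hfg
  rw [F.v_eq, F.v_eq]
  exact ⟨W, ⟨NW, F.top (l.trans hW) s0 s1, hY.trans hW⟩, hfg⟩

theorem ram1 (hG : O.valuation S.G = 1) (hdet : F.Det) (hex : F.e = F.x)
    (hxv : O.valuation F.x < 1)
    (hn0 : 14 * F.o 0 + F.p 0 = F.m 0 + 42 * (F.nR + F.nT))
    (hn1 : 14 * F.o 1 + F.p 1 = F.m 1 + 42 * (F.nR + F.nT) + 7)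
    (hx0 : S.xi 0 F.x / F.e ^ (F.o 0 + 1) ∈ Algebra.adjoin ℂ ({F.x, F.y} : Set K)) :
    GoodChart (S.v 0) (S.v 1) (insert S.G⁻¹ S.Y) O := by
  obtain ⟨V, N, l, hY, he⟩ := F.base hG
  have h1 := F.sig_pow 1 hn1
  rw [hex] at h1
  rw [← F.eta_div hex] at hx0
  obtain ⟨W, hW, s1, s0, NW, hfg⟩ := ram_core N.symm (l F.x_mem) (l F.y_mem) (hex ▸ F.he) hxv h1
    (F.sig_pow0 0 hn0) (he 1).1 (he 1).2.1 (he 0).1 (he 0).2.1 (he 1).2.2 (he 0).2.2 (l hx0)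
    (by rw [Dl_swap, Valuation.map_neg, F.det_val hG hdet])
  rw [← hex] at s1 NW hfg
  rw [F.v_eq, F.v_eq]
  exact GoodChart.symm ⟨W, ⟨NW, F.top (l.trans hW) s0 s1, hY.trans hW⟩, hfg⟩

/-- Along the central curve `e • v s = (rho s * e ^ (o s + 1)) • eta s` is still regular. -/
theorem cchart (hG : O.valuation S.G = 1)
    (hn : ∀ s, 14 * F.o s + F.p s + 14 = F.m s + 42 * (F.nR + F.nT)) :
    ∃ V, Chart (F.e • S.v 0) (F.e • S.v 1) (insert S.G⁻¹ S.Y) O V := by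
  obtain ⟨V, N, l, hY, he⟩ := F.base hG
  obtain ⟨W, hW, s0, s1, NW, -, -⟩ := unram_core N
    (F.sig_pow0 0 (k := F.o 0 + 1) (by have := hn 0; omega))
    (F.sig_pow0 1 (k := F.o 1 + 1) (by have := hn 1; omega))
    (he 0).1 (he 0).2.1 (he 1).1 (he 1).2.1 (he 0).2.2 (he 1).2.2
  rw [F.ev_eq, F.ev_eq]
  exact ⟨W, NW, F.top (l.trans hW) s0 s1, hY.trans hW⟩

/-- If the three rescaled factors are units, so is `G`. -/
theorem G_unit (h0 : O.valuation (S.ev (d.D 0) / F.e ^ F.m 0) = 1)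
    (h1 : O.valuation (S.ev (d.D 1) / F.e ^ F.m 1) = 1)
    (hw : O.valuation (S.ev d.Tw / F.e ^ F.nw) = 1) : O.valuation S.G = 1 := by
  rw [F.G_val, h0, h1, hw, one_mul, one_mul]

end Frame

end Vale.Agent.P266
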