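import Vale.Agent.P266.Poly

/-! P266, task Horace: Hermite interpolation line by line.

Abstract step (`horace`): `M` a `PP`-module, `C i` submodules, `S` the allowed corrections.
By induction on `n ≥ 1` find `x` with `x0 - x ∈ S` and `x ∈ C i + ln (q i) ^ n • M` for all `i`.

Scalar case (`exists_D`): `C i = ⨅ j, mx (q i) (g i j) ^ m i j`, `S = Low 98`, `N = 18`, `x0` from
`Glue.exists`, in `C i + ln • M` by `ln_pow_mul_mem` with `n = 0`. Step `n`: given `w i`, take
`f i` with `ln ∣ w i - pu (f i)` (`exists_line`), `a i = rootP (g i) (fun j => m i j - n)` (monic),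
`r i = (C (kap q i ^ n)⁻¹ * f i) %ₘ a i`, `y` from `interp` with `e = 95 - 4 * n`;
`natDegree (r i) ≤ (∑ j, (m i j - n)) - 1 ≤ 95 - 4 * n` for `1 ≤ n ≤ 17` (check by `decide`),
`Pi4 ^ n * y ∈ Low 98`. Modulo `ln ^ (n+1)`, `ln ^ n * w i - Pi4 ^ n * y` is
`ln ^ n * pu (f i - C (kap ^ n) * r i)`, a multiple of `ln ^ n * pu (a i)`.

Rank two case (`exists_xi`): `M = PP × PP` (pairs `(Ph, Ps)`), `S = Low 40 × Low 37`, `N = 8`,
`C i = {(Ph, Ps) | ∀ j, Ps ∈ mx ^ al ∧ Ph + Ps * Th q i (g i j) ∈ mx ^ be}`.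
Let `gg = rootP (g i) 1` (separable as `g i` is injective), `k1` with `gg ∣ k1 * gg' - 1`,
`Up = gg * k1`, so `(X - g j) ^ 2 ∣ Up - (X - g j)`. Put `th = C kap * (C (1/4) * X - Up)` and
`TH = C (1/4) * uu * dPi q - pu Up * cof q i`; then `ln ∣ TH - pu th`, `TH - Th q i (g j) ∈ mx ^ 2`, and
`be ≤ al + 2`. Line lemma: if `(X - g j) ^ (al - n) ∣ ps` and `(X - g j) ^ (be - n) ∣ ph + ps * th`
for all `j` then `ln ^ n • (pu ph, pu ps) ∈ C i + ln ^ (n+1) • M` (use
`(ln ^ n * (pu ph + pu ps * (pu th - TH)), ln ^ n * pu ps) ∈ C i`).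
Reduction lemma (`reduce2`): for any `ph ps` and monic `a` there are `ph' ps'` with
`natDegree ph' ≤ natDegree a + 7`, `natDegree ps' ≤ natDegree a + 5`, `a ∣ ps - ps'`,
`a * gg ^ 2 ∣ (ph - ph') + (ps - ps') * th`. Proof: `psr = ps %ₘ a`, `c' = ph + (ps - psr) * th`,
`phr = c' %ₘ a`, `c = c' /ₘ a`, `c0 = c %ₘ gg`, `c1 = c /ₘ gg`; for a constant `k` let
`b = C kap⁻¹ * ((gg' * (C k - c1)) %ₘ gg)`; the coefficient of `X ^ 6` of `b` is affine in `k` with
slope `7 / kap`, choose `k` so that it vanishes: `natDegree b ≤ 5`. Put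
`p = c0 + gg * C k - C kap * C (1/4) * b * X`, `ps' = psr + a * b`, `ph' = phr + a * p`.
Then `c - p - b * th = gg * (c1 - C k + C kap * b * k1)` and the bracket is divisible by `gg`.
With `a = rootP (g i) (fun j => al (t i) j - n)`, `natDegree a + 5 ≤ 34 - 4 * n` for `1 ≤ n ≤ 7`;
interpolate `ph'` with `e = 37 - 4 * n` and `ps'` with `e = 34 - 4 * n`. -/

namespace Vale.Agent.P266

open MvPolynomial

theorem horace {M : Type} [AddCommGroup M] [Module PP M] (l : Fin 4 → PP)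
    (C : Fin 4 → Submodule PP M) (S : AddSubgroup M) (N : ℕ) (hN : 1 ≤ N) (x0 : M)
    (h0 : ∀ i, ∃ w : M, x0 - l i • w ∈ C i)
    (hstep : ∀ n, 1 ≤ n → n < N → ∀ w : Fin 4 → M, ∃ y ∈ S, ∀ i, ∃ w' : M,
      l i ^ n • w i - y - l i ^ (n + 1) • w' ∈ C i)
    (hend : ∀ i (w : M), l i ^ N • w ∈ C i) :
    ∃ x : M, x0 - x ∈ S ∧ ∀ i, x ∈ C i := by
  have key : ∀ n, 1 ≤ n → n ≤ N → ∃ x : M, x0 - x ∈ S ∧ ∀ i, ∃ w : M, x - l i ^ n • w ∈ C i := by
    intro n hn
    induction n, hn using Nat.le_induction with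
    | base => exact fun _ => ⟨x0, by simpa using S.zero_mem, by simpa using h0⟩
    | succ n hn ih =>
      intro hle
      obtain ⟨x, hx, hw⟩ := ih (by omega)
      choose w hw using hw
      obtain ⟨y, hy, hy'⟩ := hstep n hn (by omega) w
      refine ⟨x - y, ?_, fun i => ?_⟩
      · have := S.add_mem hx hy
        convert this using 1
        abel
      · obtain ⟨w', hw'⟩ := hy' i
        refine ⟨w', ?_⟩
        have := (C i).add_mem (hw i) hw'
        convert this using 1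
        abel
  obtain ⟨x, hx, hw⟩ := key N hN le_rfl
  refine ⟨x, hx, fun i => ?_⟩
  obtain ⟨w, hw⟩ := hw i
  simpa using (C i).add_mem hw (hend i w)

theorem hor_pu_add (f g : Polynomial ℂ) : pu (f + g) = pu f + pu g := map_add (Polynomial.aeval uu) f g
theorem hor_pu_sub (f g : Polynomial ℂ) : pu (f - g) = pu f - pu g := map_sub (Polynomial.aeval uu) f g
theorem hor_pu_mul (f g : Polynomial ℂ) : pu (f * g) = pu f * pu g := map_mul (Polynomial.aeval uu) f g
theorem hor_pu_C (c : ℂ) : pu (Polynomial.C c) = C c := by simp [pu]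
theorem hor_pu_X : pu Polynomial.X = uu := by simp [pu]

theorem hor_monic_rootP (g : Fin 7 → ℂ) (m : Fin 7 → ℕ) : (rootP g m).Monic :=
  Polynomial.monic_prod_of_monic _ _ fun _ _ => (Polynomial.monic_X_sub_C _).pow _

theorem hor_natDegree_rootP (g : Fin 7 → ℂ) (m : Fin 7 → ℕ) :
    (rootP g m).natDegree = ∑ j, m j := by
  rw [rootP, Polynomial.natDegree_prod_of_monic _ _ fun _ _ => (Polynomial.monic_X_sub_C _).pow _]
  simp [Polynomial.natDegree_pow]

theorem hor_dvd_rootP (g : Fin 7 → ℂ) (m : Fin 7 → ℕ) (j : Fin 7) :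
    (Polynomial.X - Polynomial.C (g j)) ^ m j ∣ rootP g m :=
  Finset.dvd_prod_of_mem (fun j => (Polynomial.X - Polynomial.C (g j)) ^ m j) (Finset.mem_univ j)

theorem hor_natDegree_mod (f : Polynomial ℂ) {a : Polynomial ℂ} (ha : a.Monic) :
    (f %ₘ a).natDegree ≤ a.natDegree - 1 := by
  by_cases h : a = 1
  · simp [h]
  · have := Polynomial.natDegree_modByMonic_lt f ha h
    omega

theorem hor_dvd_sub_mod (f a : Polynomial ℂ) : a ∣ f - f %ₘ a :=
  ⟨f /ₘ a, by linear_combination -Polynomial.modByMonic_add_div f a⟩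

theorem hor_unscale {k : ℂ} (hk : k ≠ 0) (f r : Polynomial ℂ) :
    f - Polynomial.C k * r = Polynomial.C k * (Polynomial.C k⁻¹ * f - r) := by
  have : Polynomial.C k * Polynomial.C k⁻¹ = 1 := by
    rw [← map_mul, mul_inv_cancel₀ hk, map_one]
  linear_combination (-f) * this

theorem hor_ln_pow_mem (q g : ℂ) {m n : ℕ} (h : m ≤ n) (w : PP) : ln q ^ n • w ∈ mx q g ^ m :=
  Ideal.mul_mem_right _ _ (Ideal.pow_le_pow_right h (Ideal.pow_mem_pow (ln_mem_mx q g) n))

theorem hor_Pi4_mul (q : Fin 4 → ℂ) {n e d : ℕ} {y : PP} (hy : y ∈ Low e) (he : 1 ≤ e)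
    (hd : e + 4 * n ≤ d) : Pi4 q ^ n * y ∈ Low d := by
  have h1 : Pi4 q ^ n ∈ L1 ^ (4 * n) := by
    rw [pow_mul]
    exact Submodule.pow_mem_pow _ (Low_le (by norm_num) (Pi4_mem_Low q)) n
  rw [mul_comm]
  exact Low_mono hd (mul_mem_Low he hy h1)

theorem hor_step (q : Fin 4 → ℂ) (i : Fin 4) (n : ℕ) {w y : PP} {f r : Polynomial ℂ}
    (hw : ln (q i) ∣ w - pu f) (hy : ln (q i) ∣ y - pu r) :
    ∃ w' : PP, ln (q i) ^ n * w - Pi4 q ^ n * y - ln (q i) ^ (n + 1) * w' =
      ln (q i) ^ n * pu (f - Polynomial.C (kap q i ^ n) * r) := by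
  obtain ⟨a, ha⟩ := hw
  obtain ⟨b, hb⟩ := hy
  obtain ⟨c, hc⟩ := (ln_dvd_cof_sub q i).trans (sub_dvd_pow_sub_pow _ _ n)
  refine ⟨a - cof q i ^ n * b - c * pu r, ?_⟩
  rw [hor_pu_sub, hor_pu_mul, hor_pu_C, map_pow, ← ln_mul_cof q i, mul_pow, pow_succ]
  linear_combination ln (q i) ^ n * ha - ln (q i) ^ n * cof q i ^ n * hb -
    ln (q i) ^ n * pu r * hc

theorem hor_mD_sum : ∀ (t : Fin 2) (n : Fin 18), 1 ≤ n.val →
    (∑ j, (mD t j - n.val)) - 1 ≤ 95 - 4 * n.val := by decide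

theorem hor_mD_le : ∀ (t : Fin 2) (j : Fin 7), mD t j ≤ 18 := by decide

theorem exists_D {q : Fin 4 → ℂ} (hq : Function.Injective q) (g : Fin 4 → Fin 7 → ℂ)
    (t : Fin 4 → Fin 2) (hG : Glue q 98 1 (fun i => rootP (g i) (mD (t i)))) :
    ∃ D : PP, Top 98 1 D ∧ ∀ i j, D ∈ mx (q i) (g i j) ^ mD (t i) j := by
  obtain ⟨F, hF, hl⟩ := hG.exists hq (by norm_num)
  obtain ⟨x, hx, hC⟩ := horace (M := PP) (fun i => ln (q i))
    (fun i => ⨅ j, mx (q i) (g i j) ^ mD (t i) j) (Low 98).toAddSubgroup 18 (by norm_num) F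
    (fun i => by
      obtain ⟨w, hw⟩ := hl i
      refine ⟨w, (Submodule.mem_iInf _).2 fun j => ?_⟩
      have h1 := ln_pow_mul_mem (q i) (g i j) (mD (t i) j) 0 (hor_dvd_rootP (g i) (mD (t i)) j)
      rw [pow_zero, one_mul] at h1
      convert h1 using 1
      rw [smul_eq_mul]
      linear_combination hw)
    (fun n h1 h2 w => by
      choose f hf using fun i => exists_line (q i) (w i)
      obtain ⟨y, hy, hy'⟩ := interp hq (fun i => (Polynomial.C (kap q i ^ n)⁻¹ * f i) %ₘ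
        rootP (g i) fun j => mD (t i) j - n) (95 - 4 * n) fun i => by
          refine (hor_natDegree_mod _ (hor_monic_rootP _ _)).trans ?_
          rw [hor_natDegree_rootP]
          exact hor_mD_sum (t i) ⟨n, h2⟩ h1
      refine ⟨Pi4 q ^ n * y, hor_Pi4_mul q hy (by omega) (by omega), fun i => ?_⟩
      obtain ⟨w', hw'⟩ := hor_step q i n (hf i) (hy' i)
      refine ⟨w', (Submodule.mem_iInf _).2 fun j => ?_⟩
      simp only [smul_eq_mul]
      rw [hw']
      refine ln_pow_mul_mem _ _ _ _ ((hor_dvd_rootP (g i) (fun j => mD (t i) j - n) j).trans ?_)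
      rw [hor_unscale (pow_ne_zero n (kap_ne_zero hq i))]
      exact Dvd.dvd.mul_left (hor_dvd_sub_mod _ _) _)
    (fun i w => (Submodule.mem_iInf _).2 fun j => hor_ln_pow_mem _ _ (hor_mD_le _ _) w)
  refine ⟨x, ?_, fun i j => (Submodule.mem_iInf _).1 (hC i) j⟩
  simpa using hF.sub_low hx

/-- The value of `Th q i g` on the `i`-th line. -/
noncomputable def thl (k g : ℂ) : Polynomial ℂ :=
  Polynomial.C k * (Polynomial.C (1 / 4) * Polynomial.X - (Polynomial.X - Polynomial.C g))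

theorem hor_al_sum : ∀ (t : Fin 2) (n : Fin 8), 1 ≤ n.val →
    (∑ j, (al t j - n.val)) + 5 ≤ 34 - 4 * n.val := by decide

theorem hor_al_le : ∀ (t : Fin 2) (j : Fin 7), al t j ≤ 8 := by decide
theorem hor_be_le' : ∀ (t : Fin 2) (j : Fin 7), be t j ≤ 8 := by decide
theorem hor_be_le : ∀ (t : Fin 2) (j : Fin 7), be t j ≤ al t j + 2 := by decide

theorem hor_exists_k1 {g : Fin 7 → ℂ} (hg : Function.Injective g) :
    ∃ k1 : Polynomial ℂ, rootP g 1 ∣ k1 * Polynomial.derivative (rootP g 1) - 1 := by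
  have h : (rootP g 1).Separable := by
    have := Polynomial.separable_prod_X_sub_C_iff.2 hg
    simpa [rootP] using this
  obtain ⟨a, b, hab⟩ := h
  exact ⟨b, -a, by linear_combination hab⟩

theorem hor_Up {g : Fin 7 → ℂ} {k1 : Polynomial ℂ}
    (h : rootP g 1 ∣ k1 * Polynomial.derivative (rootP g 1) - 1) (j : Fin 7) :
    (Polynomial.X - Polynomial.C (g j)) ^ 2 ∣
      rootP g 1 * k1 - (Polynomial.X - Polynomial.C (g j)) := by
  obtain ⟨e, he⟩ := hor_dvd_rootP g 1 j
  rw [Pi.one_apply, pow_one] at he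
  obtain ⟨s, hs⟩ := h
  rw [he] at hs ⊢
  simp only [Polynomial.derivative_mul, Polynomial.derivative_X_sub_C, one_mul] at hs
  exact ⟨e * s - k1 * Polynomial.derivative e,
    by linear_combination (Polynomial.X - Polynomial.C (g j)) * hs⟩

theorem reduce2 {gg k1 : Polynomial ℂ} {κ : ℂ} (hm : gg.Monic) (hd : gg.natDegree = 7) (hκ : κ ≠ 0)
    (hk : gg ∣ k1 * Polynomial.derivative gg - 1) (ph ps : Polynomial ℂ) {a : Polynomial ℂ}
    (ha : a.Monic) :
    ∃ ph' ps' : Polynomial ℂ, ph'.natDegree ≤ a.natDegree + 7 ∧ ps'.natDegree ≤ a.natDegree + 5 ∧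
      a ∣ ps - ps' ∧ a * gg ^ 2 ∣ (ph - ph') + (ps - ps') *
        (Polynomial.C κ * (Polynomial.C (1 / 4) * Polynomial.X - gg * k1)) := by
  obtain ⟨s, hs⟩ := hk
  generalize hth : Polynomial.C κ * (Polynomial.C (1 / 4) * Polynomial.X - gg * k1) = th
  have dpsr := hor_natDegree_mod ps ha
  have epsr := hor_dvd_sub_mod ps a
  generalize ps %ₘ a = psr at dpsr epsr
  have dphr := hor_natDegree_mod (ph + (ps - psr) * th) ha
  obtain ⟨c, hc⟩ := hor_dvd_sub_mod (ph + (ps - psr) * th) a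
  generalize (ph + (ps - psr) * th) %ₘ a = phr at dphr hc
  have dc0 := hor_natDegree_mod c hm
  obtain ⟨c1, hc1⟩ := hor_dvd_sub_mod c gg
  generalize c %ₘ gg = c0 at dc0 hc1
  have de := hor_natDegree_mod (Polynomial.derivative gg * c1) hm
  obtain ⟨d, hd'⟩ := hor_dvd_sub_mod (Polynomial.derivative gg * c1) gg
  generalize (Polynomial.derivative gg * c1) %ₘ gg = e at de hd'
  rw [hd] at dc0 de
  obtain ⟨k, hk⟩ : ∃ k : ℂ, k * 7 = e.coeff 6 := ⟨e.coeff 6 / 7, by ring⟩
  obtain ⟨b, hb⟩ : ∃ b, b = Polynomial.C k * Polynomial.derivative gg - e := ⟨_, rfl⟩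
  have db : b.natDegree ≤ 5 := by
    rw [Polynomial.natDegree_le_iff_coeff_eq_zero]
    intro N hN
    rw [hb, Polynomial.coeff_sub, Polynomial.coeff_C_mul, Polynomial.coeff_derivative]
    rcases Nat.lt_or_ge 6 N with h | h
    · rw [Polynomial.coeff_eq_zero_of_natDegree_lt (by omega : gg.natDegree < N + 1),
        Polynomial.coeff_eq_zero_of_natDegree_lt (by omega : e.natDegree < N)]
      simp
    · obtain rfl : N = 6 := by omega
      have h7 : gg.coeff (6 + 1) = 1 := by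
        have := hm.coeff_natDegree
        rwa [hd] at this
      rw [h7, ← hk]
      push_cast
      ring
  have hκ' : Polynomial.C κ⁻¹ * Polynomial.C κ = 1 := by
    rw [← map_mul, inv_mul_cancel₀ hκ, map_one]
  have dp : (c0 + Polynomial.C k * gg - Polynomial.C (1 / 4) * (b * Polynomial.X)).natDegree ≤ 7 := by
    refine (Polynomial.natDegree_sub_le _ _).trans (max_le
      ((Polynomial.natDegree_add_le _ _).trans (max_le (by omega) ?_)) ?_)
    · exact (Polynomial.natDegree_C_mul_le _ _).trans hd.le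
    · refine (Polynomial.natDegree_C_mul_le _ _).trans (Polynomial.natDegree_mul_le.trans ?_)
      have := Polynomial.natDegree_X_le (R := ℂ)
      omega
  refine ⟨phr + a * (c0 + Polynomial.C k * gg - Polynomial.C (1 / 4) * (b * Polynomial.X)),
    psr + a * (Polynomial.C κ⁻¹ * b), ?_, ?_, ?_, ?_⟩
  · exact (Polynomial.natDegree_add_le _ _).trans (max_le (by omega)
      (Polynomial.natDegree_mul_le.trans (by omega)))
  · have := Polynomial.natDegree_C_mul_le κ⁻¹ b
    exact (Polynomial.natDegree_add_le _ _).trans (max_le (by omega)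
      (Polynomial.natDegree_mul_le.trans (by omega)))
  · rw [← sub_sub]
    exact dvd_sub epsr (dvd_mul_right _ _)
  · refine ⟨(Polynomial.C k - c1) * s + d * k1, ?_⟩
    have h1 : Polynomial.C κ⁻¹ * b * th = b * (Polynomial.C (1 / 4) * Polynomial.X - gg * k1) := by
      rw [← hth]
      linear_combination b * (Polynomial.C (1 / 4) * Polynomial.X - gg * k1) * hκ'
    linear_combination hc - a * h1 + a * hc1 + a * gg * k1 * hb + a * gg * k1 * hd' +
      a * gg * (Polynomial.C k - c1) * hs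

/-- The conditions along the `i`-th line in the rank two case. -/
def horC (q : Fin 4 → ℂ) (i : Fin 4) (g : Fin 7 → ℂ) (t : Fin 2) : Submodule PP (PP × PP) where
  carrier := {x | ∀ j, x.2 ∈ mx (q i) (g j) ^ al t j ∧
    x.1 + x.2 * Th q i (g j) ∈ mx (q i) (g j) ^ be t j}
  zero_mem' := fun j => ⟨Ideal.zero_mem _, by simp⟩
  add_mem' := fun {x y} hx hy j => ⟨Ideal.add_mem _ (hx j).1 (hy j).1, by
    have := Ideal.add_mem _ (hx j).2 (hy j).2
    convert this using 1
    simp only [Prod.fst_add, Prod.snd_add]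
    ring⟩
  smul_mem' := fun c x hx j => ⟨Ideal.mul_mem_left _ c (hx j).1, by
    have := Ideal.mul_mem_left _ c (hx j).2
    convert this using 1
    simp only [Prod.smul_fst, Prod.smul_snd, smul_eq_mul]
    ring⟩

theorem hor_line (q : Fin 4 → ℂ) (i : Fin 4) {g : Fin 7 → ℂ} (t : Fin 2) {Up th : Polynomial ℂ}
    (hUp : ∀ j, (Polynomial.X - Polynomial.C (g j)) ^ 2 ∣ Up - (Polynomial.X - Polynomial.C (g j)))
    (hth : th = Polynomial.C (kap q i) * (Polynomial.C (1 / 4) * Polynomial.X - Up)) (n : ℕ)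
    {ph ps : Polynomial ℂ}
    (h1 : ∀ j, (Polynomial.X - Polynomial.C (g j)) ^ (al t j - n) ∣ ps)
    (h2 : ∀ j, (Polynomial.X - Polynomial.C (g j)) ^ (be t j - n) ∣ ph + ps * th) :
    ∃ w : PP, (ln (q i) ^ n * pu ph - ln (q i) ^ (n + 1) * w, ln (q i) ^ n * pu ps) ∈
      horC q i g t := by
  obtain ⟨a, ha⟩ := ln_dvd_dPi_sub q i
  obtain ⟨b, hb⟩ := ln_dvd_cof_sub q i
  refine ⟨pu ps * (C (1 / 4) * uu * a - pu Up * b), fun j => ?_⟩
  have m1 := ln_pow_mul_mem (q i) (g j) _ n (h1 j)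
  have m2 := ln_pow_mul_mem (q i) (g j) _ n (h2 j)
  have m3 := ln_pow_mul_mem (q i) (g j) 2 0 (hUp j)
  refine ⟨m1, ?_⟩
  have m4 := Ideal.mul_mem_mul m1 m3
  rw [← pow_add] at m4
  have m5 := Ideal.add_mem _ m2
    (Ideal.mul_mem_right (cof q i) _ (Ideal.pow_le_pow_right (hor_be_le t j) m4))
  convert m5 using 1
  rw [hth, Th]
  simp only [hor_pu_add, hor_pu_sub, hor_pu_mul, hor_pu_C, hor_pu_X]
  linear_combination ln (q i) ^ n * pu ps * C (1 / 4) * uu * ha -
    ln (q i) ^ n * pu ps * pu Up * hb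

theorem exists_xi {q : Fin 4 → ℂ} (hq : Function.Injective q) {g : Fin 4 → Fin 7 → ℂ}
    (hg : ∀ i, Function.Injective (g i)) (t : Fin 4 → Fin 2) (c : ℂ) (P0 S0 : PP)
    (hP : Top 40 1 P0) (hS : Top 37 c S0) (ph ps : Fin 4 → Polynomial ℂ)
    (hlP : ∀ i, ln (q i) ∣ P0 - pu (ph i)) (hlS : ∀ i, ln (q i) ∣ S0 - pu (ps i))
    (hps : ∀ i j, (Polynomial.X - Polynomial.C (g i j)) ^ al (t i) j ∣ ps i)
    (hph : ∀ i j, (Polynomial.X - Polynomial.C (g i j)) ^ be (t i) j ∣
      ph i + ps i * thl (kap q i) (g i j)) :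
    ∃ Ph Ps : PP, Top 40 1 Ph ∧ Top 37 c Ps ∧ (∀ i j, Ps ∈ mx (q i) (g i j) ^ al (t i) j) ∧
      ∀ i j, Ph + Ps * Th q i (g i j) ∈ mx (q i) (g i j) ^ be (t i) j := by
  choose k1 hk1 using fun i => hor_exists_k1 (hg i)
  obtain ⟨th, hth⟩ : ∃ th : Fin 4 → Polynomial ℂ, ∀ i, th i = Polynomial.C (kap q i) *
    (Polynomial.C (1 / 4) * Polynomial.X - rootP (g i) 1 * k1 i) := ⟨_, fun _ => rfl⟩
  have line : ∀ i n (ph ps : Polynomial ℂ),
      (∀ j, (Polynomial.X - Polynomial.C (g i j)) ^ (al (t i) j - n) ∣ ps) →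
      (∀ j, (Polynomial.X - Polynomial.C (g i j)) ^ (be (t i) j - n) ∣ ph + ps * th i) →
      ∃ w : PP, (ln (q i) ^ n * pu ph - ln (q i) ^ (n + 1) * w, ln (q i) ^ n * pu ps) ∈
        horC q i (g i) (t i) := fun i n ph ps h1 h2 =>
    hor_line q i (t i) (hor_Up (hk1 i)) (hth i) n h1 h2
  obtain ⟨x, hx, hC⟩ := horace (M := PP × PP) (fun i => ln (q i))
    (fun i => horC q i (g i) (t i)) ((Low 40).toAddSubgroup.prod (Low 37).toAddSubgroup) 8
    (by norm_num) (P0, S0)
    (fun i => by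
      obtain ⟨w1, hw1⟩ := hlP i
      obtain ⟨w2, hw2⟩ := hlS i
      obtain ⟨w, hw⟩ := line i 0 (ph i) (ps i) (hps i) fun j => by
        have e : ph i + ps i * th i = (ph i + ps i * thl (kap q i) (g i j)) -
            ps i * (rootP (g i) 1 * k1 i - (Polynomial.X - Polynomial.C (g i j))) *
              Polynomial.C (kap q i) := by
          rw [hth, thl]
          ring
        rw [e]
        refine dvd_sub (hph i j) (Dvd.dvd.mul_right ?_ _)
        refine (pow_dvd_pow _ (hor_be_le (t i) j)).trans ?_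
        rw [pow_add]
        exact mul_dvd_mul (hps i j) (hor_Up (hk1 i) j)
      refine ⟨(w1 + w, w2), ?_⟩
      convert hw using 1
      refine Prod.ext ?_ ?_
      · show P0 - ln (q i) * (w1 + w) = _
        linear_combination hw1
      · show S0 - ln (q i) * w2 = _
        linear_combination hw2)
    (fun n h1 h2 w => by
      choose f1 hf1 using fun i => exists_line (q i) (w i).1
      choose f2 hf2 using fun i => exists_line (q i) (w i).2
      choose r1 r2 d1 d2 e2 e1 using fun i => reduce2 (hor_monic_rootP (g i) 1)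
        (by rw [hor_natDegree_rootP]; simp) (kap_ne_zero hq i) (hk1 i)
        (Polynomial.C (kap q i ^ n)⁻¹ * f1 i) (Polynomial.C (kap q i ^ n)⁻¹ * f2 i)
        (hor_monic_rootP (g i) fun j => al (t i) j - n)
      have hs : ∀ i, (rootP (g i) fun j => al (t i) j - n).natDegree + 5 ≤ 34 - 4 * n := fun i => by
        rw [hor_natDegree_rootP]
        exact hor_al_sum (t i) ⟨n, h2⟩ h1
      obtain ⟨y1, hy1, hy1'⟩ := interp hq r1 (37 - 4 * n) fun i => by
        have := hs i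
        have := d1 i
        omega
      obtain ⟨y2, hy2, hy2'⟩ := interp hq r2 (34 - 4 * n) fun i => (d2 i).trans (hs i)
      refine ⟨(Pi4 q ^ n * y1, Pi4 q ^ n * y2), ⟨hor_Pi4_mul q hy1 (by omega) (by omega),
        hor_Pi4_mul q hy2 (by omega) (by omega)⟩, fun i => ?_⟩
      obtain ⟨w1, hw1⟩ := hor_step q i n (hf1 i) (hy1' i)
      obtain ⟨w2, hw2⟩ := hor_step q i n (hf2 i) (hy2' i)
      have hk := pow_ne_zero n (kap_ne_zero hq i)
      obtain ⟨w0, hw⟩ := line i n (f1 i - Polynomial.C (kap q i ^ n) * r1 i)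
        (f2 i - Polynomial.C (kap q i ^ n) * r2 i)
        (fun j => by
          rw [hor_unscale hk]
          exact Dvd.dvd.mul_left
            ((hor_dvd_rootP (g i) (fun j => al (t i) j - n) j).trans (e2 i)) _)
        (fun j => by
          rw [hor_unscale hk, hor_unscale hk (f2 i), mul_assoc, ← mul_add, hth]
          refine Dvd.dvd.mul_left (Dvd.dvd.trans ?_ (e1 i)) _
          have h3 : be (t i) j - n ≤ al (t i) j - n + 1 * 2 := by
            have := hor_be_le (t i) j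
            omega
          refine (pow_dvd_pow _ h3).trans ?_
          rw [pow_add, pow_mul]
          exact mul_dvd_mul (hor_dvd_rootP (g i) (fun j => al (t i) j - n) j)
            (pow_dvd_pow_of_dvd (hor_dvd_rootP (g i) 1 j) 2))
      refine ⟨(w1 + w0, w2), ?_⟩
      convert hw using 1
      refine Prod.ext ?_ ?_
      · show ln (q i) ^ n * (w i).1 - Pi4 q ^ n * y1 - ln (q i) ^ (n + 1) * (w1 + w0) = _
        linear_combination hw1
      · exact hw2)
    (fun i w j => ⟨hor_ln_pow_mem _ _ (hor_al_le _ _) w.2, by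
      have := hor_ln_pow_mem (q i) (g i j) (hor_be_le' (t i) j) (w.1 + w.2 * Th q i (g i j))
      convert this using 1
      simp only [Prod.smul_fst, Prod.smul_snd, smul_eq_mul]
      ring⟩)
  refine ⟨x.1, x.2, ?_, ?_, fun i j => (hC i j).1, fun i j => (hC i j).2⟩
  · simpa using hP.sub_low hx.1
  · simpa using hS.sub_low hx.2

end Vale.Agent.P266
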