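import Vale.Agent.P266.Top3

/-! P266: the explicit numbers. -/

namespace Vale.Agent.P266

open Polynomial

namespace LP
variable (P : LP) (l : ℂ)

def x1 : Fin 2 → ℂ := ![P.s, P.t]
def x2 : Fin 2 → ℂ := ![P.f - P.t * (P.s + P.t), P.f - P.s * (P.s + P.t)]
def D1 (a b c m : ℂ) : ℂ := -a * P.B - b * P.s - c * P.t + m * (P.s + P.t)
noncomputable def D2 (a b c m : ℂ) : ℂ := (P.D1 a b c m ^ 2 -
  (a * P.B ^ 2 + b * P.s ^ 2 + c * P.t ^ 2 + m * ((P.s + P.t) ^ 2 - 2 * P.f))) / 2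
noncomputable def F1 (t : Fin 2) : ℂ := P.x1 t + (P.c0 l - P.B)
noncomputable def F2 (t : Fin 2) : ℂ :=
  P.x2 t + P.x1 t * (P.c0 l - P.B) + (P.t2 - P.c0 l * P.B - P.b5 l / 4)
noncomputable def B1 (t : Fin 2) : ℂ := P.b4 l + P.x1 t * P.b5 l
noncomputable def B2 (t : Fin 2) : ℂ := P.b3 l + P.x1 t * P.b4 l + P.x2 t * P.b5 l

/-- The seven points on the line are distinct. -/
def Sep : Prop := ∃ a b c d : ℂ, P.gO = (X - C a) * (X - C b) * (X - C c) * (X - C d) ∧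
  Function.Injective ![P.B, P.s, P.t, a, b, c, d]

theorem sep_of (h1 : P.B ≠ P.s) (h2 : P.B ≠ P.t) (h3 : P.s ≠ P.t)
    (h4 : ∀ x, (derivative P.gO).eval x = 0 → P.gO.eval x ≠ 0) (h5 : P.gO.eval P.B ≠ 0)
    (h6 : P.gO.eval P.s ≠ 0) (h7 : P.gO.eval P.t ≠ 0) : P.Sep := by
  have hd : P.gO.natDegree = 4 := by unfold gO; compute_degree!
  have hm : P.gO.Monic := by unfold gO; monicity!
  have hs := IsAlgClosed.splits P.gO
  have hc : P.gO.roots.card = 4 := by rw [← hd]; exact (hs.natDegree_eq_card_roots).symm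
  obtain ⟨a, b, c, d, hr⟩ := Multiset.card_eq_four.1 hc
  have he : P.gO = (X - C a) * (X - C b) * (X - C c) * (X - C d) := by
    rw [hs.eq_prod_roots_of_monic hm, hr]; simp [mul_assoc]
  refine ⟨a, b, c, d, he, ?_⟩
  rw [he] at h4 h5 h6 h7
  simp only [derivative_mul, derivative_sub, derivative_X, derivative_C, eval_mul, eval_add,
    eval_sub, eval_X, eval_C, eval_one, eval_zero, ne_eq, mul_eq_zero, not_or, sub_eq_zero]
    at h4 h5 h6 h7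
  have hab : a ≠ b := fun h => (h4 a (by rw [h]; ring)).1.1.1 rfl
  have hac : a ≠ c := fun h => (h4 a (by rw [h]; ring)).1.1.1 rfl
  have had : a ≠ d := fun h => (h4 a (by rw [h]; ring)).1.1.1 rfl
  have hbc : b ≠ c := fun h => (h4 b (by rw [h]; ring)).1.1.2 rfl
  have hbd : b ≠ d := fun h => (h4 b (by rw [h]; ring)).1.1.2 rfl
  have hcd : c ≠ d := fun h => (h4 c (by rw [h]; ring)).1.2 rfl
  apply List.nodup_ofFn.1
  simp [*]

theorem exists_bad (B s t f e3 : ℂ) (h1 : B ≠ s) (h2 : B ≠ t) (h3 : s ≠ t) :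
    ∃ Z : Finset ℂ, ∀ w ∉ Z, LP.Sep ⟨B, s, t, f, e3, w⟩ := by
  classical
  let h : ℂ[X] := LP.gO ⟨B, s, t, f, e3, 0⟩
  have hh : ∀ w, LP.gO ⟨B, s, t, f, e3, w⟩ = h + C w := fun w => by simp [h, gO]
  have hd : h.natDegree = 4 := by unfold h gO; compute_degree!
  have hne : derivative h ≠ 0 := fun h0 => by
    have := natDegree_eq_zero_of_derivative_eq_zero h0
    omega
  refine ⟨(insert B (insert s (insert t (derivative h).roots.toFinset))).image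
    (fun x => - h.eval x), fun w hw => ?_⟩
  have key : ∀ x, x ∈ insert B (insert s (insert t (derivative h).roots.toFinset)) →
      (LP.gO ⟨B, s, t, f, e3, w⟩).eval x ≠ 0 := fun x hx h0 => by
    apply hw
    refine Finset.mem_image.2 ⟨x, hx, ?_⟩
    rw [hh, eval_add, eval_C] at h0
    linear_combination -h0
  refine sep_of _ h1 h2 h3 (fun x hx => key x ?_) (key _ (by simp)) (key _ (by simp))
    (key _ (by simp))
  rw [hh, derivative_add, derivative_C, add_zero] at hx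
  simp [hne, hx]

end LP

/-- The compatibility equations. -/
structure Eqs (th c l0 l1 : ℂ) (P Q : LP) : Prop where
  eT : P.s + P.t - P.B = Q.s + Q.t - Q.B
  d1a : P.D1 10 3 17 17 + P.D1 4 18 4 18 = Q.D1 10 3 17 17 + Q.D1 4 18 4 18
  d1b : P.D1 10 3 17 17 - P.D1 4 18 4 18 = th * (Q.D1 10 3 17 17 - Q.D1 4 18 4 18)
  d2 : P.D2 10 3 17 17 - P.D2 4 18 4 18 = th * (Q.D2 10 3 17 17 - Q.D2 4 18 4 18)
  f1a : P.F1 0 0 + P.F1 l0 1 = Q.F1 0 0 + Q.F1 l1 1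
  f1b : P.F1 0 0 - P.F1 l0 1 = th * (Q.F1 0 0 - Q.F1 l1 1)
  f2 : P.F2 0 0 - P.F2 l0 1 = th * (Q.F2 0 0 - Q.F2 l1 1)
  a00 : P.b5 0 = c * (2 * th * (th ^ 2 - 1))
  a10 : Q.b5 0 = c * (2 * (1 - th ^ 2))
  a01 : P.b5 l0 = -c * (2 * th * (th ^ 2 - 1))
  a11 : Q.b5 l1 = -c * (2 * (1 - th ^ 2))
  bd : P.B1 0 0 - P.B1 l0 1 = -th * (Q.B1 0 0 - Q.B1 l1 1)
  bs : P.B1 0 0 + P.B1 l0 1 = -th ^ 2 * (Q.B1 0 0 + Q.B1 l1 1)
  cs : P.B2 0 0 + P.B2 l0 1 = -th ^ 2 * (Q.B2 0 0 + Q.B2 l1 1)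

theorem ne_of_norm {r a b : ℂ} (hr : r ^ 2 = 19173) (h : a ^ 2 - 19173 * b ^ 2 ≠ 0) :
    a + b * r ≠ 0 := fun h0 => h (by linear_combination (a - b * r) * h0 + b ^ 2 * hr)

theorem exists_LP : ∃ (th c l0 l1 : ℂ) (P Q : LP), Eqs th c l0 l1 P Q ∧ th ≠ 0 ∧
    th ^ 2 - 1 ≠ 0 ∧ c ≠ 0 ∧ P.Sep ∧ Q.Sep := by
  classical
  obtain ⟨r, hr⟩ := IsAlgClosed.exists_pow_nat_eq (19173 : ℂ) (n := 2) (by norm_num)
  obtain ⟨th, hth⟩ : ∃ x : ℂ, x = 10391 / 6241 + 60 / 6241 * r := ⟨_, rfl⟩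
  obtain ⟨c, hc⟩ : ∃ x : ℂ, x = 5792247 / 4992800 + 4172569 / 538223840 * r := ⟨_, rfl⟩
  obtain ⟨l0, hl0⟩ : ∃ x : ℂ, x = -249 / 2 - 9 / 10 * r := ⟨_, rfl⟩
  obtain ⟨l1, hl1⟩ : ∃ x : ℂ, x = 249 / 79 - 18 / 395 * r := ⟨_, rfl⟩
  obtain ⟨B1, hB1⟩ : ∃ x : ℂ, x = -2083 / 158 - 15 / 158 * r := ⟨_, rfl⟩
  obtain ⟨s0, hs0⟩ : ∃ x : ℂ, x = 11 / 316 - 793 / 11060 * r := ⟨_, rfl⟩
  obtain ⟨t0, ht0⟩ : ∃ x : ℂ, x = 15315 / 316 + 2057 / 11060 * r := ⟨_, rfl⟩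
  obtain ⟨s1, hs1⟩ : ∃ x : ℂ, x = -819 / 316 + 107 / 11060 * r := ⟨_, rfl⟩
  obtain ⟨t1, ht1⟩ : ∃ x : ℂ, x = 11663 / 316 + 107 / 11060 * r := ⟨_, rfl⟩
  obtain ⟨f0, hf0⟩ : ∃ x : ℂ, x = 1766459011 / 624100 + 1792581 / 124820 * r := ⟨_, rfl⟩
  obtain ⟨f1, hf1⟩ : ∃ x : ℂ, x = 1568448838 / 1092175 + 932019 / 436870 * r := ⟨_, rfl⟩
  have hne : ∀ x y a b : ℂ, x - y = a + b * r → a ^ 2 - 19173 * b ^ 2 ≠ 0 → x ≠ y :=
    fun x y a b h1 h2 h3 => ne_of_norm hr h2 (by rw [← h1, h3, sub_self])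
  have hth0 : th ≠ 0 := hne _ _ (10391 / 6241) (60 / 6241) (by rw [hth]; ring) (by norm_num)
  have hth1 : th ≠ 1 := hne _ _ (4150 / 6241) (60 / 6241) (by rw [hth]; ring) (by norm_num)
  have hth2 : th ≠ -1 := hne _ _ (16632 / 6241) (60 / 6241) (by rw [hth]; ring) (by norm_num)
  have hth3 : th ^ 2 - 1 ≠ 0 := fun h => by
    have : (th - 1) * (th + 1) = 0 := by linear_combination h
    rcases mul_eq_zero.1 this with h | h
    · exact hth1 (by linear_combination h)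
    · exact hth2 (by linear_combination h)
  have hc0 : c ≠ 0 :=
    hne _ _ (5792247 / 4992800) (4172569 / 538223840) (by rw [hc]; ring) (by norm_num)
  obtain ⟨e3, he3⟩ : ∃ e3 : ℂ, ∀ w w' : ℂ,
      LP.B1 ⟨1, s0, t0, f0, e3, w⟩ 0 0 + LP.B1 ⟨1, s0, t0, f0, e3, w⟩ l0 1 =
        -th ^ 2 * (LP.B1 ⟨B1, s1, t1, f1, 0, w'⟩ 0 0 + LP.B1 ⟨B1, s1, t1, f1, 0, w'⟩ l1 1) := by
    refine ⟨(-th ^ 2 * (LP.B1 ⟨B1, s1, t1, f1, 0, 0⟩ 0 0 + LP.B1 ⟨B1, s1, t1, f1, 0, 0⟩ l1 1) -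
      (LP.B1 ⟨1, s0, t0, f0, 0, 0⟩ 0 0 + LP.B1 ⟨1, s0, t0, f0, 0, 0⟩ l0 1)) / 6, fun w w' => ?_⟩
    simp only [LP.B1, LP.b4, LP.b5, LP.t2, LP.t3, LP.c0, LP.x1, Matrix.cons_val_zero,
      Matrix.cons_val_one]
    ring
  obtain ⟨k, hk⟩ : ∃ k : ℂ, ∀ w : ℂ,
      LP.B2 ⟨1, s0, t0, f0, e3, k - th ^ 2 * w⟩ 0 0 + LP.B2 ⟨1, s0, t0, f0, e3, k - th ^ 2 * w⟩ l0 1 =
        -th ^ 2 * (LP.B2 ⟨B1, s1, t1, f1, 0, w⟩ 0 0 + LP.B2 ⟨B1, s1, t1, f1, 0, w⟩ l1 1) := by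
    refine ⟨(th ^ 2 * (LP.B2 ⟨B1, s1, t1, f1, 0, 0⟩ 0 0 + LP.B2 ⟨B1, s1, t1, f1, 0, 0⟩ l1 1) +
      (LP.B2 ⟨1, s0, t0, f0, e3, 0⟩ 0 0 + LP.B2 ⟨1, s0, t0, f0, e3, 0⟩ l0 1)) / 8, fun w => ?_⟩
    simp only [LP.B2, LP.b3, LP.b4, LP.b5, LP.t2, LP.t3, LP.t4, LP.c0, LP.x1, LP.x2,
      Matrix.cons_val_zero, Matrix.cons_val_one]
    ring
  obtain ⟨Z0, hZ0⟩ := LP.exists_bad 1 s0 t0 f0 e3
    (hne _ _ (305 / 316) (793 / 11060) (by rw [hs0]; ring) (by norm_num))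
    (hne _ _ (-14999 / 316) (-2057 / 11060) (by rw [ht0]; ring) (by norm_num))
    (hne _ _ (-15304 / 316) (-2850 / 11060) (by rw [hs0, ht0]; ring) (by norm_num))
  obtain ⟨Z1, hZ1⟩ := LP.exists_bad B1 s1 t1 f1 0
    (hne _ _ (-3347 / 316) (-1157 / 11060) (by rw [hB1, hs1]; ring) (by norm_num))
    (hne _ _ (-15829 / 316) (-1157 / 11060) (by rw [hB1, ht1]; ring) (by norm_num))
    (hne _ _ (-12482 / 316) 0 (by rw [hs1, ht1]; ring) (by norm_num))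
  obtain ⟨w, hw⟩ := Infinite.exists_notMem_finset (Z1 ∪ Z0.image (fun x => (k - x) / th ^ 2))
  refine ⟨th, c, l0, l1, ⟨1, s0, t0, f0, e3, k - th ^ 2 * w⟩, ⟨B1, s1, t1, f1, 0, w⟩, ?_, hth0,
    hth3, hc0, hZ0 _ fun h => hw ?_, hZ1 _ fun h => hw (Finset.mem_union_left _ h)⟩
  · refine ⟨?_, ?_, ?_, ?_, ?_, ?_, ?_, ?_, ?_, ?_, ?_, ?_, he3 _ _, hk w⟩ <;>
      simp only [LP.D1, LP.D2, LP.F1, LP.F2, LP.B1, LP.b4, LP.b5, LP.t2, LP.t3, LP.c0, LP.x1,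
        LP.x2, Matrix.cons_val_zero, Matrix.cons_val_one] <;>
      subst hth hc hl0 hl1 hB1 hs0 ht0 hs1 ht1 hf0 hf1
    · ring
    · ring
    · linear_combination (-2700 / 493039) * hr
    · linear_combination (-6952806177 / 3817107938 - 157407741 / 38171079380 * r) * hr
    · ring
    · linear_combination (216 / 3451273) * hr
    · linear_combination (-48262455 / 15268431752 - 22572 / 9542769845 * r) * hr
    · linear_combination (8237208930458730807 / 163544329707927275800 -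
        7539108616485 / 817721648539636379 * r - 11265936300 / 817721648539636379 * r ^ 2) * hr
    · linear_combination (235785836133777 / 26204827705163800 +
        187765605 / 131024138525819 * r) * hr
    · linear_combination (9030686898667856607 / 163544329707927275800 +
        7539108616485 / 817721648539636379 * r + 11265936300 / 817721648539636379 * r ^ 2) * hr
    · linear_combination (295704923446377 / 26204827705163800 -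
        187765605 / 131024138525819 * r) * hr
    · linear_combination (-226351413213981 / 52771517242850 - 82829007117 / 3339969445750 * r -
        10027719 / 26385758621425 * r ^ 2) * hr
  · refine Finset.mem_union_right _ (Finset.mem_image.2 ⟨_, h, ?_⟩)
    field_simp
    ring

end Vale.Agent.P266
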