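import Vale.Agent.P266.Numbers

/-! P266, task Params (helper97): the explicit parameters. -/

namespace Vale.Agent.P266

open Polynomial

def al0 : Fin 2 → Fin 7 → ℕ := ![![0, 0, 1, 1, 1, 1, 1], ![0, 1, 0, 1, 1, 1, 1]]
def be0 : Fin 2 → Fin 7 → ℕ := ![![2, 2, 3, 3, 3, 3, 3], ![1, 3, 2, 3, 3, 3, 3]]

/-- What is used about one line. -/
structure LineFacts (P : LP) (g : Fin 7 → ℂ) : Prop where
  inj : Function.Injective g
  tR : T3 6 1 0 P.t2 (rootP g mR)
  tT : T3 5 1 (P.s + P.t - P.B) (P.f - P.B * (P.s + P.t)) (rootP g mT)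
  tD0 : T3 98 1 (P.D1 10 3 17 17) (P.D2 10 3 17 17) (rootP g (mD 0))
  tD1 : T3 98 1 (P.D1 4 18 4 18) (P.D2 4 18 4 18) (rootP g (mD 1))
  tF : ∀ l t, T3 13 1 (P.F1 l t) (P.F2 l t) (rootP g (al0 t) * P.phi l)
  tB : ∀ l t, T3 10 (P.b5 l) (P.B1 l t) (P.B2 l t) (rootP g (al0 t) * P.bet l)
  dv : ∀ l t j, (t = 0 → l = 0) → (X - C (g j)) ^ be0 t j ∣
    rootP g (al0 t) * (P.phi l + P.bet l * (C (1 / 4) * X - (X - C (g j))))

theorem dvd_rootP (g : Fin 7 → ℂ) (m : Fin 7 → ℕ) (j : Fin 7) :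
    (X - C (g j)) ^ m j ∣ rootP g m :=
  Finset.dvd_prod_of_mem (fun j => (X - C (g j)) ^ m j) (Finset.mem_univ j)

theorem LP.Sep.facts {P : LP} (h : P.Sep) : ∃ g, LineFacts P g := by
  obtain ⟨a, b, c, d, he, hi⟩ := h
  have hr : ∀ m0 m1 m2 m : ℕ, rootP ![P.B, P.s, P.t, a, b, c, d] ![m0, m1, m2, m, m, m, m] =
      (X - C P.B) ^ m0 * (X - C P.s) ^ m1 * (X - C P.t) ^ m2 * P.gO ^ m := by
    intro m0 m1 m2 m
    rw [he]
    simp only [rootP, Fin.prod_univ_succ, Fin.prod_univ_zero, Matrix.cons_val_zero,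
      Matrix.cons_val_succ, mul_pow]
    ring
  have ht : ∀ m0 m1 m2 m : ℕ, T3 (1 * m0 + 1 * m1 + 1 * m2 + 4 * m) 1 (P.D1 m0 m1 m2 m)
      (P.D2 m0 m1 m2 m) (rootP ![P.B, P.s, P.t, a, b, c, d] ![m0, m1, m2, m, m, m, m]) := by
    intro m0 m1 m2 m
    rw [hr]
    exact (((((T3_lin _).pow m0).mul ((T3_lin _).pow m1)).mul ((T3_lin _).pow m2)).mul
      (P.T3_gO.pow m)).congr (by ring) (by unfold LP.D1; ring) (by unfold LP.D2 LP.D1; ring)
  have hR : rootP ![P.B, P.s, P.t, a, b, c, d] mR = P.g0 := by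
    rw [mR, hr, LP.g0]; ring
  have hx : ∀ t, T3 5 1 (P.x1 t) (P.x2 t) (rootP ![P.B, P.s, P.t, a, b, c, d] (al0 t)) := by
    intro t
    fin_cases t
    · exact (ht 0 0 1 1).congr rfl (by simp [LP.D1, LP.x1]) (by simp [LP.D2, LP.D1, LP.x2]; ring)
    · exact (ht 0 1 0 1).congr rfl (by simp [LP.D1, LP.x1]) (by simp [LP.D2, LP.D1, LP.x2]; ring)
  refine ⟨_, hi, hR ▸ P.T3_g0, ?_, ?_, ?_, fun l t => ?_, fun l t => ?_, fun l t j hl => ?_⟩
  · exact (ht 1 0 0 1).congr rfl (by simp [LP.D1]; ring) (by simp [LP.D2, LP.D1]; ring)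
  · exact (ht 10 3 17 17).congr rfl (by norm_num) (by norm_num)
  · exact (ht 4 18 4 18).congr rfl (by norm_num) (by norm_num)
  · exact ((hx t).mul (P.T3_phi l)).congr (by ring) (by unfold LP.F1; ring)
      (by unfold LP.F2; ring)
  · exact ((hx t).mul (P.T3_bet l)).congr (by ring) (by unfold LP.B1; ring)
      (by unfold LP.B2; ring)
  · have h0 : ∀ j : Fin 7, j ≠ 0 → X - C (![P.B, P.s, P.t, a, b, c, d] j) ∣ P.g0 := by
      intro j hj
      have := dvd_rootP ![P.B, P.s, P.t, a, b, c, d] mR j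
      have h1 : mR j = 1 := (by decide : ∀ j : Fin 7, j ≠ 0 → mR j = 1) j hj
      rwa [hR, h1, pow_one] at this
    have h1 : X - C (![P.B, P.s, P.t, a, b, c, d] j) ∣ P.gg := by
      by_cases hj : j = 0
      · subst hj; exact dvd_mul_right _ _
      · exact (h0 j hj).mul_left _
    by_cases hc : t = 0 ∨ j ≠ 0
    · have h2 : be0 t j = al0 t j + 2 :=
        (by decide : ∀ (t : Fin 2) (j : Fin 7), (t = 0 ∨ j ≠ 0) → be0 t j = al0 t j + 2) t j hc
      rw [h2, pow_add]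
      refine mul_dvd_mul (dvd_rootP _ _ _) (P.key l h1 ?_)
      rcases hc with hc | hc
      · simp [hl hc]
      · exact (h0 j hc).mul_left _
    · have h2 : be0 t j = al0 t j + 1 :=
        (by decide : ∀ (t : Fin 2) (j : Fin 7), ¬ (t = 0 ∨ j ≠ 0) → be0 t j = al0 t j + 1) t j hc
      rw [h2, pow_add]
      exact mul_dvd_mul (dvd_rootP _ _ _) (P.key' l h1)

theorem kap_vals (th : ℂ) : kap ![th, 1, -th, -1] = ![2 * th * (th ^ 2 - 1), 2 * (1 - th ^ 2),
    -(2 * th * (th ^ 2 - 1)), -(2 * (1 - th ^ 2))] := by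
  have h0 : (Finset.univ : Finset (Fin 4)).erase 0 = {1, 2, 3} := by decide
  have h1 : (Finset.univ : Finset (Fin 4)).erase 1 = {0, 2, 3} := by decide
  have h2 : (Finset.univ : Finset (Fin 4)).erase 2 = {0, 1, 3} := by decide
  have h3 : (Finset.univ : Finset (Fin 4)).erase 3 = {0, 1, 2} := by decide
  funext i
  fin_cases i
  · simp [kap, h0]; ring
  · simp [kap, h1]; ring
  · simp [kap, h2]; ring
  · simp [kap, h3]; ring

theorem exists_params : ∃ (q : Fin 4 → ℂ) (g : Fin 4 → Fin 7 → ℂ) (c : ℂ)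
    (ph ps : Fin 2 → Fin 4 → ℂ[X]),
    Function.Injective q ∧ (∀ i, Function.Injective (g i)) ∧ c ≠ 0 ∧
    Glue q 6 1 (fun i => rootP (g i) mR) ∧ Glue q 5 1 (fun i => rootP (g i) mT) ∧
    (∀ s, Glue q 98 1 (fun i => rootP (g i) (mD (ty s i)))) ∧
    (∀ s, Glue q 13 1 (ph s)) ∧ Glue q 10 c (ps 0) ∧ Glue q 10 (-c) (ps 1) ∧
    (∀ s i j, (X - C (g i j)) ^ al0 (ty s i) j ∣ ps s i) ∧
    ∀ s i j, (X - C (g i j)) ^ be0 (ty s i) j ∣ ph s i + ps s i * thl (kap q i) (g i j) := by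
  obtain ⟨th, c, l0, l1, P, Q, E, h0, h1, hc, hP, hQ⟩ := exists_LP
  obtain ⟨gP, fP⟩ := hP.facts
  obtain ⟨gQ, fQ⟩ := hQ.facts
  have h1' : 1 - th ^ 2 ≠ 0 := fun h => h1 (by linear_combination -h)
  let L : Fin 4 → LP := ![P, Q, P, Q]
  let g : Fin 4 → Fin 7 → ℂ := ![gP, gQ, gP, gQ]
  let lam : Fin 2 → Fin 4 → ℂ := ![![0, 0, l0, l1], ![l0, l1, 0, 0]]
  have hf : ∀ i, LineFacts (L i) (g i) := by
    intro i; fin_cases i <;> assumption
  have hlam : ∀ s i, ty s i = 0 → lam s i = 0 := by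
    intro s i; fin_cases s <;> fin_cases i <;> simp [ty, lam]
  have hq : Function.Injective ![th, 1, -th, -1] := by
    have a1 : th ≠ 1 := fun h => h1 (by rw [h]; ring)
    have a2 : th ≠ -1 := fun h => h1 (by rw [h]; ring)
    have a3 : th ≠ -th := fun h => h0 (by linear_combination h / 2)
    have a4 : 1 ≠ -th := fun h => a2 (by linear_combination h)
    have a5 : (1 : ℂ) ≠ -1 := by norm_num
    apply List.nodup_ofFn.1
    simp [*]
  have hB : ∀ s i, T3 10 ((kap ![th, 1, -th, -1] i)⁻¹ * (L i).b5 (lam s i))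
      ((kap ![th, 1, -th, -1] i)⁻¹ * (L i).B1 (lam s i) (ty s i))
      ((kap ![th, 1, -th, -1] i)⁻¹ * (L i).B2 (lam s i) (ty s i))
      (C (kap ![th, 1, -th, -1] i)⁻¹ * (rootP (g i) (al0 (ty s i)) * (L i).bet (lam s i))) :=
    fun s i => ((T3_C _).mul ((hf i).tB _ _)).congr rfl (by ring) (by ring)
  refine ⟨![th, 1, -th, -1], g, c, fun s i => rootP (g i) (al0 (ty s i)) * (L i).phi (lam s i),
    fun s i => C (kap ![th, 1, -th, -1] i)⁻¹ * (rootP (g i) (al0 (ty s i)) * (L i).bet (lam s i)),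
    hq, fun i => (hf i).inj, hc, ?_, ?_, fun s => ?_, fun s => ?_, ?_, ?_, fun s i j => ?_,
    fun s i j => ?_⟩
  · exact glue_sym h1 (fun i => (hf i).tR) rfl (by simp) (by simp [L])
  · exact glue_sym h1 (fun i => (hf i).tT) (by simp only [L]; simp; linear_combination 2 * E.eT)
      (by simp [L]) (by simp [L])
  · fin_cases s
    · refine glue_sym h1 (b := ![P.D1 10 3 17 17, Q.D1 10 3 17 17, P.D1 4 18 4 18, Q.D1 4 18 4 18])
        (c := ![P.D2 10 3 17 17, Q.D2 10 3 17 17, P.D2 4 18 4 18, Q.D2 4 18 4 18])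
        (fun i => ?_) E.d1a E.d1b E.d2
      fin_cases i
      exacts [fP.tD0, fQ.tD0, fP.tD1, fQ.tD1]
    · refine glue_sym h1 (b := ![P.D1 4 18 4 18, Q.D1 4 18 4 18, P.D1 10 3 17 17, Q.D1 10 3 17 17])
        (c := ![P.D2 4 18 4 18, Q.D2 4 18 4 18, P.D2 10 3 17 17, Q.D2 10 3 17 17])
        (fun i => ?_) ?_ ?_ ?_
      · fin_cases i
        exacts [fP.tD1, fQ.tD1, fP.tD0, fQ.tD0]
      · simp; linear_combination E.d1a
      · simp; linear_combination -E.d1b
      · simp; linear_combination -E.d2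
  · refine glue_sym h1 (fun i => (hf i).tF _ _) ?_ ?_ ?_ <;> fin_cases s <;> simp [L, lam, ty]
    · linear_combination E.f1a
    · linear_combination E.f1a
    · linear_combination E.f1b
    · linear_combination -E.f1b
    · linear_combination E.f2
    · linear_combination -E.f2
  · refine glue_sym h1 (fun i => (hB 0 i).congr ?_ rfl rfl) ?_ ?_ ?_
    · fin_cases i <;> simp [L, lam, kap_vals, E.a00, E.a10, E.a01, E.a11] <;> field_simp
    · simp [L, lam, ty, kap_vals]; field_simp; linear_combination (1 - th ^ 2) * E.bd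
    · simp [L, lam, ty, kap_vals]; field_simp; linear_combination (1 - th ^ 2) * E.bs
    · simp [L, lam, ty, kap_vals]; field_simp; linear_combination (1 - th ^ 2) * E.cs
  · refine glue_sym h1 (fun i => (hB 1 i).congr ?_ rfl rfl) ?_ ?_ ?_
    · fin_cases i <;> simp [L, lam, kap_vals, E.a00, E.a10, E.a01, E.a11] <;> field_simp
    · simp [L, lam, ty, kap_vals]; field_simp; linear_combination -(1 - th ^ 2) * E.bd
    · simp [L, lam, ty, kap_vals]; field_simp; linear_combination (1 - th ^ 2) * E.bs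
    · simp [L, lam, ty, kap_vals]; field_simp; linear_combination (1 - th ^ 2) * E.cs
  · exact ((dvd_rootP _ _ _).mul_right _).mul_left _
  · have hk := kap_ne_zero hq i
    have := (hf i).dv (lam s i) (ty s i) j (hlam s i)
    convert this using 1
    have h2 : C (kap ![th, 1, -th, -1] i)⁻¹ * C (kap ![th, 1, -th, -1] i) = 1 := by
      rw [← map_mul, inv_mul_cancel₀ hk, map_one]
    unfold thl
    linear_combination (rootP (g i) (al0 (ty s i)) * (L i).bet (lam s i) *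
      (C (1 / 4) * X - (X - C (g i j)))) * h2

end Vale.Agent.P266
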