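import Vale.Agent.P266.Defs

/-! P266, task Poly: the degree filtration, restriction to lines, interpolation and gluing. -/

namespace Vale.Agent.P266

open MvPolynomial

theorem one_mem_L0 : (1 : PP) ∈ L0 := Submodule.subset_span (by simp)
theorem zz_mem_L0 : zz ∈ L0 := Submodule.subset_span (by simp)
theorem one_mem_L1 : (1 : PP) ∈ L1 := Submodule.subset_span (by simp)
theorem zz_mem_L1 : zz ∈ L1 := Submodule.subset_span (by simp)
theorem uu_mem_L1 : uu ∈ L1 := Submodule.subset_span (by simp)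
theorem L0_le_L1 : L0 ≤ L1 := Submodule.span_mono (by intro x hx; simp at hx ⊢; tauto)

theorem C_mul_mem {N : Submodule ℂ PP} {F : PP} (c : ℂ) (h : F ∈ N) : C c * F ∈ N := by
  rw [← smul_eq_C_mul]; exact N.smul_mem c h

theorem ln_mem_L0 (q : ℂ) : ln q ∈ L0 := by
  have := C_mul_mem q one_mem_L0
  rw [mul_one] at this
  exact L0.sub_mem zz_mem_L0 this

theorem mul_mem_L1 {a b : ℕ} {F G : PP} (hF : F ∈ L1 ^ a) (hG : G ∈ L1 ^ b) :
    F * G ∈ L1 ^ (a + b) := by
  rw [pow_add]; exact Submodule.mul_mem_mul hF hG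

theorem one_mem_L1_pow (a : ℕ) : (1 : PP) ∈ L1 ^ a := by
  simpa using Submodule.pow_mem_pow L1 one_mem_L1 a

theorem L1_mono {a b : ℕ} (h : a ≤ b) {F : PP} (hF : F ∈ L1 ^ a) : F ∈ L1 ^ b := by
  obtain ⟨c, rfl⟩ := Nat.exists_eq_add_of_le h
  simpa using mul_mem_L1 hF (one_mem_L1_pow c)

theorem mem_L1_one {F : PP} (hF : F ∈ L1) : F ∈ L1 ^ 1 := by simpa using hF

theorem uu_pow_mem (a : ℕ) : uu ^ a ∈ L1 ^ a := Submodule.pow_mem_pow L1 uu_mem_L1 a

theorem Low_le {d : ℕ} (hd : 1 ≤ d) {F : PP} (hF : F ∈ Low d) : F ∈ L1 ^ d := by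
  obtain ⟨c, rfl⟩ := Nat.exists_eq_add_of_le hd
  rw [pow_add, pow_one]
  exact (mul_le_mul' L0_le_L1 le_rfl : L0 * L1 ^ c ≤ L1 * L1 ^ c) (by simpa [Low] using hF)

theorem mul_mem_Low {a b : ℕ} (ha : 1 ≤ a) {F G : PP} (hF : F ∈ Low a) (hG : G ∈ L1 ^ b) :
    F * G ∈ Low (a + b) := by
  have : a + b - 1 = (a - 1) + b := by omega
  rw [Low, this, pow_add, ← mul_assoc]
  exact Submodule.mul_mem_mul hF hG

theorem L0_mul_mem_Low {b : ℕ} {F G : PP} (hF : F ∈ L0) (hG : G ∈ L1 ^ b) :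
    F * G ∈ Low (b + 1) := Submodule.mul_mem_mul hF hG

theorem mem_Low_of_lt {a b : ℕ} (h : a < b) {F : PP} (hF : F ∈ L1 ^ a) : F ∈ Low b := by
  have := Submodule.mul_mem_mul one_mem_L0 (L1_mono (show a ≤ b - 1 by omega) hF)
  simpa [Low] using this

theorem Low_mono {a b : ℕ} (h : a ≤ b) {F : PP} (hF : F ∈ Low a) : F ∈ Low b :=
  (mul_le_mul' le_rfl (fun _ hx => L1_mono (by omega) hx) :
    L0 * L1 ^ (a - 1) ≤ L0 * L1 ^ (b - 1)) hF

theorem Top.mem {d : ℕ} {c : ℂ} {F : PP} (hd : 1 ≤ d) (h : Top d c F) : F ∈ L1 ^ d := by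
  have := (L1 ^ d).add_mem (Low_le hd h) (C_mul_mem c (uu_pow_mem d))
  simpa using this

theorem Top.mul {a b : ℕ} {c c' : ℂ} {F G : PP} (ha : 1 ≤ a) (hb : 1 ≤ b) (hF : Top a c F)
    (hG : Top b c' G) : Top (a + b) (c * c') (F * G) := by
  have h1 := mul_mem_Low ha hF (hG.mem hb)
  have h2 := mul_mem_Low hb hG (C_mul_mem c (uu_pow_mem a))
  rw [add_comm b a] at h2
  have := (Low (a + b)).add_mem h1 h2
  unfold Top
  convert this using 1
  simp only [map_mul]; ring

theorem Top.sub {a : ℕ} {c c' : ℂ} {F G : PP} (hF : Top a c F) (hG : Top a c' G) :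
    Top a (c - c') (F - G) := by
  have := (Low a).sub_mem hF hG
  unfold Top
  convert this using 1
  simp only [map_sub]; ring

theorem Top.sub_low {a : ℕ} {c : ℂ} {F G : PP} (hF : Top a c F) (hG : G ∈ Low a) :
    Top a c (F - G) := by
  have := (Low a).sub_mem hF hG
  unfold Top
  convert this using 1
  ring

theorem Top.ne_zero {a : ℕ} {c : ℂ} {F : PP} (ha : 1 ≤ a) (hc : c ≠ 0) (hF : Top a c F) :
    F ≠ 0 := by
  intro h0
  let ψ : PP →ₐ[ℂ] Polynomial ℂ := aeval ![0, Polynomial.X]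
  have hz : ψ zz = 0 := by simp [ψ, zz]
  have hu : ψ uu = Polynomial.X := by simp [ψ, uu]
  have h1 : ∀ x ∈ L1, (ψ x).natDegree ≤ 1 := by
    intro x hx
    refine Submodule.span_induction ?_ (by simp) ?_ ?_ hx
    · rintro x (rfl | rfl | rfl) <;> simp [hz, hu]
    · intro x y _ _ hx hy
      rw [map_add]; exact (Polynomial.natDegree_add_le _ _).trans (max_le hx hy)
    · intro c x _ hx
      rw [map_smul]; exact (Polynomial.natDegree_smul_le _ _).trans hx
  have h2 : ∀ x ∈ L0, (ψ x).natDegree ≤ 0 := by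
    intro x hx
    refine Submodule.span_induction ?_ (by simp) ?_ ?_ hx
    · rintro x (rfl | rfl) <;> simp [hz]
    · intro x y _ _ hx hy
      rw [map_add]; exact (Polynomial.natDegree_add_le _ _).trans (max_le hx hy)
    · intro c x _ hx
      rw [map_smul]; exact (Polynomial.natDegree_smul_le _ _).trans hx
  have h3 : ∀ n, ∀ x ∈ L1 ^ n, (ψ x).natDegree ≤ n := by
    intro n
    induction n with
    | zero =>
      intro x hx
      rw [pow_zero, Submodule.mem_one] at hx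
      obtain ⟨c, rfl⟩ := hx
      simp
    | succ n ih =>
      intro x hx
      rw [pow_succ] at hx
      refine Submodule.mul_induction_on hx (fun m hm k hk => ?_) (fun x y hx hy => ?_)
      · rw [map_mul]; exact Polynomial.natDegree_mul_le.trans (add_le_add (ih m hm) (h1 k hk))
      · rw [map_add]; exact (Polynomial.natDegree_add_le _ _).trans (max_le hx hy)
  have h4 : ∀ x ∈ Low a, (ψ x).natDegree ≤ a - 1 := by
    intro x hx
    refine Submodule.mul_induction_on hx (fun m hm k hk => ?_) (fun x y hx hy => ?_)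
    · rw [map_mul]
      exact Polynomial.natDegree_mul_le.trans ((add_le_add (h2 m hm) (h3 _ k hk)).trans (by omega))
    · rw [map_add]; exact (Polynomial.natDegree_add_le _ _).trans (max_le hx hy)
  have h5 := h4 _ hF
  rw [h0, zero_sub, map_neg, map_mul, map_pow, hu, Polynomial.natDegree_neg] at h5
  have h6 : ψ (C c) = Polynomial.C c := by simp [ψ]
  rw [h6, Polynomial.natDegree_C_mul_X_pow _ _ hc] at h5
  omega

theorem pu_mem {e : ℕ} {f : Polynomial ℂ} (h : f.natDegree ≤ e) : pu f ∈ L1 ^ e := by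
  rw [pu, Polynomial.aeval_eq_sum_range' (Nat.lt_succ_of_le h)]
  refine Submodule.sum_mem _ fun i hi => Submodule.smul_mem _ _ ?_
  exact L1_mono (by simpa [Nat.lt_succ_iff] using hi) (uu_pow_mem i)

theorem exists_line (q : ℂ) (F : PP) : ∃ f : Polynomial ℂ, ln q ∣ F - pu f := by
  induction F using MvPolynomial.induction_on with
  | C a => exact ⟨Polynomial.C a, by simp [pu]⟩
  | add F G hF hG =>
    obtain ⟨f, hf⟩ := hF
    obtain ⟨g, hg⟩ := hG
    refine ⟨f + g, ?_⟩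
    convert dvd_add hf hg using 1
    simp only [pu, map_add]; ring
  | mul_X F n hF =>
    obtain ⟨f, k, hf⟩ := hF
    fin_cases n
    · refine ⟨f * Polynomial.C q, k * zz + pu f, ?_⟩
      have : pu (f * Polynomial.C q) = pu f * C q := by simp [pu]
      rw [this]
      change F * zz - _ = _
      unfold ln at *
      linear_combination zz * hf
    · refine ⟨f * Polynomial.X, k * uu, ?_⟩
      have : pu (f * Polynomial.X) = pu f * uu := by simp [pu]
      rw [this]
      change F * uu - _ = _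
      linear_combination uu * hf

theorem ln_ne_zero (q : ℂ) : ln q ≠ 0 := by
  intro h
  have := congrArg (eval (fun _ => q + 1)) h
  simp [ln, zz] at this

theorem ln_mul_cof (q : Fin 4 → ℂ) (i : Fin 4) : ln (q i) * cof q i = Pi4 q :=
  Finset.mul_prod_erase Finset.univ (fun k => ln (q k)) (Finset.mem_univ i)

theorem ln_dvd_cof_sub (q : Fin 4 → ℂ) (i : Fin 4) : ln (q i) ∣ cof q i - C (kap q i) := by
  unfold cof kap
  rw [map_prod]
  generalize Finset.univ.erase i = t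
  induction t using Finset.induction_on with
  | empty => simp
  | insert k t hk ih =>
    rw [Finset.prod_insert hk, Finset.prod_insert hk]
    obtain ⟨w, hw⟩ := ih
    refine ⟨ln (q k) * w + ∏ k ∈ t, C (q i - q k), ?_⟩
    rw [map_sub]
    unfold ln at *
    linear_combination (zz - C (q k)) * hw

theorem ln_dvd_cof (q : Fin 4 → ℂ) {i k : Fin 4} (h : i ≠ k) : ln (q i) ∣ cof q k := by
  exact Finset.dvd_prod_of_mem (fun k => ln (q k)) (by simp [h])

theorem ln_dvd_dPi_sub (q : Fin 4 → ℂ) (i : Fin 4) : ln (q i) ∣ dPi q - C (kap q i) := by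
  rw [dPi, ← Finset.add_sum_erase _ _ (Finset.mem_univ i), add_sub_right_comm]
  exact dvd_add (ln_dvd_cof_sub q i)
    (Finset.dvd_sum fun k hk => ln_dvd_cof q (Finset.ne_of_mem_erase hk).symm)

theorem kap_ne_zero {q : Fin 4 → ℂ} (hq : Function.Injective q) (i : Fin 4) : kap q i ≠ 0 := by
  exact Finset.prod_ne_zero_iff.2 fun k hk =>
    sub_ne_zero.2 fun h => Finset.ne_of_mem_erase hk (hq h).symm

theorem ln_mem_L1 (q : ℂ) : ln q ∈ L1 ^ 1 := mem_L1_one (L0_le_L1 (ln_mem_L0 q))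

theorem ln3_mem (a b c : ℂ) : ln a * (ln b * ln c) ∈ Low 3 :=
  L0_mul_mem_Low (ln_mem_L0 a) (mul_mem_L1 (ln_mem_L1 b) (ln_mem_L1 c))

theorem cof_vals (q : Fin 4 → ℂ) : cof q = ![ln (q 1) * (ln (q 2) * ln (q 3)),
    ln (q 0) * (ln (q 2) * ln (q 3)), ln (q 0) * (ln (q 1) * ln (q 3)),
    ln (q 0) * (ln (q 1) * ln (q 2))] := by
  have h0 : (Finset.univ : Finset (Fin 4)).erase 0 = {1, 2, 3} := by decide
  have h1 : (Finset.univ : Finset (Fin 4)).erase 1 = {0, 2, 3} := by decide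
  have h2 : (Finset.univ : Finset (Fin 4)).erase 2 = {0, 1, 3} := by decide
  have h3 : (Finset.univ : Finset (Fin 4)).erase 3 = {0, 1, 2} := by decide
  funext i
  fin_cases i
  · simp [cof, h0]
  · simp [cof, h1]
  · simp [cof, h2]
  · simp [cof, h3]

theorem cof_mem_Low (q : Fin 4 → ℂ) (i : Fin 4) : cof q i ∈ Low 3 := by
  rw [cof_vals]
  fin_cases i <;> exact ln3_mem _ _ _

theorem Pi4_mem_Low (q : Fin 4 → ℂ) : Pi4 q ∈ Low 4 := by
  rw [← ln_mul_cof q 0]
  exact L0_mul_mem_Low (ln_mem_L0 _) (Low_le (by norm_num) (cof_mem_Low q 0))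

theorem euler_Pi4 (q : Fin 4 → ℂ) : C (1 / 4) * zz * dPi q - Pi4 q ∈ L1 ^ 3 := by
  have h : C (1 / 4) * zz * dPi q - Pi4 q = C (1 / 4) * ∑ i, C (q i) * cof q i := by
    have h4 : (C (1 / 4) : PP) * 4 = 1 := by
      rw [show (4 : PP) = C 4 from rfl, ← map_mul]; norm_num
    simp only [dPi, Pi4, cof_vals, Fin.sum_univ_four, Fin.prod_univ_four, ln]
    simp only [Matrix.cons_val_zero, Matrix.cons_val_one, Matrix.cons_val]
    linear_combination ((zz - C (q 0)) * (zz - C (q 1)) * (zz - C (q 2)) * (zz - C (q 3))) * h4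
  rw [h]
  exact C_mul_mem _ (Submodule.sum_mem _ fun i _ =>
    C_mul_mem _ (Low_le (by norm_num) (cof_mem_Low q i)))

theorem ln_mem_mx (q g : ℂ) : ln q ∈ mx q g := Ideal.subset_span (by simp [ln])
theorem up_mem_mx (q g : ℂ) : uu - C g ∈ mx q g := Ideal.subset_span (by simp)

/-- If `(X - g) ^ (m - n)` divides `f` then `ln q ^ n * f(u)` has multiplicity at least `m`. -/
theorem ln_pow_mul_mem (q g : ℂ) (m n : ℕ) {f : Polynomial ℂ}
    (h : (Polynomial.X - Polynomial.C g) ^ (m - n) ∣ f) : ln q ^ n * pu f ∈ mx q g ^ m := by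
  obtain ⟨k, rfl⟩ := h
  have h1 : pu ((Polynomial.X - Polynomial.C g) ^ (m - n) * k) = (uu - C g) ^ (m - n) * pu k := by
    simp [pu]
  rw [h1, ← mul_assoc]
  refine Ideal.mul_mem_right _ _ (Ideal.pow_le_pow_right (show m ≤ n + (m - n) by omega) ?_)
  rw [pow_add]
  exact Ideal.mul_mem_mul (Ideal.pow_mem_pow (ln_mem_mx q g) _)
    (Ideal.pow_mem_pow (up_mem_mx q g) _)

/-- Lagrange interpolation across the four lines. -/
theorem interp {q : Fin 4 → ℂ} (hq : Function.Injective q) (r : Fin 4 → Polynomial ℂ) (e : ℕ)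
    (h : ∀ i, (r i).natDegree ≤ e) : ∃ y ∈ Low (e + 3), ∀ i, ln (q i) ∣ y - pu (r i) := by
  refine ⟨∑ k, C (kap q k)⁻¹ * (cof q k * pu (r k)), Submodule.sum_mem _ fun k _ => ?_, fun i => ?_⟩
  · rw [add_comm]
    exact C_mul_mem _ (mul_mem_Low (by norm_num) (cof_mem_Low q k) (pu_mem (h k)))
  · rw [← Finset.add_sum_erase _ _ (Finset.mem_univ i), add_sub_right_comm]
    refine dvd_add ?_ (Finset.dvd_sum fun k hk =>
      ((ln_dvd_cof q (Finset.ne_of_mem_erase hk).symm).mul_right _).mul_left _)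
    have h1 : (C (kap q i)⁻¹ : PP) * C (kap q i) = 1 := by
      rw [← map_mul, inv_mul_cancel₀ (kap_ne_zero hq i), map_one]
    obtain ⟨w, hw⟩ := ln_dvd_cof_sub q i
    exact ⟨C (kap q i)⁻¹ * w * pu (r i), by
      linear_combination C (kap q i)⁻¹ * pu (r i) * hw + pu (r i) * h1⟩

/-- `f` has degree at most `N` and top three coefficients `a, b, c`. -/
def T3 (N : ℕ) (a b c : ℂ) (f : Polynomial ℂ) : Prop :=
  f.natDegree ≤ N ∧ (Polynomial.reflect N f).coeff 0 = a ∧ (Polynomial.reflect N f).coeff 1 = b ∧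
    (Polynomial.reflect N f).coeff 2 = c

/-- The four line polynomials `f i` are compatible at the common point of the lines. -/
def Glue (q : Fin 4 → ℂ) (N : ℕ) (a : ℂ) (f : Fin 4 → Polynomial ℂ) : Prop :=
  ∃ a1 b1 a2 b2 c2 : ℂ, ∀ i, T3 N a (a1 + b1 * q i) (a2 + b2 * q i + c2 * q i ^ 2) (f i)

theorem Glue.exists {q : Fin 4 → ℂ} (hq : Function.Injective q) {N : ℕ} (hN : 3 ≤ N) {a : ℂ}
    {f : Fin 4 → Polynomial ℂ} (h : Glue q N a f) :
    ∃ F : PP, Top N a F ∧ ∀ i, ln (q i) ∣ F - pu (f i) := by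
  obtain ⟨a1, b1, a2, b2, c2, h⟩ := h
  obtain ⟨n, rfl⟩ : ∃ n, N = n + 3 := ⟨N - 3, by omega⟩
  let r : Fin 4 → Polynomial ℂ := fun i => f i - (Polynomial.C a * Polynomial.X ^ (n + 3) +
    Polynomial.C (a1 + b1 * q i) * Polynomial.X ^ (n + 2) +
    Polynomial.C (a2 + b2 * q i + c2 * q i ^ 2) * Polynomial.X ^ (n + 1))
  have hr : ∀ i, (r i).natDegree ≤ n := by
    intro i
    obtain ⟨h0, h1, h2, h3⟩ := h i
    rw [Polynomial.coeff_reflect, Polynomial.revAt_le (by omega)] at h1 h2 h3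
    rw [Polynomial.natDegree_le_iff_coeff_eq_zero]
    intro k hk
    simp only [r, Polynomial.coeff_sub, Polynomial.coeff_add, Polynomial.coeff_C_mul,
      Polynomial.coeff_X_pow]
    by_cases k1 : k = n + 1
    · subst k1; simp [← h3]
    by_cases k2 : k = n + 2
    · subst k2; simp [← h2]
    by_cases k3 : k = n + 3
    · subst k3; simp [← h1]
    simp [k1, k2, k3, Polynomial.coeff_eq_zero_of_natDegree_lt (show (f i).natDegree < k by omega)]
  obtain ⟨y, hy, hl⟩ := interp hq r n hr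
  have hz1 : zz ∈ L1 ^ 1 := mem_L1_one zz_mem_L1
  refine ⟨C a * uu ^ (n + 3) + ((C a1 * 1 + C b1 * zz) * uu ^ (n + 2) +
    (C a2 * uu ^ (n + 1) + C b2 * (zz * uu ^ (n + 1)) + C c2 * (zz * (zz * uu ^ (n + 1)))) + y),
    ?_, fun i => ?_⟩
  · unfold Top
    rw [add_sub_cancel_left]
    refine add_mem (add_mem ?_ (add_mem (add_mem ?_ ?_) ?_)) hy
    · exact L0_mul_mem_Low (add_mem (C_mul_mem _ one_mem_L0) (C_mul_mem _ zz_mem_L0))
        (uu_pow_mem _)
    · exact C_mul_mem _ (mem_Low_of_lt (by omega) (uu_pow_mem _))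
    · exact C_mul_mem _ (mem_Low_of_lt (by omega) (mul_mem_L1 hz1 (uu_pow_mem _)))
    · refine C_mul_mem _ (L0_mul_mem_Low zz_mem_L0 ?_)
      exact L1_mono (by omega) (mul_mem_L1 hz1 (uu_pow_mem _))
  · obtain ⟨w, hw⟩ := hl i
    have h1 : pu (r i) = pu (f i) - (C a * uu ^ (n + 3) + (C a1 + C b1 * C (q i)) * uu ^ (n + 2) +
        (C a2 + C b2 * C (q i) + C c2 * C (q i) ^ 2) * uu ^ (n + 1)) := by
      simp [r, pu]
    rw [h1] at hw
    refine ⟨w + C b1 * uu ^ (n + 2) + (C b2 + C c2 * (zz + C (q i))) * uu ^ (n + 1), ?_⟩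
    unfold ln at *
    linear_combination hw

end Vale.Agent.P266
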