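import Vale.Agent.P266.Horace

/-! P266: calculus of the top three coefficients, and the data on one line. -/

namespace Vale.Agent.P266

open Polynomial

theorem T3.congr {N : ℕ} {a b c a' b' c' : ℂ} {f : ℂ[X]} (h : T3 N a b c f) (ha : a = a')
    (hb : b = b') (hc : c = c') : T3 N a' b' c' f := by
  subst ha hb hc; exact h

theorem T3.mul {N M : ℕ} {a b c a' b' c' : ℂ} {f g : ℂ[X]} (h : T3 N a b c f)
    (h' : T3 M a' b' c' g) :
    T3 (N + M) (a * a') (a * b' + b * a') (a * c' + b * b' + c * a') (f * g) := by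
  obtain ⟨h0, h1, h2, h3⟩ := h
  obtain ⟨k0, k1, k2, k3⟩ := h'
  refine ⟨natDegree_mul_le.trans (add_le_add h0 k0), ?_, ?_, ?_⟩
  · rw [reflect_mul f g h0 k0, mul_coeff_zero, h1, k1]
  · rw [reflect_mul f g h0 k0, coeff_mul]
    simp [Finset.Nat.antidiagonal_succ, h1, h2, k1, k2, - coeff_reflect]
  · rw [reflect_mul f g h0 k0, coeff_mul]
    simp [Finset.Nat.antidiagonal_succ, h1, h2, h3, k1, k2, k3, add_assoc, - coeff_reflect]

theorem T3_C (a : ℂ) : T3 0 a 0 0 (C a) := by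
  refine ⟨by simp, ?_, ?_, ?_⟩ <;> simp [coeff_C]

theorem T3.pow {N : ℕ} {b c : ℂ} {f : ℂ[X]} (h : T3 N 1 b c f) (m : ℕ) :
    T3 (N * m) 1 (m * b) (m * c + m * (m - 1) / 2 * b ^ 2) (f ^ m) := by
  induction m with
  | zero => simpa using T3_C 1
  | succ m ih =>
    rw [pow_succ, Nat.mul_succ]
    refine (ih.mul h).congr (by ring) (by push_cast; ring) (by push_cast; ring)

theorem T3_of_coeff {n : ℕ} {a b c : ℂ} {f : ℂ[X]} (h : f.natDegree ≤ n + 2)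
    (ha : f.coeff (n + 2) = a) (hb : f.coeff (n + 1) = b) (hc : f.coeff n = c) :
    T3 (n + 2) a b c f := by
  refine ⟨h, ?_, ?_, ?_⟩
  · rw [coeff_reflect, revAt_le (by omega)]; simpa using ha
  · rw [coeff_reflect, revAt_le (by omega)]; simpa using hb
  · rw [coeff_reflect, revAt_le (by omega)]; simpa using hc

theorem T3_lin (g : ℂ) : T3 1 1 (-g) 0 (X - C g) := by
  refine ⟨by simp, ?_, ?_, ?_⟩
  · rw [coeff_reflect]; simp
  · rw [coeff_reflect]; simp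
  · rw [coeff_reflect, revAt_eq_self_of_lt (by omega)]; simp [coeff_X, coeff_C]

theorem T3.sub {N : ℕ} {a b c a' b' c' : ℂ} {f g : ℂ[X]} (h : T3 N a b c f)
    (h' : T3 N a' b' c' g) : T3 N (a - a') (b - b') (c - c') (f - g) := by
  obtain ⟨h0, h1, h2, h3⟩ := h
  obtain ⟨k0, k1, k2, k3⟩ := h'
  refine ⟨(natDegree_sub_le _ _).trans (max_le h0 k0), ?_, ?_, ?_⟩ <;>
    simp only [coeff_reflect, coeff_sub] at * <;> simp only [*]

theorem T3.coeff_top {N : ℕ} {a b c : ℂ} {f : ℂ[X]} (h : T3 N a b c f) : f.coeff N = a := by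
  have := h.2.1
  rwa [coeff_reflect, revAt_le (by omega)] at this

theorem T3.up2 {N : ℕ} {a b c : ℂ} {f : ℂ[X]} (h : T3 N a b c f) : T3 (N + 2) 0 0 a f :=
  T3_of_coeff (h.1.trans (by omega)) (coeff_eq_zero_of_natDegree_lt (by have := h.1; omega))
    (coeff_eq_zero_of_natDegree_lt (by have := h.1; omega)) h.coeff_top

theorem glue_sym {th : ℂ} (hth : th ^ 2 - 1 ≠ 0) {N : ℕ} {a : ℂ} {b c : Fin 4 → ℂ}
    {f : Fin 4 → ℂ[X]} (h : ∀ i, T3 N a (b i) (c i) (f i)) (h1 : b 0 + b 2 = b 1 + b 3)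
    (h2 : b 0 - b 2 = th * (b 1 - b 3)) (h3 : c 0 - c 2 = th * (c 1 - c 3)) :
    Glue ![th, 1, -th, -1] N a f := by
  refine ⟨(b 1 + b 3) / 2, (b 1 - b 3) / 2,
    (c 1 + c 3) / 2 - (c 0 + c 2 - c 1 - c 3) / (2 * (th ^ 2 - 1)), (c 1 - c 3) / 2,
    (c 0 + c 2 - c 1 - c 3) / (2 * (th ^ 2 - 1)), fun i => (h i).congr rfl ?_ ?_⟩
  · fin_cases i <;> simp
    · linear_combination h1 / 2 + h2 / 2
    · ring
    · linear_combination h1 / 2 - h2 / 2
    · ring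
  · fin_cases i <;> simp
    · field_simp; linear_combination (th ^ 2 - 1) * h3
    · ring
    · field_simp; linear_combination - (th ^ 2 - 1) * h3
    · ring

/-- Parameters of one line. -/
structure LP where
  B : ℂ
  s : ℂ
  t : ℂ
  f : ℂ
  e3 : ℂ
  e4 : ℂ

namespace LP
variable (P : LP) (l : ℂ)
def t2 : ℂ := P.f - (P.s + P.t) ^ 2 + P.s * P.t
def t3 : ℂ := P.e3 + (P.s + P.t) * P.f - P.s * P.t * (P.s + P.t)
def t4 : ℂ := P.e4 + (P.s + P.t) * P.e3 + P.s * P.t * P.f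
def t5 : ℂ := (P.s + P.t) * P.e4 + P.s * P.t * P.e3
def t6 : ℂ := P.s * P.t * P.e4
noncomputable def c0 : ℂ := -(P.B + l) / 7
noncomputable def b5 : ℂ := -2 * P.t2 - 6 * P.c0 l * P.B
noncomputable def b4 : ℂ := 3 * (P.t3 + P.B * P.t2) + 5 * P.c0 l * P.t2 + l * P.t2
noncomputable def b3 : ℂ :=
  -4 * (P.t4 + P.B * P.t3) - 4 * P.c0 l * (P.t3 + P.B * P.t2) - l * P.t3
noncomputable def gO : ℂ[X] :=
  X ^ 4 + C (P.s + P.t) * X ^ 3 + C P.f * X ^ 2 - C P.e3 * X + C P.e4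
noncomputable def g0 : ℂ[X] := (X - C P.s) * (X - C P.t) * P.gO
noncomputable def gg : ℂ[X] := (X - C P.B) * P.g0
noncomputable def bet : ℂ[X] := derivative P.gg * (X + C (P.c0 l)) - 7 * P.gg + C l * P.g0
noncomputable def phi : ℂ[X] := P.gg * (X + C (P.c0 l)) - C (1 / 4) * P.bet l * X

theorem T3_gO : T3 4 1 (P.s + P.t) P.f P.gO := by
  refine T3_of_coeff (n := 2) (by unfold gO; compute_degree) ?_ ?_ ?_ <;>
    simp [gO, coeff_X, coeff_C, coeff_X_pow, - map_add]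

theorem T3_g0 : T3 6 1 0 P.t2 P.g0 :=
  (((T3_lin P.s).mul (T3_lin P.t)).mul P.T3_gO).congr (by ring) (by ring) (by unfold t2; ring)

theorem T3_gg : T3 7 1 (-P.B) P.t2 P.gg :=
  ((T3_lin P.B).mul P.T3_g0).congr (by ring) (by ring) (by ring)

theorem bet_eq : P.bet l = C (P.b5 l) * X ^ 5 + C (P.b4 l) * X ^ 4 + C (P.b3 l) * X ^ 3 +
    C (5 * (P.t5 + P.B * P.t4) + 3 * P.c0 l * (P.t4 + P.B * P.t3) + l * P.t4) * X ^ 2 +
    C (-6 * (P.t6 + P.B * P.t5) - 2 * P.c0 l * (P.t5 + P.B * P.t4) - l * P.t5) * X +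
    C (7 * (P.B * P.t6) + P.c0 l * (P.t6 + P.B * P.t5) + l * P.t6) := by
  have hc : (7 : ℂ[X]) * C (P.c0 l) + C P.B + C l = 0 := by
    have : 7 * P.c0 l + P.B + l = 0 := by unfold c0; ring
    simpa [map_ofNat] using congrArg C this
  simp only [bet, gg, g0, gO, b5, b4, b3, t2, t3, t4, t5, t6, derivative_mul, derivative_sub,
    derivative_add, derivative_X, derivative_C, derivative_X_pow, map_add, map_sub, map_mul,
    map_neg, map_pow, map_ofNat, Nat.cast_ofNat]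
  linear_combination X ^ 6 * hc

theorem T3_bet : T3 5 (P.b5 l) (P.b4 l) (P.b3 l) (P.bet l) := by
  rw [bet_eq]
  refine T3_of_coeff (n := 3) (by compute_degree) ?_ ?_ ?_ <;>
    simp only [coeff_add, coeff_C_mul, coeff_X_pow, coeff_X, coeff_C] <;> simp

theorem T3_phi : T3 8 1 (P.c0 l - P.B) (P.t2 - P.c0 l * P.B - P.b5 l / 4) (P.phi l) := by
  have h1 := P.T3_gg.mul (T3_lin (-P.c0 l))
  have h2 := (((T3_C (1 / 4)).mul (P.T3_bet l)).mul (T3_lin 0)).up2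
  have h3 := h1.sub h2
  simp only [map_neg, sub_neg_eq_add, map_zero, sub_zero] at h3
  exact h3.congr (by ring) (by ring) (by ring)

theorem key {g : ℂ} (h1 : X - C g ∣ P.gg) (h2 : X - C g ∣ C l * P.g0) :
    (X - C g) ^ 2 ∣ P.phi l + P.bet l * (C (1 / 4) * X - (X - C g)) := by
  obtain ⟨h, hh⟩ := h1
  obtain ⟨k, hk⟩ := h2
  refine ⟨-(derivative h * (X + C (P.c0 l)) - 7 * h + k), ?_⟩
  unfold phi bet
  rw [hk, hh]
  simp only [derivative_mul, derivative_sub, derivative_X, derivative_C]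
  ring

theorem key' {g : ℂ} (h1 : X - C g ∣ P.gg) :
    (X - C g) ^ 1 ∣ P.phi l + P.bet l * (C (1 / 4) * X - (X - C g)) := by
  obtain ⟨h, hh⟩ := h1
  refine ⟨h * (X + C (P.c0 l)) - P.bet l, ?_⟩
  unfold phi
  rw [hh]
  ring

end LP

end Vale.Agent.P266
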